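import Vale.Agent.P134.R2.H584.Crit
import Vale.Agent.P134.R2.H561.StA
import Vale.Agent.P134.R2.H561.Rig

set_option linter.all false

/-! Assembly in coordinates. -/

open MeasureTheory Filter Topology

namespace Vale.Agent.P134.R2.H584

open Vale.Agent.P134 Vale.Agent.P134.H765
open Vale.Agent.P134.B331.M (one_esq_pos cutb_mono hcs_pow cutb_hcs cutb_cont)
open Vale.Agent.P134.H775 (Stb stb_of_hypN)
open Vale.Agent.P134.H491 (HypN)
open Vale.Agent.P134.R2.H561 (SH PPH pph defi_res exists_energy single_dd)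

variable {m n k : ℕ}

lemma stb_of_sh {u : (Fin n → ℝ) → ℝ} (h : SH u) : Stb (fun x => 3 * u x ^ 2 - 1) := by
  obtain ⟨hu, C, hC⟩ := h
  exact stb_of_hypN ((continuous_const.mul (hu.c2.continuous.pow 2)).sub continuous_const) hC

lemma pd_zero_of_QS {u : (Fin n → ℝ) → ℝ} {S : Finset (Fin n)} {x : Fin n → ℝ}
    (h : QS S u x = 0) {i : Fin n} (hi : i ∈ S) : pd i u x = 0 := by
  have h1 := (Finset.sum_eq_zero_iff_of_nonneg (fun i _ => sq_nonneg (pd i u x))).mp h i hi
  exact pow_eq_zero_iff (two_ne_zero) |>.mp h1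

/-- A stable solution which does not depend on `m` coordinates has no deficit. -/
lemma defi_of_QS {U : (Fin (m + 3) → ℝ) → ℝ} (hU : SH U) {S : Finset (Fin (m + 3))}
    (hS : m ≤ S.card) (h : ∀ x, QS S U x = 0) (x : Fin (m + 3) → ℝ) : defi U x = 0 := by
  set e : Fin m → Fin (m + 3) := fun i => S.orderEmbOfFin rfl (Fin.castLE hS i) with he
  have hinj : Function.Injective e := fun i j hij =>
    Fin.castLE_injective hS ((S.orderEmbOfFin rfl).injective hij)
  have heS : ∀ i, e i ∈ S := fun i => Finset.orderEmbOfFin_mem S rfl _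
  have hli : LinearIndependent ℝ (fun i : Fin m => (Pi.single (e i) 1 : Fin (m + 3) → ℝ)) := by
    have h1 := (Pi.basisFun ℝ (Fin (m + 3))).linearIndependent.comp e hinj
    have e2 : (fun i : Fin m => (Pi.single (e i) 1 : Fin (m + 3) → ℝ))
        = (Pi.basisFun ℝ (Fin (m + 3))) ∘ e := by
      funext i
      rw [Function.comp_apply, Pi.basisFun_apply]
    rw [e2]
    exact h1
  refine pph m U (fun i => Pi.single (e i) 1) hU hli (fun i x => ?_) x
  rw [single_dd, pd_zero_of_QS (h x) (heS i)]

/-- Stable solutions on `ℝ^(m+3)`, `m ≤ 3`, invariant under the rotations of all coordinates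
but one, do not depend on them. -/
theorem stable_QS (hm : m ≤ 3) {U : (Fin (m + 3) → ℝ) → ℝ} (hU : SH U)
    {S : Finset (Fin (m + 3))} (hS : S.card = m + 2) (hrot : RotI S U) (x : Fin (m + 3) → ℝ) :
    QS S U x = 0 := by
  obtain ⟨C, hC0, hC1, -, -⟩ := hU.1.exists_bound
  refine crit (k := m + 1) (by omega) (by omega) hU.1 (stb_of_sh hU) (by rw [hS]) hrot
    (K := ((m:ℝ) + 3) * C ^ 2 * 2 ^ (m + 3)) (fun z R hR => ?_) x
  have hR0 : 0 < R := by linarith
  have hQ : ∀ y, QS S U y ≤ ((m:ℝ) + 3) * C ^ 2 := by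
    intro y
    unfold QS ssq
    calc ∑ i ∈ S, pd i U y ^ 2 ≤ ∑ _i ∈ S, C ^ 2 := by
          refine Finset.sum_le_sum fun i _ => ?_
          rw [← sq_abs]
          exact pow_le_pow_left₀ (abs_nonneg _) (hC1 y i) 2
      _ = ((m:ℝ) + 2) * C ^ 2 := by
          rw [Finset.sum_const, hS, nsmul_eq_mul]; push_cast; ring
      _ ≤ _ := by nlinarith [sq_nonneg C]
  have hQc : Continuous fun x => QS S U (x + z) :=
    (QS_cont hU.1 S).comp (continuous_id.add continuous_const)
  have hm1 : MeasurableSet (box (m + 3) R) := (isCompact_box R).isClosed.measurableSet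
  calc ∫ x in box (m + 3) R, QS S U (x + z)
      ≤ ∫ _x in box (m + 3) R, ((m:ℝ) + 3) * C ^ 2 := by
        apply setIntegral_mono
        · exact hQc.continuousOn.integrableOn_compact (isCompact_box R)
        · exact continuous_const.continuousOn.integrableOn_compact (isCompact_box R)
        · exact fun x => hQ _
    _ = (volume (box (m + 3) R)).toReal * (((m:ℝ) + 3) * C ^ 2) := by
        rw [setIntegral_const, smul_eq_mul]; rfl
    _ = _ := by
        rw [volume_box hR0.le, mul_pow]; ring

/-- restriction to the slice. -/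
lemma rot_res {U : (Fin (n + 1) → ℝ) → ℝ} (dU : Differentiable ℝ U) {S : Finset (Fin n)}
    (h : RotI (S.map Fin.castSuccEmb) U) : RotI S (res U) := by
  intro i hi k hk y
  have h1 := h i.castSucc (Finset.mem_map.mpr ⟨i, hi, rfl⟩) k.castSucc
    (Finset.mem_map.mpr ⟨k, hk, rfl⟩) (emb n y)
  rw [pd_res dU, pd_res dU]
  have e : ∀ j : Fin n, (emb n y) j.castSucc = y j := fun j => by
    rw [emb_apply, Fin.snoc_castSucc]
  rw [e, e] at h1
  exact h1

/-- Monotone solutions on `ℝ^(m+4)`, `m ≤ 3`, invariant under the rotations of all coordinates but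
two, the last one among these two, do not depend on them. -/
theorem mono_QS (hm : m ≤ 3) {u : (Fin (m + 4) → ℝ) → ℝ} (hu : Sol u)
    (hpos : ∀ x, 0 < pd (Fin.last (m + 3)) u x) {S : Finset (Fin (m + 3))} (hS : S.card = m + 2)
    (hrot : RotI (S.map Fin.castSuccEmb) u) (x : Fin (m + 4) → ℝ) :
    QS (S.map Fin.castSuccEmb) u x = 0 := by
  obtain ⟨U, hU, hlim, hpd, -, hinv⟩ := hu.exists_profile (Fin.last (m + 3)) hpos
  have hSH : SH U := ⟨hU, _, HypN.of_tendsto (L := atTop)
    (F := fun (t : ℝ) x => u (x + t • Pi.single (Fin.last (m + 3)) 1)) (fun t => hu.shift _) hU hlim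
    (fun t => (HypN.of_mono hu hpos).translate (t • Pi.single (Fin.last (m + 3)) 1))⟩
  have dU : Differentiable ℝ U := hU.c2.differentiable (by norm_num)
  have hrotU : RotI (S.map Fin.castSuccEmb) U := by
    intro i hi k hk x
    obtain ⟨i', -, rfl⟩ := Finset.mem_map.mp hi
    obtain ⟨k', -, rfl⟩ := Finset.mem_map.mp hk
    have h1 := (hpd x (Fin.castSuccEmb k')).const_mul (x (Fin.castSuccEmb i'))
    have h2 := (hpd x (Fin.castSuccEmb i')).const_mul (x (Fin.castSuccEmb k'))
    refine tendsto_nhds_unique h1 (h2.congr fun t => ?_)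
    have h3 := hrot _ hi _ hk (x + t • Pi.single (Fin.last (m + 3)) 1)
    have e : ∀ j : Fin (m + 3), (x + t • (Pi.single (Fin.last (m + 3)) 1 : Fin (m + 4) → ℝ))
        (Fin.castSuccEmb j) = x (Fin.castSuccEmb j) := by
      intro j
      simp only [Pi.add_apply, Pi.smul_apply, smul_eq_mul, Fin.coe_castSuccEmb, Pi.single_apply,
        if_neg (Fin.castSucc_lt_last j).ne]
      ring
    rw [e, e] at h3
    exact h3.symm
  have hres : SH (res U) := by
    refine ⟨H765.Sol.res hU hinv, ?_⟩
    obtain ⟨-, C, hC⟩ := hSH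
    refine ⟨C, HypN.reduce (p := Fin.last (m + 3)) hC (fun s y => ?_)
      ((continuous_const.mul (hU.c2.continuous.pow 2)).sub continuous_const)⟩
    have e : H160.ins (Fin.last (m + 3)) s y
        = (Fin.snoc y 0 : Fin (m + 4) → ℝ) + s • Pi.single (Fin.last (m + 3)) 1 := by
      unfold H160.ins
      rw [Fin.insertNth_last']
      funext k
      refine Fin.lastCases ?_ (fun k => ?_) k
      · simp
      · simp [Pi.single_apply, (Fin.castSucc_lt_last k).ne]
    show 3 * U (H160.ins (Fin.last (m + 3)) s y) ^ 2 - 1 = 3 * res U y ^ 2 - 1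
    rw [e, hinv]
    rfl
  have hQr := stable_QS hm hres hS (rot_res dU hrotU)
  have hdr : ∀ y, defi (res U) y = 0 := defi_of_QS hres (by omega) hQr
  have hdU : ∀ x, defi U x = 0 := fun x => by rw [defi_res hU hinv, hdr]
  obtain ⟨C, hC0, hC⟩ := exists_energy hu hpos hU hlim hdU
  have hSHu : SH u := ⟨hu, _, HypN.of_mono hu hpos⟩
  refine crit (k := m + 1) (by omega) (by omega) hu (stb_of_sh hSHu)
    (by rw [Finset.card_map, hS]) hrot
    (K := 2 * (C * ((m:ℝ) + 4) ^ (m + 3))) (fun z R hR => ?_) x
  have hR0 : 0 < R := by linarith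
  have hv : Sol (fun x => u (x + z)) := hu.shift z
  have cen : Continuous (en (fun x => u (x + z))) := (en_contDiff hv.c2).continuous
  have hρ : 0 < ((m:ℝ) + 4) * R := by positivity
  have h1 := hC z _ hρ
  have hQc : Continuous fun x => QS (S.map Fin.castSuccEmb) u (x + z) :=
    (QS_cont hu _).comp (continuous_id.add continuous_const)
  have hcc : Continuous (cutb (Finset.univ : Finset (Fin (m + 4))) (((m:ℝ) + 4) * R)) := cutb_cont
  have hm1 : MeasurableSet (box (m + 4) R) := (isCompact_box R).isClosed.measurableSet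
  have i1 : Integrable ((box (m + 4) R).indicator
      fun x => QS (S.map Fin.castSuccEmb) u (x + z)) :=
    (integrable_indicator_iff hm1).mpr (hQc.continuousOn.integrableOn_compact (isCompact_box R))
  have i2 : Integrable fun x => 2 * (cutb Finset.univ (((m:ℝ) + 4) * R) x
      * en (fun y => u (y + z)) x) :=
    ((hcc.mul cen).integrable_of_hasCompactSupport (cutb_hcs hρ).mul_right).const_mul 2
  calc ∫ x in box (m + 4) R, QS (S.map Fin.castSuccEmb) u (x + z)
      = ∫ x, (box (m + 4) R).indicator
          (fun x => QS (S.map Fin.castSuccEmb) u (x + z)) x := (integral_indicator hm1).symm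
    _ ≤ ∫ x, 2 * (cutb Finset.univ (((m:ℝ) + 4) * R) x * en (fun y => u (y + z)) x) := by
        refine integral_mono i1 i2 fun x => ?_
        have h3 : 0 ≤ en (fun y => u (y + z)) x := en_nonneg _ _
        by_cases hx : x ∈ box (m + 4) R
        · rw [Set.indicator_of_mem hx]
          have h4 : cutb Finset.univ (((m:ℝ) + 4) * R) x = 1 := by
            apply th_one
            have hpos : 0 < (((m:ℝ) + 4) * R) ^ 2 := by positivity
            rw [div_le_one hpos]
            have hxb := mem_box.mp hx
            calc rho Finset.univ x = ∑ i, x i ^ 2 := rfl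
              _ ≤ ∑ _i : Fin (m + 4), R ^ 2 := by
                    refine Finset.sum_le_sum fun i _ => ?_
                    rw [← sq_abs]
                    exact pow_le_pow_left₀ (abs_nonneg _) (hxb i) 2
              _ = ((m:ℝ) + 4) * R ^ 2 := by simp
              _ ≤ (((m:ℝ) + 4) * R) ^ 2 := by
                  rw [mul_pow]
                  apply mul_le_mul_of_nonneg_right _ (sq_nonneg R)
                  have : (0:ℝ) ≤ m := Nat.cast_nonneg m
                  nlinarith
          show QS (S.map Fin.castSuccEmb) u (x + z)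
            ≤ 2 * (cutb Finset.univ (((m:ℝ) + 4) * R) x * en (fun y => u (y + z)) x)
          rw [h4, one_mul]
          have h5 : QS (S.map Fin.castSuccEmb) u (x + z)
              ≤ ∑ j, pd j (fun y => u (y + z)) x ^ 2 := by
            unfold QS ssq
            simp_rw [pd_shift]
            exact Finset.sum_le_sum_of_subset_of_nonneg (Finset.subset_univ _)
              fun _ _ _ => sq_nonneg _
          unfold en
          have h6 : 0 ≤ (1 - u (x + z) ^ 2) ^ 2 / 4 := by positivity
          linarith
        · rw [Set.indicator_of_notMem hx]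
          have h4 := cutb_nonneg Finset.univ (((m:ℝ) + 4) * R) x
          positivity
    _ = 2 * ∫ x, cutb Finset.univ (((m:ℝ) + 4) * R) x * en (fun y => u (y + z)) x :=
        integral_const_mul _ _
    _ ≤ 2 * (C * (((m:ℝ) + 4) * R) ^ (m + 3)) := by linarith
    _ = _ := by rw [mul_pow]; ring

end Vale.Agent.P134.R2.H584
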