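import Vale.Agent.P134.R2.H584.Thin

set_option linter.all false

/-! The critical Liouville theorem: solutions invariant under the rotations of `k + 1 ≤ 5`
coordinates whose energy in boxes of size `R` is at most `K R^(k+2)` do not depend on these
coordinates. -/

open MeasureTheory Filter Topology

namespace Vale.Agent.P134.R2.H584

open Vale.Agent.P134 Vale.Agent.P134.H765 Vale.Agent.P134.B331 Vale.Agent.P134.B331.M
open Vale.Agent.P134.H775 (Stb)

variable {n k : ℕ} {S : Finset (Fin n)} {u : (Fin n → ℝ) → ℝ}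

lemma scale_eq (k : ℕ) {R : ℝ} (hR : 0 < R) :
    ((R ^ 2) ^ (-((k:ℝ) / 4))) ^ 2 = (R ^ k)⁻¹ := by
  have hR2 : (0:ℝ) ≤ R ^ 2 := by positivity
  rw [← Real.rpow_natCast ((R ^ 2) ^ (-((k:ℝ) / 4))) 2, ← Real.rpow_mul hR2,
    ← Real.rpow_natCast R 2, ← Real.rpow_mul hR.le, ← Real.rpow_natCast R k, ← Real.rpow_neg hR.le]
  congr 1
  push_cast
  ring

/-- The factor of the gain density. -/
lemma fac_ge (hk : k ≤ 4) (x : Fin n → ℝ) {z2 : ℝ} (hz : rS S x + z2 ≤ esq x) (hz0 : 0 ≤ z2) :
    (k : ℝ) * (z2 / (1 + esq x) ^ 2 + 1 / (1 + esq x) ^ 2) * wt ((k:ℝ) / 4) x ^ 2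
      ≤ (k : ℝ) / (1 + rS S x) * wt ((k:ℝ) / 4) x ^ 2
        - 4 * ((k:ℝ) / 4) ^ 2 * (esq x * ((1 + esq x) ^ (-((k:ℝ) / 4) - 1)) ^ 2) := by
  have hA := one_esq_pos x
  have hr := rS_nonneg S x
  have hk' : (k:ℝ) ≤ 4 := by exact_mod_cast hk
  have hk0 : (0:ℝ) ≤ k := Nat.cast_nonneg k
  have e1 : (1 + esq x) ^ (-((k:ℝ) / 4) - 1) = wt ((k:ℝ) / 4) x / (1 + esq x) := by
    rw [Real.rpow_sub hA, Real.rpow_one]; rfl
  rw [e1]
  set W := wt ((k:ℝ) / 4) x ^ 2 with hW
  have hW0 : 0 ≤ W := sq_nonneg _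
  have e2 : 4 * ((k:ℝ) / 4) ^ 2 * (esq x * (wt ((k:ℝ) / 4) x / (1 + esq x)) ^ 2)
      = (k:ℝ) * ((k:ℝ) / 4 * (esq x / (1 + esq x) ^ 2)) * W := by
    rw [hW]; field_simp
  rw [e2, ← sub_mul]
  apply mul_le_mul_of_nonneg_right _ hW0
  have he := esq_nonneg x
  have h1 : (k:ℝ) / 4 * (esq x / (1 + esq x) ^ 2) ≤ esq x / (1 + esq x) ^ 2 := by
    apply mul_le_of_le_one_left (by positivity)
    linarith
  have h2 : z2 / (1 + esq x) ^ 2 + 1 / (1 + esq x) ^ 2 + esq x / (1 + esq x) ^ 2
      ≤ 1 / (1 + rS S x) := by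
    rw [← add_div, ← add_div, div_le_div_iff₀ (by positivity) (by linarith)]
    have h3 : 0 ≤ esq x - rS S x - z2 := by linarith
    nlinarith [mul_nonneg hz0 (by linarith : (0:ℝ) ≤ esq x - rS S x),
      mul_nonneg h3 hA.le, mul_nonneg h3 hr, mul_nonneg hz0 hr]
  have h4 : (k:ℝ) / (1 + rS S x) = (k:ℝ) * (1 / (1 + rS S x)) := by ring
  rw [h4, ← mul_sub]
  apply mul_le_mul_of_nonneg_left _ hk0
  linarith

lemma sN_nonneg (S : Finset (Fin n)) (u : (Fin n → ℝ) → ℝ) (x : Fin n → ℝ) :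
    0 ≤ sN S (fun i => pd i u) x := by
  have e1 : sN S (fun i => pd i u) x = ∑ j, ((∑ i ∈ S, pd i u x ^ 2)
      * (∑ i ∈ S, pd j (pd i u) x ^ 2) - (∑ i ∈ S, pd i u x * pd j (pd i u) x) ^ 2) := by
    unfold sN ssq sG sB SM.gs
    rw [Finset.sum_sub_distrib, ← Finset.mul_sum, Finset.sum_comm]
  rw [e1]
  refine Finset.sum_nonneg fun j _ => ?_
  have h1 := lagrange S (fun i => pd i u x) (fun i => pd j (pd i u) x)
  have h2 : 0 ≤ ∑ i ∈ S, ∑ k ∈ S, (pd i u x * pd j (pd k u) x - pd k u x * pd j (pd i u) x) ^ 2 :=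
    Finset.sum_nonneg fun _ _ => Finset.sum_nonneg fun _ _ => sq_nonneg _
  linarith

lemma esq_box {R : ℝ} (hR1 : 1 ≤ R) {x : Fin n → ℝ} (hx : x ∈ box n R) :
    1 + esq x ≤ (n + 1) * R ^ 2 := by
  have hxb := mem_box.mp hx
  have h1 : esq x ≤ n * R ^ 2 := by
    unfold esq
    calc ∑ i, x i ^ 2 ≤ ∑ _i : Fin n, R ^ 2 := by
          refine Finset.sum_le_sum fun i _ => ?_
          rw [← sq_abs]
          exact pow_le_pow_left₀ (abs_nonneg _) (hxb i) 2
      _ = n * R ^ 2 := by simp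
  have h2 : 1 ≤ R ^ 2 := one_le_pow₀ hR1
  nlinarith

lemma wt_box (k : ℕ) {R : ℝ} (hR1 : 1 ≤ R) {x : Fin n → ℝ} (hx : x ∈ box n R) :
    (((n:ℝ) + 1) ^ (-((k:ℝ) / 4))) ^ 2 * (R ^ k)⁻¹ ≤ wt ((k:ℝ) / 4) x ^ 2 := by
  have hR0 : 0 < R := by linarith
  have hA := one_esq_pos x
  have hn : (0:ℝ) < (n:ℝ) + 1 := by positivity
  rw [← scale_eq k hR0, ← mul_pow, ← Real.mul_rpow hn.le (by positivity)]
  apply pow_le_pow_left₀ (by positivity)
  unfold wt
  exact Real.rpow_le_rpow_of_nonpos hA (esq_box hR1 hx)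
    (by have : (0:ℝ) ≤ k := Nat.cast_nonneg k; linarith)

/-- The critical Liouville theorem. -/
theorem crit (hk1 : 1 ≤ k) (hk : k ≤ 4) (hu : Sol u) (hs : Stb (fun x => 3 * u x ^ 2 - 1))
    (hcard : S.card = k + 1) (hrot : RotI S u) {K : ℝ}
    (hgr : ∀ (z : Fin n → ℝ) (R : ℝ), 1 ≤ R → ∫ x in box n R, QS S u (x + z) ≤ K * R ^ (k + 2))
    (x : Fin n → ℝ) : QS S u x = 0 := by
  have hkr : (1:ℝ) ≤ k := by exact_mod_cast hk1
  have hk0 : (0:ℝ) < k := by linarith
  obtain ⟨C2, hC2, hgi⟩ := gain_fam (b := (k:ℝ) / 4) n (by positivity)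
  have hQ := QS_cont hu S
  have hQ0 := QS_nonneg S u
  have hgr0 : ∀ R : ℝ, 1 ≤ R → ∫ x in box n R, QS S u x ≤ K * R ^ (k + 2) := by
    intro R hR
    have := hgr 0 R hR
    simpa using this
  set g : (Fin n → ℝ) → ℝ := fun x => (k:ℝ) / (1 + rS S x) with hg
  have h1r : ∀ x, 0 < 1 + rS S x := fun x => by have := rS_nonneg S x; linarith
  have hgc : Continuous g :=
    continuous_const.div (continuous_const.add (rS_cont S)) fun x => (h1r x).ne'
  have hg0 : ∀ x, 0 ≤ g x := fun x => by have := h1r x; simp only [hg]; positivity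
  have hgain : ∀ x, g x * QS S u x ^ 2 ≤ sN S (fun i => pd i u) x := by
    intro x
    have h1 := rot_gain hu.c2 hrot (by omega) x
    have h2 : ((S.card : ℝ) - 1) = k := by rw [hcard]; push_cast; ring
    rw [h2] at h1
    have h3 := sN_nonneg S u x
    simp only [hg]
    rw [div_mul_eq_mul_div, div_le_iff₀ (h1r x)]
    linarith
  set F : (Fin n → ℝ) → ℝ := FF ((k:ℝ) / 4) g (QS S u) with hF
  have hFc : Continuous F := FF_cont hgc hQ
  have hFlow : ∀ (x : Fin n → ℝ) (z2 : ℝ), rS S x + z2 ≤ esq x → 0 ≤ z2 →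
      (k : ℝ) * (z2 / (1 + esq x) ^ 2 + 1 / (1 + esq x) ^ 2) * wt ((k:ℝ) / 4) x ^ 2 * QS S u x
        ≤ F x := fun x z2 hz hz0 => mul_le_mul_of_nonneg_right (fac_ge hk x hz hz0) (hQ0 x)
  have hF0' : ∀ x, (k : ℝ) * (1 / (1 + esq x) ^ 2) * wt ((k:ℝ) / 4) x ^ 2 * QS S u x ≤ F x := by
    intro x
    have h1 := hFlow x 0 (by rw [add_zero]; exact rS_le S x) le_rfl
    rwa [zero_div, zero_add] at h1
  have hF0 : ∀ x, 0 ≤ F x := fun x => by
    refine le_trans ?_ (hF0' x)
    have := hQ0 x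
    positivity
  have hgg : ∀ R : ℝ, 0 < R → ∫ x, cutb Finset.univ R x ^ 2 * F x
      ≤ C2 / R ^ (k + 2) * ∫ x in box n (2 * R), QS S u x := by
    intro R hR
    have h1 := hgi u hu hs S g hgc hg0 hgain R hR
    rw [scale_eq k hR] at h1
    have e : C2 * ((R ^ k)⁻¹ / R ^ 2) = C2 / R ^ (k + 2) := by
      rw [pow_add]; field_simp
    rw [e] at h1
    exact h1
  have hcs2 : ∀ s : ℝ, 0 < s → HasCompactSupport (fun x : Fin n → ℝ => cutb Finset.univ s x ^ 2) :=
    fun s hs => hcs_pow (cutb_hcs (n := n) hs)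
  have hM : ∀ r : ℝ, 1 ≤ r → ∫ x, cutb Finset.univ r x ^ 2 * F x ≤ C2 * K * 2 ^ (k + 2) := by
    intro r hr
    have h1 := hgg r (by linarith)
    have h2 := hgr0 (2 * r) (by linarith)
    have hr4 : 0 < r ^ (k + 2) := by positivity
    calc ∫ x, cutb Finset.univ r x ^ 2 * F x
        ≤ C2 / r ^ (k + 2) * ∫ x in box n (2 * r), QS S u x := h1
      _ ≤ C2 / r ^ (k + 2) * (K * (2 * r) ^ (k + 2)) := by gcongr
      _ = C2 * K * 2 ^ (k + 2) := by rw [mul_pow]; field_simp
  -- the energy is small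
  have small : ∀ ε : ℝ, 0 < ε → ∃ R₀ : ℝ, 1 ≤ R₀ ∧ ∀ R, R₀ ≤ R →
      ∫ x in box n R, QS S u x ≤ ε * R ^ (k + 2) := by
    intro ε hε
    obtain ⟨N, hN1, hN⟩ := thin_small (QS S u) hQ hQ0 hcard hgr (ε := ε / 2) (by positivity)
    have hN0 : (0:ℝ) < N := by exact_mod_cast hN1
    have hn1 : (0:ℝ) < (n:ℝ) + 1 := by positivity
    set cn : ℝ := (((n:ℝ) + 1) ^ (-((k:ℝ) / 4))) ^ 2 with hcn
    have hcn0 : 0 < cn := by positivity
    set κ : ℝ := (k:ℝ) * cn / ((N:ℝ) ^ 2 * ((n:ℝ) + 1) ^ 2) with hκ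
    have hκ0 : 0 < κ := by positivity
    obtain ⟨ρ, hρ1, hρ⟩ := tail_small hFc hF0 hM (show 0 < κ * ε / 4 by positivity)
    set M : ℝ := ∫ x, cutb Finset.univ ρ x ^ 2 * QS S u x with hMdef
    have hM0 : 0 ≤ M := integral_nonneg fun x => mul_nonneg (sq_nonneg _) (hQ0 x)
    have hMε : 0 ≤ 4 * M / ε := by positivity
    refine ⟨ρ + 4 * M / ε + N, by linarith, fun R hR => ?_⟩
    have hρR : ρ ≤ R := by linarith
    have hR1 : 1 ≤ R := by linarith
    have hR0 : 0 < R := by linarith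
    have hNR : (N:ℝ) ≤ R := by linarith
    have hMR : M ≤ ε / 4 * R ^ (k + 2) := by
      have h1 : 4 * M / ε ≤ R := by linarith
      rw [div_le_iff₀ hε] at h1
      have h2 : R ≤ R ^ (k + 2) := le_self_pow₀ hR1 (by omega)
      nlinarith
    -- off the thin set
    set E : Set (Fin n → ℝ) := box n R \ thin S N R with hE
    have hEm : MeasurableSet E := (isCompact_box R).isClosed.measurableSet.diff (thin_meas S N R)
    have hlow : ∀ x ∈ E, κ / R ^ (k + 2) * QS S u x ≤ F x := by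
      intro x hx
      have hxb := hx.1
      obtain ⟨i, hi, hxi⟩ : ∃ i, i ∉ S ∧ R / N < |x i| := by
        by_contra hcon
        push Not at hcon
        exact hx.2 ⟨hxb, hcon⟩
      have hz : (R / N) ^ 2 ≤ x i ^ 2 := by
        rw [← sq_abs (x i)]
        exact pow_le_pow_left₀ (by positivity) hxi.le 2
      have h1 := hFlow x (x i ^ 2) (rS_add_le S x hi) (sq_nonneg _)
      refine le_trans ?_ h1
      apply mul_le_mul_of_nonneg_right _ (hQ0 x)
      have hA := one_esq_pos x
      have hAb := esq_box hR1 hxb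
      have hw := wt_box k hR1 hxb
      have h2 : (R / N) ^ 2 / (((n:ℝ) + 1) * R ^ 2) ^ 2
          ≤ x i ^ 2 / (1 + esq x) ^ 2 + 1 / (1 + esq x) ^ 2 := by
        have h3 : (R / N) ^ 2 / (((n:ℝ) + 1) * R ^ 2) ^ 2 ≤ x i ^ 2 / (1 + esq x) ^ 2 :=
          div_le_div₀ (sq_nonneg _) hz (by positivity) (pow_le_pow_left₀ hA.le hAb 2)
        have h4 : 0 ≤ 1 / (1 + esq x) ^ 2 := by positivity
        linarith
      calc κ / R ^ (k + 2)
          = (k:ℝ) * ((R / N) ^ 2 / (((n:ℝ) + 1) * R ^ 2) ^ 2) * (cn * (R ^ k)⁻¹) := by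
            rw [hκ, pow_add]; field_simp
        _ ≤ _ := by
            apply mul_le_mul _ hw (by positivity) (by positivity)
            exact mul_le_mul_of_nonneg_left h2 hk0.le
    have hn1' : 1 ≤ n := by
      rcases Nat.eq_zero_or_pos n with h0 | h0
      · exfalso
        subst h0
        have : S.card = 0 := by
          rw [Finset.card_eq_zero]; exact Finset.eq_empty_of_isEmpty S
        omega
      · exact h0
    have hn' : (1:ℝ) ≤ n := by exact_mod_cast hn1'
    have hnR : R ≤ n * R := le_mul_of_one_le_left hR0.le hn'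
    have hnR0 : 0 < n * R := by positivity
    have hc1 : ∀ x ∈ E, cutb Finset.univ (n * R) x = 1 := by
      intro x hx
      have hxb := mem_box.mp hx.1
      apply th_one
      have hpos : 0 < (n * R) ^ 2 := by positivity
      rw [div_le_one hpos]
      calc rho Finset.univ x = ∑ i, x i ^ 2 := rfl
        _ ≤ ∑ _i : Fin n, R ^ 2 := by
              refine Finset.sum_le_sum fun i _ => ?_
              rw [← sq_abs]
              exact pow_le_pow_left₀ (abs_nonneg _) (hxb i) 2
        _ = n * R ^ 2 := by simp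
        _ ≤ (n * R) ^ 2 := by
            rw [mul_pow]
            apply mul_le_mul_of_nonneg_right _ (sq_nonneg R)
            nlinarith
    have i1 : Integrable (fun x => cutb Finset.univ ρ x ^ 2 * QS S u x) :=
      int_cc (cutb_cont.pow 2) hQ (hcs2 ρ (by linarith))
    have i2 : Integrable
        (fun x => (cutb Finset.univ (n * R) x ^ 2 - cutb Finset.univ ρ x ^ 2) * F x) := by
      have h1 := (int_cc (cutb_cont.pow 2) hFc (hcs2 (n * R) hnR0)).sub
        (int_cc (cutb_cont.pow 2) hFc (hcs2 ρ (by linarith)))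
      refine h1.congr (Eventually.of_forall fun x => ?_)
      simp only [Pi.sub_apply, Pi.pow_apply]
      ring
    have i0 : IntegrableOn (QS S u) (box n R) :=
      hQ.continuousOn.integrableOn_compact (isCompact_box R)
    have i3 : Integrable (fun x => QS S u x * ind E x) := by
      have : (fun x => QS S u x * ind E x) = E.indicator (QS S u) := by
        ext x
        by_cases hx : x ∈ E
        · rw [ind_mem hx, Set.indicator_of_mem hx, mul_one]
        · rw [ind_notMem hx, Set.indicator_of_notMem hx, mul_zero]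
      rw [this]
      exact (i0.mono_set (fun x hx => hx.1)).integrable_indicator hEm
    have hoff : ∫ x in E, QS S u x ≤ ε / 2 * R ^ (k + 2) := by
      rw [← integral_mul_ind hEm]
      calc ∫ x, QS S u x * ind E x
          ≤ ∫ x, (cutb Finset.univ ρ x ^ 2 * QS S u x
            + R ^ (k + 2) / κ * ((cutb Finset.univ (n * R) x ^ 2
              - cutb Finset.univ ρ x ^ 2) * F x)) := by
            apply integral_mono i3 (i1.add (i2.const_mul _))
            intro x
            simp only [Pi.add_apply]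
            have hm : cutb Finset.univ ρ x ^ 2 ≤ cutb Finset.univ (n * R) x ^ 2 :=
              pow_le_pow_left₀ (cutb_nonneg _ _ _) (cutb_mono (by linarith) (by linarith) x) 2
            by_cases hx : x ∈ E
            · rw [ind_mem hx, mul_one, hc1 x hx]
              have h1 := hlow x hx
              have h2 : QS S u x ≤ R ^ (k + 2) / κ * F x := by
                have h3 : R ^ (k + 2) / κ * (κ / R ^ (k + 2) * QS S u x)
                    ≤ R ^ (k + 2) / κ * F x := by gcongr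
                have h4 : R ^ (k + 2) / κ * (κ / R ^ (k + 2) * QS S u x) = QS S u x := by
                  field_simp
                linarith
              rw [hc1 x hx] at hm
              have h5 : 0 ≤ (1:ℝ) ^ 2 - cutb Finset.univ ρ x ^ 2 := by linarith
              have h6 := mul_le_mul_of_nonneg_left h2 h5
              calc QS S u x = cutb Finset.univ ρ x ^ 2 * QS S u x
                    + (1 ^ 2 - cutb Finset.univ ρ x ^ 2) * QS S u x := by ring
                _ ≤ cutb Finset.univ ρ x ^ 2 * QS S u x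
                    + (1 ^ 2 - cutb Finset.univ ρ x ^ 2) * (R ^ (k + 2) / κ * F x) := by linarith
                _ = _ := by ring
            · rw [ind_notMem hx, mul_zero]
              have h1 : 0 ≤ cutb Finset.univ ρ x ^ 2 * QS S u x :=
                mul_nonneg (sq_nonneg _) (hQ0 x)
              have h2 : 0 ≤ (cutb Finset.univ (n * R) x ^ 2 - cutb Finset.univ ρ x ^ 2) * F x :=
                mul_nonneg (by linarith) (hF0 x)
              have h3 : 0 ≤ R ^ (k + 2) / κ := by positivity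
              have h4 := mul_nonneg h3 h2
              linarith
        _ = M + R ^ (k + 2) / κ
              * ∫ x, (cutb Finset.univ (n * R) x ^ 2 - cutb Finset.univ ρ x ^ 2) * F x := by
            rw [integral_add i1 (i2.const_mul _), integral_const_mul]
        _ ≤ ε / 4 * R ^ (k + 2) + R ^ (k + 2) / κ * (κ * ε / 4) := by
            have h1 := hρ (n * R) (by linarith)
            have h3 : 0 ≤ R ^ (k + 2) / κ := by positivity
            have h4 := mul_le_mul_of_nonneg_left h1 h3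
            linarith
        _ = ε / 2 * R ^ (k + 2) := by field_simp; ring
    have hsplit : ∫ x in box n R, QS S u x
        = (∫ x in thin S N R, QS S u x) + ∫ x in E, QS S u x := by
      have hsub : thin S N R ⊆ box n R := fun x hx => hx.1
      have e : box n R = thin S N R ∪ E := by
        rw [hE, Set.union_diff_cancel hsub]
      conv_lhs => rw [e]
      rw [setIntegral_union Set.disjoint_sdiff_right hEm (i0.mono_set hsub)
        (i0.mono_set fun x hx => hx.1)]
    rw [hsplit]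
    have h1 := hN R hNR
    linarith
  -- conclusion
  have hz : F x = 0 := by
    refine zero_of_small hFc hF0 (fun r hr ε hε => ?_) x
    obtain ⟨R', hR'1, hI⟩ := small (ε / (2 ^ (k + 2) * C2 + 1)) (by positivity)
    set R : ℝ := R' + r with hRdef
    have hrR : r ≤ R := by linarith
    have hR0 : 0 < R := by linarith
    have h1 : ∫ x, cutb Finset.univ r x ^ 2 * F x ≤ ∫ x, cutb Finset.univ R x ^ 2 * F x := by
      apply integral_mono
      · exact int_cc (cutb_cont.pow 2) hFc (hcs2 r hr)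
      · exact int_cc (cutb_cont.pow 2) hFc (hcs2 R hR0)
      · intro x
        apply mul_le_mul_of_nonneg_right _ (hF0 x)
        exact pow_le_pow_left₀ (cutb_nonneg _ _ _) (cutb_mono hr hrR x) 2
    have h2 := hgg R hR0
    have h3 := hI (2 * R) (by linarith)
    calc ∫ x, cutb Finset.univ r x ^ 2 * F x
        ≤ C2 / R ^ (k + 2) * ∫ x in box n (2 * R), QS S u x := h1.trans h2
      _ ≤ C2 / R ^ (k + 2) * (ε / (2 ^ (k + 2) * C2 + 1) * (2 * R) ^ (k + 2)) := by gcongr
      _ = 2 ^ (k + 2) * C2 * ε / (2 ^ (k + 2) * C2 + 1) := by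
          rw [mul_pow]; field_simp
      _ ≤ ε := by
          rw [div_le_iff₀ (by positivity)]
          nlinarith
  have h1 := hF0' x
  rw [hz] at h1
  have hpos : 0 < (k : ℝ) * (1 / (1 + esq x) ^ 2) * wt ((k:ℝ) / 4) x ^ 2 := by
    have := wt_pos ((k:ℝ) / 4) x
    have := one_esq_pos x
    positivity
  have h2 := hQ0 x
  by_contra hne
  have h3 : 0 < QS S u x := lt_of_le_of_ne h2 (Ne.symm hne)
  have := mul_pos hpos h3
  linarith

end Vale.Agent.P134.R2.H584
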