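import Mathlib

set_option linter.all false

/-! The pointwise inequality for the group `O(3) x O(2)` on `ℝ⁵`. -/

namespace Vale.Agent.P134.R2.H584

lemma poly_ineq {a b : ℝ} (ha : 0 ≤ a) (hb : 0 ≤ b) :
    25 * (a * b * ((1 + a) * (1 + b))) ≤
      (20 * (1 + a + b) ^ 2 - 45 / 2 * (a + b) * (1 + a)
        + (1 + a) * (5 / 2 - (101 / 100) * (1 + a + b) + 5 * a))
      * (2 * (1 + a + b) ^ 2 - 9 / 2 * (a + b) * (1 + b)
        + (1 + b) * (5 / 2 - (101 / 100) * (1 + a + b) + 5 * b)) := by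
  have h1 := mul_nonneg ha hb
  have h2 := mul_nonneg h1 (sq_nonneg (a - 18 / 25))
  have h3 := sq_nonneg (a ^ 2 - 8 / 5 * b ^ 2)
  have h4 := sq_nonneg (b * (a - 3 / 2 * b))
  have h5 := pow_nonneg ha 2
  have h6 := pow_nonneg hb 2
  have h7 := mul_nonneg ha h6
  have h8 := mul_nonneg h5 hb
  have h9 := pow_nonneg ha 3
  have h10 := pow_nonneg hb 3
  have h11 := mul_nonneg h9 hb
  have h12 := pow_nonneg ha 4
  have h13 := pow_nonneg hb 4
  nlinarith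

lemma A1_pos {a b : ℝ} (ha : 0 ≤ a) (hb : 0 ≤ b) :
    0 < 20 * (1 + a + b) ^ 2 - 45 / 2 * (a + b) * (1 + a)
        + (1 + a) * (5 / 2 - (101 / 100) * (1 + a + b) + 5 * a) := by
  nlinarith [mul_nonneg ha hb, pow_nonneg ha 2, pow_nonneg hb 2]

lemma B1_pos {a b : ℝ} (ha : 0 ≤ a) (hb : 0 ≤ b) :
    0 < 2 * (1 + a + b) ^ 2 - 9 / 2 * (a + b) * (1 + b)
        + (1 + b) * (5 / 2 - (101 / 100) * (1 + a + b) + 5 * b) := by
  nlinarith [mul_nonneg ha hb, pow_nonneg ha 2, pow_nonneg hb 2, sq_nonneg (a - b), sq_nonneg (a - 1 / 2)]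

/-- The pointwise inequality. -/
lemma pt_ineq {a b p q P Q : ℝ} (ha : 0 ≤ a) (hb : 0 ≤ b) (hp : 0 ≤ p) (hq : 0 ≤ q)
    (hP : P ^ 2 = a * p) (hQ : Q ^ 2 = b * q) :
    (1 / 100) * (1 + a + b) * (p + q)
      ≤ 10 * ((2 / (1 + a) * (1 + a + b) ^ 2 - 9 / 4 * (a + b)) * p)
        + 2 * ((1 / (1 + b) * (1 + a + b) ^ 2 - 9 / 4 * (a + b)) * q)
        + 5 / 2 * (p + q) - (1 + a + b) * (p + q) + 5 * (P + Q) ^ 2 := by
  have ha1 : 0 < 1 + a := by linarith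
  have hb1 : 0 < 1 + b := by linarith
  obtain ⟨A, hA⟩ : ∃ A : ℝ, A = 10 * (2 / (1 + a) * (1 + a + b) ^ 2 - 9 / 4 * (a + b)) + 5 / 2
    - (101 / 100) * (1 + a + b) + 5 * a := ⟨_, rfl⟩
  obtain ⟨B, hB⟩ : ∃ B : ℝ, B = 2 * (1 / (1 + b) * (1 + a + b) ^ 2 - 9 / 4 * (a + b)) + 5 / 2
    - (101 / 100) * (1 + a + b) + 5 * b := ⟨_, rfl⟩
  have eA : (1 + a) * A = 20 * (1 + a + b) ^ 2 - 45 / 2 * (a + b) * (1 + a)
        + (1 + a) * (5 / 2 - (101 / 100) * (1 + a + b) + 5 * a) := by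
    rw [hA]; field_simp; ring
  have eB : (1 + b) * B = 2 * (1 + a + b) ^ 2 - 9 / 2 * (a + b) * (1 + b)
        + (1 + b) * (5 / 2 - (101 / 100) * (1 + a + b) + 5 * b) := by
    rw [hB]; field_simp; ring
  have hA0 : 0 < A := by
    have h := A1_pos ha hb
    rw [← eA] at h
    exact (mul_pos_iff_of_pos_left ha1).mp h
  have hB0 : 0 < B := by
    have h := B1_pos ha hb
    rw [← eB] at h
    exact (mul_pos_iff_of_pos_left hb1).mp h
  have hAB : 25 * (a * b) ≤ A * B := by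
    have h := poly_ineq ha hb
    rw [← eA, ← eB] at h
    have h2 : 0 < (1 + a) * (1 + b) := mul_pos ha1 hb1
    have h3 : (25 * (a * b)) * ((1 + a) * (1 + b)) ≤ (A * B) * ((1 + a) * (1 + b)) := by
      nlinarith [h]
    exact le_of_mul_le_mul_right h3 h2
  have hu : 0 ≤ A * p := mul_nonneg hA0.le hp
  have hv : 0 ≤ B * q := mul_nonneg hB0.le hq
  have h1 : (10 * (P * Q)) ^ 2 ≤ (A * p + B * q) ^ 2 := by
    have e1 : (10 * (P * Q)) ^ 2 = 4 * ((25 * (a * b)) * (p * q)) := by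
      rw [mul_pow, mul_pow, hP, hQ]; ring
    have e2 := mul_le_mul_of_nonneg_right hAB (mul_nonneg hp hq)
    rw [e1]
    nlinarith [sq_nonneg (A * p - B * q)]
  have h2 := abs_le_of_sq_le_sq h1 (by linarith)
  have h3 := (abs_le.mp h2).1
  have e3 : 5 * (P + Q) ^ 2 = 5 * (a * p) + 5 * (b * q) + 10 * (P * Q) := by
    rw [← hP, ← hQ]; ring
  have e4 : A * p + B * q = 10 * ((2 / (1 + a) * (1 + a + b) ^ 2 - 9 / 4 * (a + b)) * p)
        + 2 * ((1 / (1 + b) * (1 + a + b) ^ 2 - 9 / 4 * (a + b)) * q)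
        + 5 / 2 * (p + q) - (101 / 100) * (1 + a + b) * (p + q) + 5 * (a * p) + 5 * (b * q) := by
    rw [hA, hB]; ring
  rw [e3]
  linarith

end Vale.Agent.P134.R2.H584
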