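import Vale.Agent.P134.R2.H584.Liou

set_option linter.all false

/-! The potential energy of a stable solution is controlled by the gradient. -/

open MeasureTheory Filter Topology

namespace Vale.Agent.P134.R2.H584

open Vale.Agent.P134 Vale.Agent.P134.SM Vale.Agent.P134.H765 Vale.Agent.P134.B331
  Vale.Agent.P134.B331.M
open Vale.Agent.P134.H775 (Stb continuous_gs integrable_gs)

variable {n : ℕ} {u χ : (Fin n → ℝ) → ℝ}

/-- The basic inequality. -/
theorem pot_le (hu : Sol u) (hs : Stb (fun x => 3 * u x ^ 2 - 1)) (hχ : ContDiff ℝ 1 χ)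
    (hc : HasCompactSupport χ) :
    ∫ x, χ x ^ 2 * (1 - u x ^ 2) ^ 2
      ≤ 14 * (∫ x, χ x ^ 2 * ∑ j, pd j u x ^ 2) + 5 * ∫ x, ∑ j, pd j χ x ^ 2 := by
  have hu1 : ContDiff ℝ 1 u := hu.c2.of_le (by norm_num)
  have du : Differentiable ℝ u := hu1.differentiable (by norm_num)
  have dχ : Differentiable ℝ χ := hχ.differentiable (by norm_num)
  have hm : ContDiff ℝ 1 (fun x => 1 - u x ^ 2) := contDiff_const.sub (hu1.pow 2)
  have dm : Differentiable ℝ (fun x => 1 - u x ^ 2) := hm.differentiable (by norm_num)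
  have hξ : ContDiff ℝ 1 (fun x => (1 - u x ^ 2) * χ x) := hm.mul hχ
  have hξc : HasCompactSupport (fun x => (1 - u x ^ 2) * χ x) := hc.mul_left
  have hζ : ContDiff ℝ 1 (fun x => (u x * (1 - u x ^ 2)) * χ x ^ 2) := (hu1.mul hm).mul (hχ.pow 2)
  have hζc : HasCompactSupport (fun x => (u x * (1 - u x ^ 2)) * χ x ^ 2) := (hcs_pow hc).mul_left
  have h1 := hs _ hξ hξc
  have h2 := weak_eq hu hζ hζc
  have pm : ∀ j x, pd j (fun x => 1 - u x ^ 2) x = -(2 * u x * pd j u x) := by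
    intro j x
    have e : (fun x => 1 - u x ^ 2) = fun x => (fun t : ℝ => 1 - t ^ 2) (u x) := rfl
    rw [e, pd_comp (h := fun t : ℝ => 1 - t ^ 2) (by fun_prop) (du x)]
    have h3 : HasDerivAt (fun t : ℝ => 1 - t ^ 2) (-(2 * u x)) (u x) := by
      simpa only [Nat.cast_ofNat, Nat.add_one_sub_one, pow_one] using
        (hasDerivAt_pow 2 (u x)).const_sub 1
    rw [h3.deriv]; ring
  have pξ : ∀ j x, pd j (fun x => (1 - u x ^ 2) * χ x) x
      = (1 - u x ^ 2) * pd j χ x - 2 * u x * χ x * pd j u x := by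
    intro j x
    rw [pd_mul (dm x) (dχ x), pm]; ring
  have pζ : ∀ j x, pd j (fun x => (u x * (1 - u x ^ 2)) * χ x ^ 2) x
      = (1 - 3 * u x ^ 2) * χ x ^ 2 * pd j u x
        + 2 * (u x * (1 - u x ^ 2)) * χ x * pd j χ x := by
    intro j x
    rw [pd_mul (f := fun x => u x * (1 - u x ^ 2)) (g := fun x => χ x ^ 2) ((du x).mul (dm x))
      ((dχ x).pow 2), pd_mul (f := u) (g := fun x => 1 - u x ^ 2) (du x) (dm x), pm,
      pd_sq (dχ x)]
    ring
  have cu : Continuous u := hu1.continuous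
  have cpu : ∀ j, Continuous (pd j u) := fun j => continuous_pd hu1
  have cpχ : ∀ j, Continuous (pd j χ) := fun j => continuous_pd hχ
  have cG : Continuous fun x => ∑ j, pd j u x ^ 2 := continuous_finsetSum _ fun j _ => (cpu j).pow 2
  have cM : Continuous fun x => (1 - u x ^ 2) ^ 2 := hm.continuous.pow 2
  have i1 : Integrable fun x => χ x ^ 2 * (1 - u x ^ 2) ^ 2 :=
    int_cc (hχ.continuous.pow 2) cM (hcs_pow hc)
  have i2 : Integrable fun x => χ x ^ 2 * ∑ j, pd j u x ^ 2 :=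
    int_cc (hχ.continuous.pow 2) cG (hcs_pow hc)
  have i3 : Integrable fun x => ∑ j, pd j χ x ^ 2 := by
    have := int_gs (f := fun _ => (1:ℝ)) continuous_const hχ hc
    simpa using this
  have i4 : Integrable fun x => gs (fun x => (1 - u x ^ 2) * χ x) x
      + (3 * u x ^ 2 - 1) * ((1 - u x ^ 2) * χ x) ^ 2 := by
    refine (integrable_gs hξ hξc).add ?_
    exact (((continuous_const.mul (cu.pow 2)).sub continuous_const).mul
      (hξ.continuous.pow 2)).integrable_of_hasCompactSupport (hcs_pow hξc).mul_left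
  have i5 : Integrable fun x => ∑ j, pd j u x
      * pd j (fun x => (u x * (1 - u x ^ 2)) * χ x ^ 2) x :=
    integrable_sum_mul (fun j => cpu j) (fun j => continuous_pd hζ)
      (fun j => hasCompactSupport_pd hζc)
  have i6 : Integrable fun x => (u x ^ 3 - u x) * ((u x * (1 - u x ^ 2)) * χ x ^ 2) :=
    (((cu.pow 3).sub cu).mul hζ.continuous).integrable_of_hasCompactSupport hζc.mul_left
  have i7 : Integrable fun x => (∑ j, pd j u x * pd j (fun x => (u x * (1 - u x ^ 2)) * χ x ^ 2) x)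
        + (u x ^ 3 - u x) * ((u x * (1 - u x ^ 2)) * χ x ^ 2) := i5.add i6
  have i8 : Integrable fun x => 3 * ((∑ j, pd j u x
      * pd j (fun x => (u x * (1 - u x ^ 2)) * χ x ^ 2) x)
        + (u x ^ 3 - u x) * ((u x * (1 - u x ^ 2)) * χ x ^ 2)) := i7.const_mul 3
  have i9 : Integrable fun x => 14 * (χ x ^ 2 * ∑ j, pd j u x ^ 2) + 5 * ∑ j, pd j χ x ^ 2 :=
    (i2.const_mul 14).add (i3.const_mul 5)
  have h3 : ∫ x, ((gs (fun x => (1 - u x ^ 2) * χ x) x
      + (3 * u x ^ 2 - 1) * ((1 - u x ^ 2) * χ x) ^ 2)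
      + 3 * ((∑ j, pd j u x * pd j (fun x => (u x * (1 - u x ^ 2)) * χ x ^ 2) x)
        + (u x ^ 3 - u x) * ((u x * (1 - u x ^ 2)) * χ x ^ 2)))
      ≤ ∫ x, ((14 * (χ x ^ 2 * ∑ j, pd j u x ^ 2) + 5 * ∑ j, pd j χ x ^ 2)
        - χ x ^ 2 * (1 - u x ^ 2) ^ 2) := by
    refine integral_mono (i4.add i8) (i9.sub i1) fun x => ?_
    simp only [Pi.add_apply, Pi.sub_apply]
    have hb := abs_le.mp (hu.bd x)
    have hu2 : u x ^ 2 ≤ 1 := by nlinarith
    have hu0 := sq_nonneg (u x)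
    have e1 : gs (fun x => (1 - u x ^ 2) * χ x) x
        ≤ 8 * (χ x ^ 2 * ∑ j, pd j u x ^ 2) + 2 * ∑ j, pd j χ x ^ 2 := by
      unfold gs
      simp_rw [pξ]
      rw [Finset.mul_sum, Finset.mul_sum, Finset.mul_sum, ← Finset.sum_add_distrib]
      refine Finset.sum_le_sum fun j _ => ?_
      have a1 : ((1 - u x ^ 2) * pd j χ x) ^ 2 ≤ pd j χ x ^ 2 := by
        rw [mul_pow]
        have : (1 - u x ^ 2) ^ 2 ≤ 1 := by nlinarith
        nlinarith [sq_nonneg (pd j χ x)]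
      have a2 : (2 * u x * χ x * pd j u x) ^ 2 ≤ 4 * (χ x ^ 2 * pd j u x ^ 2) := by
        have : (2 * u x * χ x * pd j u x) ^ 2 = 4 * u x ^ 2 * (χ x * pd j u x) ^ 2 := by ring
        rw [this, ← mul_pow]
        nlinarith [sq_nonneg (χ x * pd j u x)]
      nlinarith [sq_nonneg ((1 - u x ^ 2) * pd j χ x + 2 * u x * χ x * pd j u x)]
    have e2 : ∑ j, pd j u x * pd j (fun x => (u x * (1 - u x ^ 2)) * χ x ^ 2) x
        ≤ 2 * (χ x ^ 2 * ∑ j, pd j u x ^ 2) + ∑ j, pd j χ x ^ 2 := by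
      simp_rw [pζ]
      rw [Finset.mul_sum, Finset.mul_sum, ← Finset.sum_add_distrib]
      refine Finset.sum_le_sum fun j _ => ?_
      have a3 : (u x * (1 - u x ^ 2)) ^ 2 ≤ 1 := by
        rw [mul_pow]
        have : (1 - u x ^ 2) ^ 2 ≤ 1 := by nlinarith
        nlinarith [sq_nonneg (1 - u x ^ 2)]
      have a4 : ((u x * (1 - u x ^ 2)) * pd j χ x) ^ 2 ≤ pd j χ x ^ 2 := by
        rw [mul_pow]
        nlinarith [sq_nonneg (pd j χ x)]
      have a5 := sq_nonneg (χ x * pd j u x - (u x * (1 - u x ^ 2)) * pd j χ x)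
      have a6 : 0 ≤ u x ^ 2 * (χ x * pd j u x) ^ 2 := by positivity
      nlinarith
    have e3 : (3 * u x ^ 2 - 1) * ((1 - u x ^ 2) * χ x) ^ 2
        + 3 * ((u x ^ 3 - u x) * ((u x * (1 - u x ^ 2)) * χ x ^ 2))
        = - (χ x ^ 2 * (1 - u x ^ 2) ^ 2) := by ring
    linarith
  have h4 : ∫ x, ((gs (fun x => (1 - u x ^ 2) * χ x) x
      + (3 * u x ^ 2 - 1) * ((1 - u x ^ 2) * χ x) ^ 2)
      + 3 * ((∑ j, pd j u x * pd j (fun x => (u x * (1 - u x ^ 2)) * χ x ^ 2) x)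
        + (u x ^ 3 - u x) * ((u x * (1 - u x ^ 2)) * χ x ^ 2)))
      = ∫ x, (gs (fun x => (1 - u x ^ 2) * χ x) x
      + (3 * u x ^ 2 - 1) * ((1 - u x ^ 2) * χ x) ^ 2) := by
    rw [integral_add i4 i8, integral_const_mul, integral_add i5 i6, h2]
    ring
  have h5 : ∫ x, ((14 * (χ x ^ 2 * ∑ j, pd j u x ^ 2) + 5 * ∑ j, pd j χ x ^ 2)
        - χ x ^ 2 * (1 - u x ^ 2) ^ 2)
      = 14 * (∫ x, χ x ^ 2 * ∑ j, pd j u x ^ 2) + 5 * (∫ x, ∑ j, pd j χ x ^ 2)
        - ∫ x, χ x ^ 2 * (1 - u x ^ 2) ^ 2 := by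
    rw [integral_sub i9 i1,
      integral_add (i2.const_mul 14) (i3.const_mul 5), integral_const_mul, integral_const_mul]
  rw [h4, h5] at h3
  linarith

end Vale.Agent.P134.R2.H584
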