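import Vale.Agent.P134.R2.H584.Dr1
import Vale.Agent.P134.R2.H584.Dr2
import Vale.Agent.P134.R2.H584.Asm

set_option linter.all false

/-! Bounded stable solutions on `ℝ⁵` invariant under `O(3) x O(2)` have vanishing gradient. -/

open MeasureTheory Filter Topology

namespace Vale.Agent.P134.R2.H584

open Vale.Agent.P134 Vale.Agent.P134.H919 Vale.Agent.P134.H765 Vale.Agent.P134.B331
  Vale.Agent.P134.B331.M
open Vale.Agent.P134.H775 (Stb)

variable {u : (Fin 5 → ℝ) → ℝ} {S T : Finset (Fin 5)}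

/-- `|∇u|²`. -/
noncomputable def gq {n : ℕ} (u : (Fin n → ℝ) → ℝ) (x : Fin n → ℝ) : ℝ := ∑ j, pd j u x ^ 2

lemma gq_nonneg {n : ℕ} (u : (Fin n → ℝ) → ℝ) (x : Fin n → ℝ) : 0 ≤ gq u x :=
  Finset.sum_nonneg fun _ _ => sq_nonneg _

lemma gq_cont {n : ℕ} {u : (Fin n → ℝ) → ℝ} (hu : Sol u) : Continuous (gq u) :=
  continuous_finsetSum _ fun j _ => ((contDiff_pd_one hu.c2).continuous).pow 2

/-- The density of the stress identity for the weight `(1+|x|²)^(-5/2)`. -/
noncomputable def sg (u : (Fin 5 → ℝ) → ℝ) (x : Fin 5 → ℝ) : ℝ :=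
  5 * en u x * (1 + esq x) ^ (-(7/2) : ℝ) - gq u x * (1 + esq x) ^ (-(5/2) : ℝ)
    + 5 * sx u x ^ 2 * (1 + esq x) ^ (-(7/2) : ℝ)

lemma th2_cd : ContDiff ℝ 1 (fun t => th t ^ 2) := th_contDiff.pow 2

lemma deriv_th2 (t : ℝ) : deriv (fun t => th t ^ 2) t = 2 * th t * deriv th t := by
  have h := ((th_contDiff.differentiable (by norm_num) t).hasDerivAt.pow 2).deriv
  have e : (fun t => th t ^ 2) = th ^ 2 := rfl
  rw [e, h]; ring

/-- The stress identity. -/
theorem stress_w (hu : Sol u) {R : ℝ} (hR : 0 < R) :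
    ∫ x, cutb Finset.univ R x ^ 2 * sg u x
      = ∫ x, 2 / R ^ 2 * (deriv (fun t => th t ^ 2) (rho Finset.univ x / R ^ 2)
          * (wt (5/2) x * (sx u x ^ 2 - rho Finset.univ x * en u x))) := by
  have hΦ0 : ∀ t : ℝ, 2 ≤ t → (fun t => th t ^ 2) t = 0 := fun t ht => by
    simp only; rw [th_zero ht]; ring
  have h := stress_radial (n := 5) (h := wt (5/2)) hu th2_cd hΦ0 (wt_cd (5/2)) hR
  have hE : Continuous fun x : Fin 5 → ℝ => (1 + esq x) ^ (-(7/2) : ℝ) :=
    (continuous_const.add continuous_esq).rpow_const fun x => Or.inl (one_esq_pos x).ne'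
  have hE5 : Continuous fun x : Fin 5 → ℝ => (1 + esq x) ^ (-(5/2) : ℝ) :=
    (continuous_const.add continuous_esq).rpow_const fun x => Or.inl (one_esq_pos x).ne'
  have cen : Continuous (en u) := (en_contDiff hu.c2).continuous
  have csx : Continuous (sx u) := sx_continuous (hu.c2.of_le (by norm_num))
  have cph : Continuous (cr (n := 5) (fun t => th t ^ 2) R) := (cr_contDiff th2_cd R).continuous
  have sph := cr_hasCompactSupport (n := 5) hΦ0 hR
  have hwp : ∀ (i : Fin 5) (x : Fin 5 → ℝ), pd i (wt (5/2)) x = -5 * (1 + esq x) ^ (-(7/2) : ℝ) * x i := by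
    intro i x
    rw [pd_wt]
    norm_num
  have e1 : ∀ x, ∑ i, pd i u x * pd i (wt (5/2)) x = -5 * (1 + esq x) ^ (-(7/2) : ℝ) * sx u x := by
    intro x
    simp_rw [hwp]
    unfold sx
    rw [Finset.mul_sum]
    exact Finset.sum_congr rfl fun i _ => by ring
  have e2 : ∀ x : Fin 5 → ℝ, ∑ i, x i * pd i (wt (5/2)) x = -5 * (1 + esq x) ^ (-(7/2) : ℝ) * esq x := by
    intro x
    simp_rw [hwp]
    unfold esq
    rw [Finset.mul_sum]
    exact Finset.sum_congr rfl fun i _ => by ring
  have ew : ∀ x : Fin 5 → ℝ, wt (5/2) x = (1 + esq x) * (1 + esq x) ^ (-(7/2) : ℝ) := by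
    intro x
    unfold wt
    have h0 := one_esq_pos x
    nth_rewrite 2 [← Real.rpow_one (1 + esq x)]
    rw [← Real.rpow_add h0]; norm_num
  have e3 : ∀ x, wt (5/2) x * (((5:ℕ) - 1 : ℝ) * en u x + defi u x / 2)
      - (sx u x * (∑ i, pd i u x * pd i (wt (5/2)) x) - en u x * ∑ i, x i * pd i (wt (5/2)) x)
      = sg u x := by
    intro x
    rw [e1, e2]
    have hd : defi u x / 2 = en u x - gq u x := by
      unfold en gq defi psi
      ring
    rw [hd]
    unfold sg
    have e5 : (1 + esq x) ^ (-(5/2) : ℝ) = wt (5/2) x := rfl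
    rw [e5, ew]
    push_cast
    ring
  have hcut : ∀ x : Fin 5 → ℝ, cr (fun t => th t ^ 2) R x = cutb Finset.univ R x ^ 2 := fun x => rfl
  have c2 : Continuous fun x => ∑ i, pd i u x * pd i (wt (5/2)) x :=
    continuous_finsetSum _ fun i _ => ((contDiff_pd_one hu.c2).continuous).mul
      (continuous_pd (wt_cd (5/2)))
  have c3 : Continuous fun x : Fin 5 → ℝ => ∑ i, x i * pd i (wt (5/2)) x :=
    continuous_finsetSum _ fun i _ => (continuous_apply i).mul (continuous_pd (wt_cd (5/2)))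
  have cw : Continuous (wt (n := 5) (5/2)) := (wt_cd (5/2) : ContDiff ℝ 1 (wt (n := 5) (5/2))).continuous
  have i1 : Integrable fun x => cr (fun t => th t ^ 2) R x
      * (wt (5/2) x * (((5:ℕ) - 1 : ℝ) * en u x + defi u x / 2)) :=
    (cph.mul (cw.mul ((continuous_const.mul cen).add
        (hu.defi_continuous.div_const 2)))).integrable_of_hasCompactSupport sph.mul_right
  have i2 : Integrable fun x => cr (fun t => th t ^ 2) R x
      * (sx u x * (∑ i, pd i u x * pd i (wt (5/2)) x) - en u x * ∑ i, x i * pd i (wt (5/2)) x) :=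
    (cph.mul ((csx.mul c2).sub (cen.mul c3))).integrable_of_hasCompactSupport sph.mul_right
  have i3 : Integrable fun x : Fin 5 → ℝ => 2 / R ^ 2 * (deriv (fun t => th t ^ 2)
      (rho Finset.univ x / R ^ 2) * (wt (5/2) x * (sx u x ^ 2 - rho Finset.univ x * en u x))) := by
    apply Continuous.integrable_of_hasCompactSupport
    · have hrc : Continuous (rho (n := 5) Finset.univ) := (rho_contDiff (k := 0) _).continuous
      have hdc : Continuous (deriv fun t => th t ^ 2) := th2_cd.continuous_deriv (by norm_num)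
      exact continuous_const.mul ((hdc.comp (hrc.div_const _)).mul
        (cw.mul ((csx.pow 2).sub (hrc.mul cen))))
    · apply HasCompactSupport.intro (isCompact_rho_le (2 * R ^ 2))
      intro x hx
      have : 2 ≤ rho Finset.univ x / R ^ 2 := by
        rw [le_div_iff₀ (by positivity)]
        simp only [Set.mem_setOf_eq, not_le] at hx
        exact hx.le
      rw [deriv_zero_of_ge th2_cd hΦ0 this]; simp
  rw [integral_add i2 i3] at h
  have h4 : ∫ x, cutb Finset.univ R x ^ 2 * sg u x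
      = (∫ x, cr (fun t => th t ^ 2) R x
      * (wt (5/2) x * (((5:ℕ) - 1 : ℝ) * en u x + defi u x / 2)))
      - ∫ x, cr (fun t => th t ^ 2) R x
      * (sx u x * (∑ i, pd i u x * pd i (wt (5/2)) x) - en u x * ∑ i, x i * pd i (wt (5/2)) x) := by
    rw [← integral_sub i1 i2]
    congr 1
    ext x
    rw [← e3, ← hcut]; ring
  rw [h4, h]
  ring

end Vale.Agent.P134.R2.H584
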