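import Vale.Agent.P134.R2.H584.Dr3
import Vale.Agent.P134.R2.H584.Crit

set_option linter.all false

/-! The main inequality for the group `O(3) x O(2)`. -/

open MeasureTheory Filter Topology

namespace Vale.Agent.P134.R2.H584

open Vale.Agent.P134 Vale.Agent.P134.H919 Vale.Agent.P134.H765 Vale.Agent.P134.B331
  Vale.Agent.P134.B331.M
open Vale.Agent.P134.H775 (Stb)

variable {u : (Fin 5 → ℝ) → ℝ} {S T : Finset (Fin 5)}

lemma r5 {R : ℝ} (hR : 0 < R) : (R ^ 2) ^ (-(5/2) : ℝ) = (R ^ 5)⁻¹ := by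
  rw [← Real.rpow_natCast R 2, ← Real.rpow_mul hR.le, ← Real.rpow_natCast R 5,
    ← Real.rpow_neg hR.le]
  congr 1; norm_num

lemma r34 {R : ℝ} (hR : 0 < R) : ((R ^ 2) ^ (-(3/4) : ℝ)) ^ 2 / R ^ 2 = (R ^ 5)⁻¹ := by
  have h := scale_eq 3 hR
  norm_num at h
  have e : (R ^ 2) ^ (-(3/4) : ℝ) = (R ^ 2) ^ (-3 / 4 : ℝ) := by norm_num
  have h' : ((R ^ 2) ^ (-(3/4) : ℝ)) ^ 2 = (R ^ 3)⁻¹ := by
    first
      | exact h
      | (rw [e]; exact h)
      | (rw [← h]; norm_num)
  rw [h']; field_simp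

lemma sx_sq_le {n : ℕ} (u : (Fin n → ℝ) → ℝ) (x : Fin n → ℝ) :
    sx u x ^ 2 ≤ rho Finset.univ x * gq u x :=
  Finset.sum_mul_sq_le_sq_mul_sq _ _ _

/-- The boundary term of the stress identity. -/
lemma bd_stress (hu : Sol u) : ∃ C3 : ℝ, 0 ≤ C3 ∧ ∀ R : ℝ, 0 < R →
    ∫ x, cutb Finset.univ R x ^ 2 * sg u x
      ≤ C3 * (R ^ 5)⁻¹ * ∫ x in box 5 (2 * R), (gq u x + en u x) := by
  obtain ⟨C, hC1, hC⟩ := exists_th_bound
  refine ⟨8 * C, by positivity, fun R hR => ?_⟩
  rw [stress_w hu hR]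
  have cE : Continuous fun x => gq u x + en u x :=
    (gq_cont hu).add (en_contDiff hu.c2).continuous
  have i2 : Integrable (fun x => (gq u x + en u x) * ind (box 5 (2 * R)) x) :=
    integrable_mul_ind cE (isCompact_box _)
  rw [← integral_mul_ind (isCompact_box _).measurableSet, ← integral_const_mul]
  have hΦ0 : ∀ t : ℝ, 2 ≤ t → (fun t => th t ^ 2) t = 0 := fun t ht => by
    simp only; rw [th_zero ht]; ring
  have i3 : Integrable fun x : Fin 5 → ℝ => 2 / R ^ 2 * (deriv (fun t => th t ^ 2)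
      (rho Finset.univ x / R ^ 2) * (wt (5/2) x * (sx u x ^ 2 - rho Finset.univ x * en u x))) := by
    apply Continuous.integrable_of_hasCompactSupport
    · have hrc : Continuous (rho (n := 5) Finset.univ) := (rho_contDiff (k := 0) _).continuous
      have hdc : Continuous (deriv fun t => th t ^ 2) := th2_cd.continuous_deriv (by norm_num)
      exact continuous_const.mul ((hdc.comp (hrc.div_const _)).mul
        ((wt_cd (5/2) : ContDiff ℝ 1 (wt (n := 5) (5/2))).continuous.mul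
          (((sx_continuous (hu.c2.of_le (by norm_num))).pow 2).sub
            (hrc.mul (en_contDiff hu.c2).continuous))))
    · apply HasCompactSupport.intro (isCompact_rho_le (2 * R ^ 2))
      intro x hx
      have : 2 ≤ rho Finset.univ x / R ^ 2 := by
        rw [le_div_iff₀ (by positivity)]
        simp only [Set.mem_setOf_eq, not_le] at hx
        exact hx.le
      rw [deriv_zero_of_ge th2_cd hΦ0 this]; simp
  refine integral_mono i3 (i2.const_mul _) fun x => ?_
  show 2 / R ^ 2 * (deriv (fun t => th t ^ 2) (rho Finset.univ x / R ^ 2)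
      * (wt (5/2) x * (sx u x ^ 2 - rho Finset.univ x * en u x)))
    ≤ 8 * C * (R ^ 5)⁻¹ * ((gq u x + en u x) * ind (box 5 (2 * R)) x)
  have hG := gq_nonneg u x
  have hE := en_nonneg u x
  have hrhs : 0 ≤ 8 * C * (R ^ 5)⁻¹ * ((gq u x + en u x) * ind (box 5 (2 * R)) x) := by
    have := ind_nonneg (box 5 (2 * R)) x
    positivity
  rw [deriv_th2]
  by_cases h1 : rho Finset.univ x / R ^ 2 < 1
  · rw [th_deriv_of_lt h1]; simpa using hrhs
  by_cases h2 : 2 < rho Finset.univ x / R ^ 2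
  · rw [th_deriv_of_gt h2]; simpa using hrhs
  rw [not_lt] at h1 h2
  have hR2 : 0 < R ^ 2 := by positivity
  rw [le_div_iff₀ hR2, one_mul] at h1
  have h2' := h2
  rw [div_le_iff₀ hR2] at h2
  have hbox : x ∈ box 5 (2 * R) := by
    rw [mem_box]
    intro i
    apply abs_le_of_sq_le_sq _ (by positivity)
    have := sq_le_rho (Finset.mem_univ i) x
    nlinarith
  rw [ind_mem hbox, mul_one]
  have hesq : R ^ 2 ≤ esq x := h1
  have hwR := wt_le (b := 5/2) (by norm_num) hR hesq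
  rw [r5 hR] at hwR
  have hw0 := (wt_pos (5/2) x).le
  have hth : |2 * th (rho Finset.univ x / R ^ 2) * deriv th (rho Finset.univ x / R ^ 2)| ≤ 2 * C := by
    rw [abs_mul, abs_mul, abs_two]
    have a1 : |th (rho Finset.univ x / R ^ 2)| ≤ 1 := by
      have b1 : 0 ≤ th (rho Finset.univ x / R ^ 2) := cutb_nonneg Finset.univ R x
      have b2 : th (rho Finset.univ x / R ^ 2) ≤ 1 := cutb_le_one Finset.univ R x
      rw [abs_of_nonneg b1]; exact b2
    have a2 := hC (rho Finset.univ x / R ^ 2)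
    have a3 := abs_nonneg (deriv th (rho Finset.univ x / R ^ 2))
    have a4 := abs_nonneg (th (rho Finset.univ x / R ^ 2))
    nlinarith
  have hsx := sx_sq_le u x
  have hB : |sx u x ^ 2 - rho Finset.univ x * en u x| ≤ 2 * R ^ 2 * (gq u x + en u x) := by
    have hr0 : 0 ≤ rho Finset.univ x := by linarith
    have a1 : rho Finset.univ x * gq u x ≤ 2 * R ^ 2 * gq u x := mul_le_mul_of_nonneg_right h2 hG
    have a2 : rho Finset.univ x * en u x ≤ 2 * R ^ 2 * en u x := mul_le_mul_of_nonneg_right h2 hE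
    have a3 := sq_nonneg (sx u x)
    have a4 : 0 ≤ rho Finset.univ x * en u x := mul_nonneg hr0 hE
    have a5 : 0 ≤ 2 * R ^ 2 * en u x := by positivity
    have a6 : 0 ≤ 2 * R ^ 2 * gq u x := by positivity
    rw [abs_le]
    constructor <;> linarith
  calc 2 / R ^ 2 * (2 * th (rho Finset.univ x / R ^ 2) * deriv th (rho Finset.univ x / R ^ 2)
        * (wt (5/2) x * (sx u x ^ 2 - rho Finset.univ x * en u x)))
      ≤ |2 / R ^ 2 * (2 * th (rho Finset.univ x / R ^ 2) * deriv th (rho Finset.univ x / R ^ 2)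
        * (wt (5/2) x * (sx u x ^ 2 - rho Finset.univ x * en u x)))| := le_abs_self _
    _ = 2 / R ^ 2 * (|2 * th (rho Finset.univ x / R ^ 2) * deriv th (rho Finset.univ x / R ^ 2)|
        * (wt (5/2) x * |sx u x ^ 2 - rho Finset.univ x * en u x|)) := by
        rw [abs_mul, abs_mul (2 * th _ * deriv th _), abs_mul (wt (5/2) x), abs_of_nonneg hw0,
          abs_of_pos (by positivity : (0:ℝ) < 2 / R ^ 2)]
    _ ≤ 2 / R ^ 2 * (2 * C * ((R ^ 5)⁻¹ * (2 * R ^ 2 * (gq u x + en u x)))) := by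
        gcongr
    _ = 8 * C * (R ^ 5)⁻¹ * (gq u x + en u x) := by field_simp; ring

/-- The radial part of a rotationally invariant gradient. -/
lemma rot_sq (h : RotI S u) (x : Fin 5 → ℝ) :
    (∑ i ∈ S, x i * pd i u x) ^ 2 = rS S x * QS S u x := by
  have h1 := lagrange S (fun i => x i) (fun i => pd i u x)
  have h2 : ∑ i ∈ S, ∑ k ∈ S, (x i * pd k u x - x k * pd i u x) ^ 2 = 0 := by
    refine Finset.sum_eq_zero fun i hi => Finset.sum_eq_zero fun k hk => ?_
    rw [h i hi k hk x]; ring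
  rw [h2] at h1
  unfold rS QS ssq
  linarith

/-- The weighted gradient. -/
noncomputable def FG (u : (Fin 5 → ℝ) → ℝ) (x : Fin 5 → ℝ) : ℝ := wt (5/2) x * gq u x

lemma FG_cont (hu : Sol u) : Continuous (FG u) :=
  (wt_cd (5/2) : ContDiff ℝ 1 (wt (n := 5) (5/2))).continuous.mul (gq_cont hu)

lemma FG_nonneg (u : (Fin 5 → ℝ) → ℝ) (x : Fin 5 → ℝ) : 0 ≤ FG u x :=
  mul_nonneg (wt_pos _ _).le (gq_nonneg _ _)

/-- The pointwise inequality, weighted. -/
lemma pt_w (hST : Disjoint S T) (hU : S ∪ T = Finset.univ) (hS : RotI S u) (hT : RotI T u)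
    (x : Fin 5 → ℝ) :
    (1 / 100) * FG u x ≤ 10 * FF (3/4) (fun x => 2 / (1 + rS S x)) (QS S u) x
      + 2 * FF (3/4) (fun x => 1 / (1 + rS T x)) (QS T u) x + sg u x := by
  have hsplit : ∀ f : Fin 5 → ℝ, ∑ i, f i = ∑ i ∈ S, f i + ∑ i ∈ T, f i := by
    intro f
    rw [← hU, Finset.sum_union hST]
  have e1 : esq x = rS S x + rS T x := hsplit _
  have e2 : gq u x = QS S u x + QS T u x := hsplit _
  have e3 : sx u x = (∑ i ∈ S, x i * pd i u x) + ∑ i ∈ T, x i * pd i u x := hsplit _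
  have hP := rot_sq hS x
  have hQ := rot_sq hT x
  have h := pt_ineq (rS_nonneg S x) (rS_nonneg T x) (QS_nonneg S u x) (QS_nonneg T u x) hP hQ
  rw [← e3] at h
  have hD := one_esq_pos x
  obtain ⟨E, hE⟩ : ∃ E : ℝ, E = (1 + esq x) ^ (-(7/2) : ℝ) := ⟨_, rfl⟩
  have hE0 : 0 < E := by rw [hE]; exact Real.rpow_pos_of_pos hD _
  have w5 : wt (5/2) x = (1 + esq x) * E := by
    rw [hE]
    unfold wt
    nth_rewrite 2 [← Real.rpow_one (1 + esq x)]
    rw [← Real.rpow_add hD]; norm_num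
  have w34 : wt (3/4) x ^ 2 = (1 + esq x) ^ 2 * E := by
    rw [hE]
    unfold wt
    rw [← Real.rpow_natCast ((1 + esq x) ^ (-(3/4) : ℝ)) 2, ← Real.rpow_mul hD.le,
      ← Real.rpow_natCast (1 + esq x) 2, ← Real.rpow_add hD]
    norm_num
  have w74 : ((1 + esq x) ^ (-(3/4) - 1 : ℝ)) ^ 2 = E := by
    rw [hE, ← Real.rpow_natCast ((1 + esq x) ^ (-(3/4) - 1 : ℝ)) 2, ← Real.rpow_mul hD.le]
    norm_num
  have hen : gq u x / 2 ≤ en u x := by
    unfold en gq
    have := sq_nonneg (1 - u x ^ 2)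
    linarith
  have hsg : E * (5 / 2 * gq u x - (1 + esq x) * gq u x + 5 * sx u x ^ 2) ≤ sg u x := by
    have e : sg u x = E * (5 * en u x - (1 + esq x) * gq u x + 5 * sx u x ^ 2) := by
      unfold sg
      have : (1 + esq x) ^ (-(5/2) : ℝ) = wt (5/2) x := rfl
      rw [this, w5, ← hE]; ring
    rw [e]
    apply mul_le_mul_of_nonneg_left _ hE0.le
    linarith
  have hFS : FF (3/4) (fun x => 2 / (1 + rS S x)) (QS S u) x
      = E * ((2 / (1 + rS S x) * (1 + esq x) ^ 2 - 9 / 4 * esq x) * QS S u x) := by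
    unfold FF
    rw [w34, w74]; ring
  have hFT : FF (3/4) (fun x => 1 / (1 + rS T x)) (QS T u) x
      = E * ((1 / (1 + rS T x) * (1 + esq x) ^ 2 - 9 / 4 * esq x) * QS T u x) := by
    unfold FF
    rw [w34, w74]; ring
  have h' := mul_le_mul_of_nonneg_left h hE0.le
  rw [hFS, hFT]
  refine le_trans ?_ (add_le_add le_rfl hsg)
  unfold FG
  rw [w5]
  have eD : 1 + rS S x + rS T x = 1 + esq x := by rw [e1]; ring
  rw [eD, ← e1, ← e2] at h'
  calc (1 / 100) * ((1 + esq x) * E * gq u x) = E * (1 / 100 * (1 + esq x) * gq u x) := by ring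
    _ ≤ _ := h'
    _ = _ := by rw [e2]; ring

end Vale.Agent.P134.R2.H584
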