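import Vale.Agent.P134.R2.H584.Dr4

set_option linter.all false

/-! The Liouville theorem for the group `O(3) x O(2)` on `ℝ⁵`. -/

open MeasureTheory Filter Topology

namespace Vale.Agent.P134.R2.H584

open Vale.Agent.P134 Vale.Agent.P134.H919 Vale.Agent.P134.H765 Vale.Agent.P134.B331
  Vale.Agent.P134.B331.M
open Vale.Agent.P134.H775 (Stb)

variable {u : (Fin 5 → ℝ) → ℝ} {S T : Finset (Fin 5)}

lemma sg_cont (hu : Sol u) : Continuous (sg u) := by
  have hE : Continuous fun x : Fin 5 → ℝ => (1 + esq x) ^ (-(7/2) : ℝ) :=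
    (continuous_const.add continuous_esq).rpow_const fun x => Or.inl (one_esq_pos x).ne'
  have hE5 : Continuous fun x : Fin 5 → ℝ => (1 + esq x) ^ (-(5/2) : ℝ) :=
    (continuous_const.add continuous_esq).rpow_const fun x => Or.inl (one_esq_pos x).ne'
  have cen : Continuous (en u) := (en_contDiff hu.c2).continuous
  have csx : Continuous (sx u) := sx_continuous (hu.c2.of_le (by norm_num))
  exact (((continuous_const.mul cen).mul hE).sub ((gq_cont hu).mul hE5)).add
    ((continuous_const.mul (csx.pow 2)).mul hE)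

/-- The main inequality. -/
theorem main_ineq (hu : Sol u) (hs : Stb (fun x => 3 * u x ^ 2 - 1)) (hST : Disjoint S T)
    (hU : S ∪ T = Finset.univ) (hS : RotI S u) (hT : RotI T u) (hcS : S.card = 3)
    (hcT : T.card = 2) : ∃ C : ℝ, 0 ≤ C ∧ ∀ R : ℝ, 0 < R →
    ∫ x, cutb Finset.univ R x ^ 2 * FG u x
      ≤ C * (R ^ 5)⁻¹ * ∫ x in box 5 (2 * R), (gq u x + en u x) := by
  obtain ⟨C2, hC2, hgi⟩ := gain_fam (b := 3/4) 5 (by norm_num)
  obtain ⟨C3, hC3, hbd⟩ := bd_stress hu
  refine ⟨100 * (12 * C2 + C3), by positivity, fun R hR => ?_⟩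
  have h1S : ∀ x, 0 < 1 + rS S x := fun x => by have := rS_nonneg S x; linarith
  have h1T : ∀ x, 0 < 1 + rS T x := fun x => by have := rS_nonneg T x; linarith
  have cgS : Continuous fun x : Fin 5 → ℝ => 2 / (1 + rS S x) :=
    continuous_const.div (continuous_const.add (rS_cont S)) fun x => (h1S x).ne'
  have cgT : Continuous fun x : Fin 5 → ℝ => 1 / (1 + rS T x) :=
    continuous_const.div (continuous_const.add (rS_cont T)) fun x => (h1T x).ne'
  have gS : ∀ x, (fun x : Fin 5 → ℝ => 2 / (1 + rS S x)) x * QS S u x ^ 2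
      ≤ sN S (fun i => pd i u) x := by
    intro x
    have h1 := rot_gain hu.c2 hS (by omega) x
    rw [hcS] at h1
    push_cast at h1
    have h3 := sN_nonneg S u x
    simp only
    rw [div_mul_eq_mul_div, div_le_iff₀ (h1S x)]
    linarith
  have gT : ∀ x, (fun x : Fin 5 → ℝ => 1 / (1 + rS T x)) x * QS T u x ^ 2
      ≤ sN T (fun i => pd i u) x := by
    intro x
    have h1 := rot_gain hu.c2 hT (by omega) x
    rw [hcT] at h1
    push_cast at h1
    have h3 := sN_nonneg T u x
    simp only
    rw [div_mul_eq_mul_div, div_le_iff₀ (h1T x)]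
    linarith
  have hS1 := hgi u hu hs S _ cgS (fun x => (div_pos two_pos (h1S x)).le) gS R hR
  have hT1 := hgi u hu hs T _ cgT (fun x => (div_pos one_pos (h1T x)).le) gT R hR
  rw [r34 hR] at hS1 hT1
  have hB := hbd R hR
  have hcs2 : HasCompactSupport (fun x : Fin 5 → ℝ => cutb Finset.univ R x ^ 2) :=
    hcs_pow (cutb_hcs (n := 5) hR)
  have hcc2 : Continuous (fun x : Fin 5 → ℝ => cutb Finset.univ R x ^ 2) := cutb_cont.pow 2
  have iG := int_cc hcc2 (FG_cont hu) hcs2
  have iS := int_cc hcc2 (FF_cont (b := 3/4) cgS (QS_cont hu S)) hcs2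
  have iT := int_cc hcc2 (FF_cont (b := 3/4) cgT (QS_cont hu T)) hcs2
  have iB := int_cc hcc2 (sg_cont hu) hcs2
  have h1 : (1 / 100) * ∫ x, cutb Finset.univ R x ^ 2 * FG u x
      ≤ 10 * (∫ x, cutb Finset.univ R x ^ 2 * FF (3/4) (fun x => 2 / (1 + rS S x)) (QS S u) x)
        + 2 * (∫ x, cutb Finset.univ R x ^ 2 * FF (3/4) (fun x => 1 / (1 + rS T x)) (QS T u) x)
        + ∫ x, cutb Finset.univ R x ^ 2 * sg u x := by
    have iST : Integrable fun x =>
        10 * (cutb Finset.univ R x ^ 2 * FF (3/4) (fun x => 2 / (1 + rS S x)) (QS S u) x)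
        + 2 * (cutb Finset.univ R x ^ 2 * FF (3/4) (fun x => 1 / (1 + rS T x)) (QS T u) x) :=
      (iS.const_mul 10).add (iT.const_mul 2)
    rw [← integral_const_mul, ← integral_const_mul, ← integral_const_mul,
      ← integral_add (iS.const_mul _) (iT.const_mul _),
      ← integral_add iST iB]
    refine integral_mono (iG.const_mul _) (iST.add iB) fun x => ?_
    have h := mul_le_mul_of_nonneg_left (pt_w hST hU hS hT x) (sq_nonneg (cutb Finset.univ R x))
    simp only [Pi.add_apply]
    linarith
  have cE : Continuous fun x => gq u x + en u x :=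
    (gq_cont hu).add (en_contDiff hu.c2).continuous
  have hmono : ∀ W : Finset (Fin 5), ∫ x in box 5 (2 * R), QS W u x
      ≤ ∫ x in box 5 (2 * R), (gq u x + en u x) := by
    intro W
    apply setIntegral_mono
    · exact (QS_cont hu W).continuousOn.integrableOn_compact (isCompact_box _)
    · exact cE.continuousOn.integrableOn_compact (isCompact_box _)
    · intro x
      have h2 : QS W u x ≤ gq u x :=
        Finset.sum_le_sum_of_subset_of_nonneg (Finset.subset_univ W) fun _ _ _ => sq_nonneg _
      have := en_nonneg u x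
      simp only
      linarith
  have hR5 : 0 ≤ C2 * (R ^ 5)⁻¹ := by positivity
  have a1 := mul_le_mul_of_nonneg_left (hmono S) hR5
  have a2 := mul_le_mul_of_nonneg_left (hmono T) hR5
  nlinarith

/-- The energy is controlled by the gradient. -/
theorem pot_box (hu : Sol u) (hs : Stb (fun x => 3 * u x ^ 2 - 1)) :
    ∃ C : ℝ, 0 ≤ C ∧ ∀ R : ℝ, 0 < R → ∫ x in box 5 (2 * R), (gq u x + en u x)
      ≤ C * ((∫ x in box 5 (10 * R), gq u x) + R ^ 3) := by
  obtain ⟨C, hC1, hC⟩ := exists_th_bound
  refine ⟨5 + 7200000 * C ^ 2, by positivity, fun R hR => ?_⟩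
  have hR5 : 0 < 5 * R := by positivity
  have hp := pot_le hu hs (cutb_contDiff (n := 5) Finset.univ (5 * R)) (cutb_hcs hR5)
  have cE : Continuous fun x => gq u x + en u x :=
    (gq_cont hu).add (en_contDiff hu.c2).continuous
  have cM : Continuous fun x => (1 - u x ^ 2) ^ 2 :=
    (continuous_const.sub (hu.c2.continuous.pow 2)).pow 2
  have hcs2 : HasCompactSupport (fun x : Fin 5 → ℝ => cutb Finset.univ (5 * R) x ^ 2) :=
    hcs_pow (cutb_hcs (n := 5) hR5)
  have hcc2 : Continuous (fun x : Fin 5 → ℝ => cutb Finset.univ (5 * R) x ^ 2) := cutb_cont.pow 2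
  have i1 := int_cc hcc2 cM hcs2
  have i2 := int_cc hcc2 (gq_cont hu) hcs2
  have i3 : Integrable (fun x => gq u x * ind (box 5 (10 * R)) x) :=
    integrable_mul_ind (gq_cont hu) (isCompact_box _)
  have i4 : Integrable (fun x => (gq u x + en u x) * ind (box 5 (2 * R)) x) :=
    integrable_mul_ind cE (isCompact_box _)
  have hbx : 2 * (5 * R) = 10 * R := by ring
  have h1 : ∫ x, cutb Finset.univ (5 * R) x ^ 2 * gq u x ≤ ∫ x in box 5 (10 * R), gq u x := by
    rw [← integral_mul_ind (isCompact_box _).measurableSet]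
    refine integral_mono i2 i3 fun x => ?_
    have hG := gq_nonneg u x
    by_cases hx : x ∈ box 5 (10 * R)
    · simp only
      rw [ind_mem hx, mul_one]
      apply mul_le_of_le_one_left hG
      exact pow_le_one₀ (cutb_nonneg _ _ _) (cutb_le_one _ _ _)
    · simp only
      rw [ind_notMem hx, mul_zero]
      rw [← hbx] at hx
      rw [cutb_zero_box hR5 hx]; simp
  have h2 : ∫ x, ∑ j, pd j (cutb (n := 5) Finset.univ (5 * R)) x ^ 2
      ≤ 5 * (3 * C / (5 * R)) ^ 2 * (20 * R) ^ 5 := by
    have e : ∫ x : Fin 5 → ℝ, (5 * (3 * C / (5 * R)) ^ 2) * ind (box 5 (10 * R)) x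
        = 5 * (3 * C / (5 * R)) ^ 2 * (20 * R) ^ 5 := by
      rw [integral_mul_ind (F := fun _ => 5 * (3 * C / (5 * R)) ^ 2)
        (isCompact_box _).measurableSet, setIntegral_const, smul_eq_mul, Measure.real,
        volume_box (by positivity)]
      ring
    rw [← e]
    refine integral_mono ?_ ?_ fun x => ?_
    · have := int_gs (f := fun _ => (1:ℝ)) continuous_const
        (cutb_contDiff (n := 5) Finset.univ (5 * R)) (cutb_hcs hR5)
      simpa using this
    · exact integrable_mul_ind (f := fun _ => 5 * (3 * C / (5 * R)) ^ 2) continuous_const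
        (isCompact_box _)
    · simp only
      by_cases hx : x ∈ box 5 (10 * R)
      · rw [ind_mem hx, mul_one]
        calc ∑ j, pd j (cutb (n := 5) Finset.univ (5 * R)) x ^ 2
            ≤ ∑ _j : Fin 5, (3 * C / (5 * R)) ^ 2 := by
              refine Finset.sum_le_sum fun j _ => ?_
              rw [← sq_abs]
              exact pow_le_pow_left₀ (abs_nonneg _) (pd_cutb_bound hC Finset.univ hR5) 2
          _ = _ := by simp
      · rw [ind_notMem hx, mul_zero]
        apply le_of_eq
        refine Finset.sum_eq_zero fun j _ => ?_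
        rw [pd_cutb, th_deriv_of_gt, zero_mul]
        · ring
        · rw [mem_box] at hx
          push Not at hx
          obtain ⟨i, hi⟩ := hx
          have h3 := sq_le_rho (Finset.mem_univ i) x
          have h4 : (10 * R) ^ 2 < |x i| ^ 2 := pow_lt_pow_left₀ hi (by positivity) (by norm_num)
          rw [sq_abs] at h4
          rw [lt_div_iff₀ (by positivity)]
          nlinarith
  have h3 : ∫ x in box 5 (2 * R), (gq u x + en u x)
      ≤ 3 / 2 * (∫ x in box 5 (10 * R), gq u x)
        + 1 / 4 * ∫ x, cutb Finset.univ (5 * R) x ^ 2 * (1 - u x ^ 2) ^ 2 := by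
    rw [← integral_mul_ind (isCompact_box (2 * R)).measurableSet,
      ← integral_mul_ind (isCompact_box (10 * R)).measurableSet, ← integral_const_mul,
      ← integral_const_mul, ← integral_add (i3.const_mul _) (i1.const_mul _)]
    refine integral_mono i4 ((i3.const_mul _).add (i1.const_mul _)) fun x => ?_
    simp only [Pi.add_apply]
    have hG := gq_nonneg u x
    by_cases hx : x ∈ box 5 (2 * R)
    · have hx' : x ∈ box 5 (10 * R) := by
        rw [mem_box] at hx ⊢
        intro i
        have := hx i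
        linarith
      have hc : cutb Finset.univ (5 * R) x = 1 := by
        apply th_one
        rw [div_le_one (by positivity)]
        rw [mem_box] at hx
        calc rho Finset.univ x = ∑ i, x i ^ 2 := rfl
          _ ≤ ∑ _i : Fin 5, (2 * R) ^ 2 := by
                refine Finset.sum_le_sum fun i _ => ?_
                rw [← sq_abs]
                exact pow_le_pow_left₀ (abs_nonneg _) (hx i) 2
          _ = 20 * R ^ 2 := by simp; ring
          _ ≤ (5 * R) ^ 2 := by nlinarith [sq_nonneg R]
      rw [ind_mem hx, ind_mem hx', hc]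
      have e : en u x = gq u x / 2 + (1 - u x ^ 2) ^ 2 / 4 := by unfold en gq; ring
      rw [e]
      linarith
    · rw [ind_notMem hx, mul_zero]
      have := ind_nonneg (box 5 (10 * R)) x
      positivity
  have h4 : 5 * (3 * C / (5 * R)) ^ 2 * (20 * R) ^ 5 = 5760000 * C ^ 2 * R ^ 3 := by
    field_simp; ring
  rw [h4] at h2
  have e5 : ∫ x, cutb Finset.univ (5 * R) x ^ 2 * ∑ j, pd j u x ^ 2
      = ∫ x, cutb Finset.univ (5 * R) x ^ 2 * gq u x := rfl
  rw [e5] at hp
  have h6 : 0 ≤ ∫ x in box 5 (10 * R), gq u x := integral_nonneg fun x => gq_nonneg u x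
  have h7 : 0 ≤ R ^ 3 := by positivity
  have h8 : 0 ≤ C ^ 2 * (∫ x in box 5 (10 * R), gq u x) := by positivity
  nlinarith

end Vale.Agent.P134.R2.H584
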