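import Vale.Agent.P134.R2.H584.Dr5

set_option linter.all false

/-! Stable solutions on `ℝ⁵` with the symmetry `O(3) x O(2)` have vanishing gradient. -/

open MeasureTheory Filter Topology

namespace Vale.Agent.P134.R2.H584

open Vale.Agent.P134 Vale.Agent.P134.H919 Vale.Agent.P134.H765 Vale.Agent.P134.B331
  Vale.Agent.P134.B331.M
open Vale.Agent.P134.H775 (Stb)

variable {u : (Fin 5 → ℝ) → ℝ} {S T : Finset (Fin 5)}

/-- The Liouville theorem. -/
theorem dr_liou (hu : Sol u) (hs : Stb (fun x => 3 * u x ^ 2 - 1)) (hST : Disjoint S T)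
    (hU : S ∪ T = Finset.univ) (hS : RotI S u) (hT : RotI T u) (hcS : S.card = 3)
    (hcT : T.card = 2) (x : Fin 5 → ℝ) : gq u x = 0 := by
  obtain ⟨C5, hC5, hm⟩ := main_ineq hu hs hST hU hS hT hcS hcT
  obtain ⟨C6, hC6, hpb⟩ := pot_box hu hs
  obtain ⟨K0, hK0, hK1, -⟩ := hu.exists_bound
  set C : ℝ := C5 * C6 with hC
  have hC0 : 0 ≤ C := by positivity
  have hgc := gq_cont hu
  have hg0 := gq_nonneg u
  have hFc := FG_cont hu
  have hF0 := FG_nonneg u
  have hgg : ∀ R : ℝ, 0 < R → ∫ x, cutb Finset.univ R x ^ 2 * FG u x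
      ≤ C * (R ^ 5)⁻¹ * ((∫ x in box 5 (10 * R), gq u x) + R ^ 3) := by
    intro R hR
    have h1 := hm R hR
    have h2 := hpb R hR
    have h3 : 0 ≤ C5 * (R ^ 5)⁻¹ := by positivity
    have h4 := mul_le_mul_of_nonneg_left h2 h3
    calc _ ≤ _ := h1
      _ ≤ _ := h4
      _ = _ := by rw [hC]; ring
  have hbd : ∀ R : ℝ, 0 < R → ∫ x in box 5 R, gq u x ≤ 5 * K0 ^ 2 * (2 * R) ^ 5 := by
    intro R hR
    have e : ∫ x in box 5 R, (5 * K0 ^ 2 : ℝ) = 5 * K0 ^ 2 * (2 * R) ^ 5 := by
      rw [setIntegral_const, smul_eq_mul, Measure.real, volume_box hR.le]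
      ring
    rw [← e]
    apply setIntegral_mono
    · exact hgc.continuousOn.integrableOn_compact (isCompact_box _)
    · exact continuous_const.continuousOn.integrableOn_compact (isCompact_box _)
    · intro x
      calc gq u x ≤ ∑ _j : Fin 5, K0 ^ 2 := by
            refine Finset.sum_le_sum fun j _ => ?_
            rw [← sq_abs]
            exact pow_le_pow_left₀ (abs_nonneg _) (hK1 x j) 2
        _ = 5 * K0 ^ 2 := by simp
  have hcs2 : ∀ s : ℝ, 0 < s → HasCompactSupport (fun x : Fin 5 → ℝ => cutb Finset.univ s x ^ 2) :=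
    fun s hs => hcs_pow (cutb_hcs (n := 5) hs)
  have hM : ∀ r : ℝ, 1 ≤ r → ∫ x, cutb Finset.univ r x ^ 2 * FG u x
      ≤ C * (5 * K0 ^ 2 * 20 ^ 5 + 1) := by
    intro r hr
    have hr0 : 0 < r := by linarith
    have h1 := hgg r hr0
    have h2 := hbd (10 * r) (by linarith)
    have h3 : r ^ 3 ≤ r ^ 5 := pow_le_pow_right₀ hr (by norm_num)
    have hr5 : 0 < r ^ 5 := by positivity
    calc _ ≤ _ := h1
      _ ≤ C * (r ^ 5)⁻¹ * (5 * K0 ^ 2 * (2 * (10 * r)) ^ 5 + r ^ 5) := by gcongr
      _ = C * (5 * K0 ^ 2 * 20 ^ 5 + 1) := by field_simp; ring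
  -- the gradient is small in the mean
  have small : ∀ ε : ℝ, 0 < ε → ∃ R₀ : ℝ, 1 ≤ R₀ ∧ ∀ R, R₀ ≤ R →
      ∫ x in box 5 R, gq u x ≤ ε * R ^ 5 := by
    intro ε hε
    set c : ℝ := (6:ℝ) ^ (-(5/2) : ℝ) with hc
    have hc0 : 0 < c := Real.rpow_pos_of_pos (by norm_num) _
    obtain ⟨ρ, hρ1, hρ⟩ := tail_small hFc hF0 hM (show 0 < c * ε / 2 by positivity)
    set M : ℝ := ∫ x, cutb Finset.univ ρ x ^ 2 * gq u x with hMdef
    have hM0 : 0 ≤ M := integral_nonneg fun x => mul_nonneg (sq_nonneg _) (hg0 x)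
    have hMε : 0 ≤ 2 * M / ε := by positivity
    refine ⟨ρ + 2 * M / ε, by linarith, fun R hR => ?_⟩
    have hρR : ρ ≤ R := by linarith
    have hR1 : 1 ≤ R := by linarith
    have hR0 : 0 < R := by linarith
    have hMR : M ≤ ε / 2 * R ^ 5 := by
      have h1 : 2 * M / ε ≤ R := by linarith
      rw [div_le_iff₀ hε] at h1
      have h2 : R ≤ R ^ 5 := le_self_pow₀ hR1 (by norm_num)
      nlinarith
    have hR5 : 0 < 5 * R := by positivity
    have i1 : Integrable (fun x => cutb Finset.univ ρ x ^ 2 * gq u x) :=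
      int_cc (cutb_cont.pow 2) hgc (hcs2 ρ (by linarith))
    have i2 : Integrable
        (fun x => (cutb Finset.univ (5 * R) x ^ 2 - cutb Finset.univ ρ x ^ 2) * FG u x) := by
      have h1 := (int_cc (cutb_cont.pow 2) hFc (hcs2 (5 * R) hR5)).sub
        (int_cc (cutb_cont.pow 2) hFc (hcs2 ρ (by linarith)))
      refine h1.congr (Eventually.of_forall fun x => ?_)
      simp only [Pi.sub_apply, Pi.pow_apply]
      ring
    have i3 : Integrable (fun x => gq u x * ind (box 5 R) x) :=
      integrable_mul_ind hgc (isCompact_box _)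
    rw [← integral_mul_ind (isCompact_box R).measurableSet]
    calc ∫ x, gq u x * ind (box 5 R) x
        ≤ ∫ x, (cutb Finset.univ ρ x ^ 2 * gq u x
          + R ^ 5 / c * ((cutb Finset.univ (5 * R) x ^ 2
            - cutb Finset.univ ρ x ^ 2) * FG u x)) := by
          apply integral_mono i3 (i1.add (i2.const_mul _))
          intro x
          simp only [Pi.add_apply]
          have hm : cutb Finset.univ ρ x ^ 2 ≤ cutb Finset.univ (5 * R) x ^ 2 :=
            pow_le_pow_left₀ (cutb_nonneg _ _ _) (cutb_mono (by linarith) (by linarith) x) 2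
          have h1 : 0 ≤ cutb Finset.univ ρ x ^ 2 * gq u x := mul_nonneg (sq_nonneg _) (hg0 x)
          have h2 : 0 ≤ (cutb Finset.univ (5 * R) x ^ 2 - cutb Finset.univ ρ x ^ 2) * FG u x :=
            mul_nonneg (by linarith) (hF0 x)
          have h3 : 0 ≤ R ^ 5 / c := by positivity
          by_cases hx : x ∈ box 5 R
          · have hc1 : cutb Finset.univ (5 * R) x = 1 := by
              apply th_one
              rw [div_le_one (by positivity)]
              have hxb := mem_box.mp hx
              calc rho Finset.univ x = ∑ i, x i ^ 2 := rfl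
                _ ≤ ∑ _i : Fin 5, R ^ 2 := by
                      refine Finset.sum_le_sum fun i _ => ?_
                      rw [← sq_abs]
                      exact pow_le_pow_left₀ (abs_nonneg _) (hxb i) 2
                _ = 5 * R ^ 2 := by simp
                _ ≤ (5 * R) ^ 2 := by nlinarith [sq_nonneg R]
            have hw : c * (R ^ 5)⁻¹ ≤ wt (5/2) x := by
              rw [hc, ← r5 hR0, ← Real.mul_rpow (by norm_num) (by positivity)]
              unfold wt
              have he := esq_box hR1 hx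
              push_cast at he
              exact Real.rpow_le_rpow_of_nonpos (one_esq_pos x) (by linarith) (by norm_num)
            rw [ind_mem hx, mul_one]
            rw [hc1] at hm ⊢
            have h4 : gq u x ≤ R ^ 5 / c * FG u x := by
              have h5 := mul_le_mul_of_nonneg_right hw (hg0 x)
              calc gq u x = R ^ 5 / c * (c * (R ^ 5)⁻¹ * gq u x) := by field_simp
                _ ≤ R ^ 5 / c * (wt (5/2) x * gq u x) := mul_le_mul_of_nonneg_left h5 h3
                _ = _ := rfl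
            have h5 : 0 ≤ (1:ℝ) ^ 2 - cutb Finset.univ ρ x ^ 2 := by linarith
            have h6 := mul_le_mul_of_nonneg_left h4 h5
            calc gq u x = cutb Finset.univ ρ x ^ 2 * gq u x
                  + (1 ^ 2 - cutb Finset.univ ρ x ^ 2) * gq u x := by ring
              _ ≤ cutb Finset.univ ρ x ^ 2 * gq u x
                  + (1 ^ 2 - cutb Finset.univ ρ x ^ 2) * (R ^ 5 / c * FG u x) := by linarith
              _ = _ := by ring
          · rw [ind_notMem hx, mul_zero]
            have h4 := mul_nonneg h3 h2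
            linarith
      _ = M + R ^ 5 / c
            * ∫ x, (cutb Finset.univ (5 * R) x ^ 2 - cutb Finset.univ ρ x ^ 2) * FG u x := by
          rw [integral_add i1 (i2.const_mul _), integral_const_mul]
      _ ≤ ε / 2 * R ^ 5 + R ^ 5 / c * (c * ε / 2) := by
          have h1 := hρ (5 * R) (by linarith)
          have h3 : 0 ≤ R ^ 5 / c := by positivity
          have h4 := mul_le_mul_of_nonneg_left h1 h3
          linarith
      _ = ε * R ^ 5 := by field_simp; ring
  -- conclusion
  have hz : FG u x = 0 := by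
    refine zero_of_small hFc hF0 (fun r hr ε hε => ?_) x
    set δ : ℝ := ε / (2 * (C + 1)) with hδ
    have hδ0 : 0 < δ := by positivity
    obtain ⟨R', hR'1, hI⟩ := small (δ / 10 ^ 5) (by positivity)
    set R : ℝ := R' + r + 1 / δ with hRdef
    have hd0 : 0 < 1 / δ := by positivity
    have hrR : r ≤ R := by linarith
    have hR0 : 0 < R := by linarith
    have hR1 : 1 ≤ R := by linarith
    have h1 : ∫ x, cutb Finset.univ r x ^ 2 * FG u x ≤ ∫ x, cutb Finset.univ R x ^ 2 * FG u x := by
      apply integral_mono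
      · exact int_cc (cutb_cont.pow 2) hFc (hcs2 r hr)
      · exact int_cc (cutb_cont.pow 2) hFc (hcs2 R hR0)
      · intro x
        apply mul_le_mul_of_nonneg_right _ (hF0 x)
        exact pow_le_pow_left₀ (cutb_nonneg _ _ _) (cutb_mono hr hrR x) 2
    have h2 := hgg R hR0
    have h3 := hI (10 * R) (by linarith)
    have h4 : R ^ 3 ≤ δ * R ^ 5 := by
      have h5 : 1 / δ ≤ R := by linarith
      rw [div_le_iff₀ hδ0] at h5
      have h6 : 1 ≤ δ * R ^ 2 := by nlinarith
      calc R ^ 3 = 1 * R ^ 3 := by ring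
        _ ≤ (δ * R ^ 2) * R ^ 3 := by gcongr
        _ = δ * R ^ 5 := by ring
    have hR5 : 0 < R ^ 5 := by positivity
    calc ∫ x, cutb Finset.univ r x ^ 2 * FG u x
        ≤ C * (R ^ 5)⁻¹ * ((∫ x in box 5 (10 * R), gq u x) + R ^ 3) := h1.trans h2
      _ ≤ C * (R ^ 5)⁻¹ * (δ / 10 ^ 5 * (10 * R) ^ 5 + δ * R ^ 5) := by gcongr
      _ = C * (2 * δ) := by field_simp; ring
      _ ≤ ε := by
          rw [hδ]
          have : C * (2 * (ε / (2 * (C + 1)))) = C * ε / (C + 1) := by field_simp
          rw [this, div_le_iff₀ (by positivity)]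
          nlinarith
  unfold FG at hz
  rcases mul_eq_zero.mp hz with h | h
  · exact absurd h (wt_pos _ _).ne'
  · exact h

end Vale.Agent.P134.R2.H584
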