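import Vale.Agent.P134.R2.H584.Dr6
import Vale.Agent.P134.R2.H584.Asm

set_option linter.all false

/-! Assembly in coordinates for the group `O(3) x O(2)`. -/

open MeasureTheory Filter Topology

namespace Vale.Agent.P134.R2.H584

open Vale.Agent.P134 Vale.Agent.P134.H765
open Vale.Agent.P134.B331.M (one_esq_pos cutb_mono hcs_pow cutb_hcs cutb_cont)
open Vale.Agent.P134.H775 (Stb stb_of_hypN)
open Vale.Agent.P134.H491 (HypN)
open Vale.Agent.P134.R2.H561 (SH PPH pph defi_res exists_energy single_dd)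

/-- A stable solution on `ℝ⁵` with the symmetry is `1` or `-1`. -/
theorem dr_const {u : (Fin 5 → ℝ) → ℝ} (hu : SH u) {S T : Finset (Fin 5)} (hST : Disjoint S T)
    (hU : S ∪ T = Finset.univ) (hS : RotI S u) (hT : RotI T u) (hcS : S.card = 3)
    (hcT : T.card = 2) : (∀ x, u x = 1) ∨ (∀ x, u x = -1) := by
  have hs := stb_of_sh hu
  have hg := dr_liou hu.1 hs hST hU hS hT hcS hcT
  have hpd : ∀ i x, pd i u x = 0 := by
    intro i x
    have h1 := (Finset.sum_eq_zero_iff_of_nonneg (fun i _ => sq_nonneg (pd i u x))).mp (hg x) i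
      (Finset.mem_univ i)
    exact pow_eq_zero_iff (two_ne_zero) |>.mp h1
  have hc : ∀ x, u x = u 0 := fun x =>
    const_of_pd_zero (hu.1.c2.differentiable (by norm_num)) hpd x 0
  obtain ⟨C, hC, hb⟩ := pot_box hu.1 hs
  have hen : ∀ x, gq u x + en u x = (1 - u 0 ^ 2) ^ 2 / 4 := by
    intro x
    have h1 := hg x
    have e : en u x = gq u x / 2 + (1 - u x ^ 2) ^ 2 / 4 := by unfold en gq; ring
    rw [e, h1, hc x]; ring
  set κ : ℝ := (1 - u 0 ^ 2) ^ 2 / 4 with hκ
  have hκ0 : 0 ≤ κ := by positivity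
  have hineq : ∀ R : ℝ, 0 < R → κ * (4 * R) ^ 5 ≤ C * R ^ 3 := by
    intro R hR
    have h1 := hb R hR
    simp_rw [hen, hg] at h1
    rw [setIntegral_const, smul_eq_mul, Measure.real, volume_box (by positivity)] at h1
    simp only [integral_zero, zero_add] at h1
    calc κ * (4 * R) ^ 5 = (2 * (2 * R)) ^ 5 * κ := by ring
      _ ≤ _ := h1
  have hκz : κ = 0 := by
    by_contra hne
    have hpos : 0 < κ := lt_of_le_of_ne hκ0 (Ne.symm hne)
    set R : ℝ := 1 + C / κ with hR
    have h0 : 0 ≤ C / κ := by positivity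
    have hR1 : 1 ≤ R := by linarith
    have h1 := hineq R (by linarith)
    have h2 : C ≤ κ * R := by
      rw [hR, mul_add, mul_div_cancel₀ _ hne]; linarith
    have h3 : C * R ^ 3 ≤ κ * R ^ 5 := by
      have h4 : R ≤ R ^ 2 := by nlinarith
      have hR3 : 0 ≤ R ^ 3 := by positivity
      calc C * R ^ 3 ≤ κ * R * R ^ 3 := mul_le_mul_of_nonneg_right h2 hR3
        _ ≤ κ * R ^ 2 * R ^ 3 := by gcongr
        _ = κ * R ^ 5 := by ring
    have h4 : 0 < κ * R ^ 5 := by positivity
    nlinarith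
  have h1 : 1 - u 0 ^ 2 = 0 := by
    have h2 : (1 - u 0 ^ 2) ^ 2 = 0 := by linarith
    exact pow_eq_zero_iff (two_ne_zero) |>.mp h2
  have h2 : (u 0 - 1) * (u 0 + 1) = 0 := by linarith
  rcases mul_eq_zero.mp h2 with h | h
  · left; intro x; rw [hc x]; linarith
  · right; intro x; rw [hc x]; linarith

lemma eq_res {n : ℕ} {U : (Fin (n + 1) → ℝ) → ℝ}
    (hinv : ∀ x (t : ℝ), U (x + t • Pi.single (Fin.last n) 1) = U x) (x : Fin (n + 1) → ℝ) :
    U x = res U (Fin.init x) := by
  have hsnoc : x = Fin.snoc (Fin.init x) 0 + x (Fin.last n) • Pi.single (Fin.last n) 1 := by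
    funext k
    refine Fin.lastCases ?_ (fun j => ?_) k
    · simp
    · simp [Fin.init, Pi.single_apply, (Fin.castSucc_lt_last j).ne]
  conv_lhs => rw [hsnoc]
  rw [hinv]
  rfl

lemma ins_eq {n : ℕ} (s : ℝ) (y : Fin n → ℝ) : H160.ins (Fin.last n) s y
    = (Fin.snoc y 0 : Fin (n + 1) → ℝ) + s • Pi.single (Fin.last n) 1 := by
  unfold H160.ins
  rw [Fin.insertNth_last']
  funext k
  refine Fin.lastCases ?_ (fun k => ?_) k
  · simp
  · simp [Pi.single_apply, (Fin.castSucc_lt_last k).ne]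

/-- Monotone solutions on `ℝ⁶` with the symmetry: the upper limit is `1`. -/
theorem dr_limit {u : (Fin 6 → ℝ) → ℝ} (hu : Sol u) (hpos : ∀ x, 0 < pd (Fin.last 5) u x)
    {S T : Finset (Fin 5)} (hST : Disjoint S T)
    (hUn : S ∪ T = Finset.univ) (hS : RotI (S.map Fin.castSuccEmb) u)
    (hT : RotI (T.map Fin.castSuccEmb) u) (hcS : S.card = 3)
    (hcT : T.card = 2) (x : Fin 6 → ℝ) :
    Tendsto (fun t : ℝ => u (x + t • Pi.single (Fin.last 5) 1)) atTop (𝓝 1) := by
  obtain ⟨U, hU, hlim, hpd, -, hinv⟩ := hu.exists_profile (Fin.last 5) hpos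
  have hSH : SH U := ⟨hU, _, HypN.of_tendsto (L := atTop)
    (F := fun (t : ℝ) x => u (x + t • Pi.single (Fin.last 5) 1)) (fun t => hu.shift _) hU hlim
    (fun t => (HypN.of_mono hu hpos).translate (t • Pi.single (Fin.last 5) 1))⟩
  have dU : Differentiable ℝ U := hU.c2.differentiable (by norm_num)
  have hrotU : ∀ W : Finset (Fin 5), RotI (W.map Fin.castSuccEmb) u →
      RotI (W.map Fin.castSuccEmb) U := by
    intro W hrot i hi k hk x
    obtain ⟨i', -, rfl⟩ := Finset.mem_map.mp hi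
    obtain ⟨k', -, rfl⟩ := Finset.mem_map.mp hk
    have h1 := (hpd x (Fin.castSuccEmb k')).const_mul (x (Fin.castSuccEmb i'))
    have h2 := (hpd x (Fin.castSuccEmb i')).const_mul (x (Fin.castSuccEmb k'))
    refine tendsto_nhds_unique h1 (h2.congr fun t => ?_)
    have h3 := hrot _ hi _ hk (x + t • Pi.single (Fin.last 5) 1)
    have e : ∀ j : Fin 5, (x + t • (Pi.single (Fin.last 5) 1 : Fin 6 → ℝ))
        (Fin.castSuccEmb j) = x (Fin.castSuccEmb j) := by
      intro j
      simp only [Pi.add_apply, Pi.smul_apply, smul_eq_mul, Fin.coe_castSuccEmb, Pi.single_apply,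
        if_neg (Fin.castSucc_lt_last j).ne]
      ring
    rw [e, e] at h3
    exact h3.symm
  have hres : SH (res U) := by
    refine ⟨H765.Sol.res hU hinv, ?_⟩
    obtain ⟨-, C, hC⟩ := hSH
    refine ⟨C, HypN.reduce (p := Fin.last 5) hC (fun s y => ?_)
      ((continuous_const.mul (hU.c2.continuous.pow 2)).sub continuous_const)⟩
    have e := ins_eq s y
    show 3 * U (H160.ins (Fin.last 5) s y) ^ 2 - 1 = 3 * res U y ^ 2 - 1
    rw [e, hinv]
    rfl
  have h1 := dr_const hres hST hUn (rot_res dU (hrotU S hS)) (rot_res dU (hrotU T hT)) hcS hcT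
  have hmono : StrictMono (fun t : ℝ => u (x + t • Pi.single (Fin.last 5) 1)) := by
    apply strictMono_of_deriv_pos
    intro s
    rw [(hasDerivAt_dir ((hu.c2.differentiable (by norm_num)) _)).deriv]
    exact hpos _
  have h2 : -1 < U x := by
    have h3 : (fun t : ℝ => u (x + t • Pi.single (Fin.last 5) 1)) 1 ≤ U x :=
      hmono.monotone.ge_of_tendsto (hlim x) 1
    have h4 := hmono (show (0:ℝ) < 1 by norm_num)
    have h5 := (abs_le.mp (hu.bd (x + (0:ℝ) • Pi.single (Fin.last 5) 1))).1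
    simp only at h3 h4
    linarith
  have h3 : U x = 1 := by
    rw [eq_res hinv x] at h2 ⊢
    rcases h1 with h | h
    · exact h _
    · exfalso
      rw [h] at h2
      exact lt_irrefl _ h2
  have h4 := hlim x
  rw [h3] at h4
  exact h4

/-- The lower limit is `-1`. -/
theorem dr_limit_bot {u : (Fin 6 → ℝ) → ℝ} (hu : Sol u) (hpos : ∀ x, 0 < pd (Fin.last 5) u x)
    {S T : Finset (Fin 5)} (hST : Disjoint S T)
    (hUn : S ∪ T = Finset.univ) (hS : RotI (S.map Fin.castSuccEmb) u)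
    (hT : RotI (T.map Fin.castSuccEmb) u) (hcS : S.card = 3)
    (hcT : T.card = 2) (x : Fin 6 → ℝ) :
    Tendsto (fun t : ℝ => u (x + t • Pi.single (Fin.last 5) 1)) atBot (𝓝 (-1)) := by
  have hv : Sol (fun x => - u (-x)) := H765.Sol.odd hu
  have hrot : ∀ W : Finset (Fin 6), RotI W u → RotI W (fun x => - u (-x)) := by
    intro W h i hi k hk y
    rw [pd_odd hu, pd_odd hu]
    have := h i hi k hk (-y)
    simp only [Pi.neg_apply] at this
    linarith
  have h1 := dr_limit hv (fun x => by rw [pd_odd hu]; exact hpos _) hST hUn (hrot _ hS)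
    (hrot _ hT) hcS hcT (-x)
  have h2 := h1.neg.comp tendsto_neg_atBot_atTop
  refine h2.congr fun t => ?_
  simp only [Function.comp_apply, neg_neg, neg_add, neg_smul]

end Vale.Agent.P134.R2.H584
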