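import Vale.Agent.P134.R2.H584.Rot

set_option linter.all false

/-! Functions of `P_W x` and `|x - c|`: infinitesimal rotations, monotone directions, adapted
orthonormal bases. -/

open MeasureTheory Filter Topology
open scoped InnerProductSpace

namespace Vale.Agent.P134.R2.H584

open Vale.Agent.P134

variable {n : ℕ}

/-- `u(x)` depends only on the orthogonal projection of `x` to `W` and on the distance of `x` to
the point `c`. -/
def DependsOn (W : Submodule ℝ (EuclideanSpace ℝ (Fin n))) (c : EuclideanSpace ℝ (Fin n))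
    (u : EuclideanSpace ℝ (Fin n) → ℝ) : Prop :=
  ∀ x y, (∀ w ∈ W, ⟪w, x⟫_ℝ = ⟪w, y⟫_ℝ) → ‖x - c‖ = ‖y - c‖ → u x = u y

/-- The infinitesimal form of the symmetry. -/
lemma rotI_of_dep {u : EuclideanSpace ℝ (Fin n) → ℝ} (du : Differentiable ℝ u)
    {W : Submodule ℝ (EuclideanSpace ℝ (Fin n))} {c : EuclideanSpace ℝ (Fin n)}
    (h : DependsOn W c u) (b : OrthonormalBasis (Fin n) ℝ (EuclideanSpace ℝ (Fin n)))
    {S : Finset (Fin n)} (hS : ∀ i ∈ S, ∀ w ∈ W, ⟪w, b i⟫_ℝ = 0) :
    RotI S (fun y => u (c + coordMap b y)) := by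
  intro i hi k hk y
  rw [pd_coord_comp du b c, pd_coord_comp du b c]
  by_cases hik : i = k
  · subst hik; rfl
  set p := c + coordMap b y with hp
  set γ : ℝ → EuclideanSpace ℝ (Fin n) := fun t => p
    + ((y i * Real.cos t - y k * Real.sin t - y i) • b i
      + (y i * Real.sin t + y k * Real.cos t - y k) • b k) with hγ
  have hbi : ⟪b i, b i⟫_ℝ = 1 := by rw [b.inner_eq_ite]; simp
  have hbk : ⟪b k, b k⟫_ℝ = 1 := by rw [b.inner_eq_ite]; simp
  have hbik : ⟪b i, b k⟫_ℝ = 0 := by rw [b.inner_eq_ite, if_neg hik]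
  have hci : ⟪coordMap b y, b i⟫_ℝ = y i := by rw [real_inner_comm, inner_coordMap]
  have hck : ⟪coordMap b y, b k⟫_ℝ = y k := by rw [real_inner_comm, inner_coordMap]
  have hconst : ∀ t, u (γ t) = u p := by
    intro t
    apply h
    · intro w hw
      rw [hγ]
      simp only [inner_add_right, inner_smul_right, hS i hi w hw, hS k hk w hw]
      ring
    · have e1 : γ t - c = coordMap b y + ((y i * Real.cos t - y k * Real.sin t - y i) • b i
          + (y i * Real.sin t + y k * Real.cos t - y k) • b k) := by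
        rw [hγ, hp]; simp only; abel
      have e2 : p - c = coordMap b y := by rw [hp]; abel
      rw [e1, e2]
      have h1 : ‖coordMap b y + ((y i * Real.cos t - y k * Real.sin t - y i) • b i
          + (y i * Real.sin t + y k * Real.cos t - y k) • b k)‖ ^ 2 = ‖coordMap b y‖ ^ 2 := by
        rw [norm_add_sq_real, norm_add_sq_real]
        rw [← real_inner_self_eq_norm_sq ((y i * Real.cos t - y k * Real.sin t - y i) • b i),
          ← real_inner_self_eq_norm_sq ((y i * Real.sin t + y k * Real.cos t - y k) • b k)]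
        simp only [inner_add_right, inner_smul_right, real_inner_smul_left, hbi, hbk, hbik, hci, hck]
        linear_combination (y i ^ 2 + y k ^ 2) * Real.sin_sq_add_cos_sq t
      have h2 := norm_nonneg (coordMap b y + ((y i * Real.cos t - y k * Real.sin t - y i) • b i
          + (y i * Real.sin t + y k * Real.cos t - y k) • b k))
      exact (pow_left_inj₀ h2 (norm_nonneg _) (two_ne_zero)).mp h1
  have hd : HasDerivAt γ ((-(y k)) • b i + (y i) • b k) 0 := by
    have h1 : HasDerivAt (fun t : ℝ => y i * Real.cos t - y k * Real.sin t - y i) (-(y k)) 0 := by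
      have h2 := (((Real.hasDerivAt_cos 0).const_mul (y i)).sub
        ((Real.hasDerivAt_sin 0).const_mul (y k))).sub_const (y i)
      exact h2.congr_deriv (by simp)
    have h3 : HasDerivAt (fun t : ℝ => y i * Real.sin t + y k * Real.cos t - y k) (y i) 0 := by
      have h2 := (((Real.hasDerivAt_sin 0).const_mul (y i)).add
        ((Real.hasDerivAt_cos 0).const_mul (y k))).sub_const (y k)
      exact h2.congr_deriv (by simp)
    exact ((h1.smul_const (b i)).add (h3.smul_const (b k))).const_add p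
  have hγ0 : γ 0 = p := by rw [hγ]; simp
  have h1 := (du (γ 0)).hasFDerivAt.comp_hasDerivAt (0:ℝ) hd
  have h2 : (u ∘ γ) = fun _ => u p := funext hconst
  rw [h2] at h1
  have h3 := h1.unique (hasDerivAt_const (0:ℝ) (u p))
  rw [hγ0, map_add, map_smul, map_smul, smul_eq_mul, smul_eq_mul] at h3
  linarith

/-- A monotone solution is monotone in a direction of `W`. -/
lemma pos_proj {u : EuclideanSpace ℝ (Fin n) → ℝ} (du : Differentiable ℝ u)
    {W : Submodule ℝ (EuclideanSpace ℝ (Fin n))} {c : EuclideanSpace ℝ (Fin n)}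
    (h : DependsOn W c u) {a : EuclideanSpace ℝ (Fin n)} (ha : ∀ x, 0 < fderiv ℝ u x a) :
    ∃ w ∈ W, ∀ x, 0 < fderiv ℝ u x w := by
  set R := W.reflection with hR
  have hsym : ∀ x, u (c + R (x - c)) = u x := by
    intro x
    apply h
    · intro w hw
      have h1 : ⟪w, R (x - c)⟫_ℝ = ⟪w, x - c⟫_ℝ := by
        have h2 : R w = w := Submodule.reflection_mem_subspace_eq_self hw
        calc ⟪w, R (x - c)⟫_ℝ = ⟪R w, R (x - c)⟫_ℝ := by rw [h2]
          _ = ⟪w, x - c⟫_ℝ := R.inner_map_map w (x - c)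
      rw [inner_add_right, h1, ← inner_add_right]
      congr 1
      abel
    · rw [add_sub_cancel_left, R.norm_map]
  have hder : ∀ x v, fderiv ℝ u x v = fderiv ℝ u (c + R (x - c)) (R v) := by
    intro x v
    have h1 : HasFDerivAt (fun x => c + R (x - c))
        (R.toContinuousLinearEquiv : EuclideanSpace ℝ (Fin n) →L[ℝ] EuclideanSpace ℝ (Fin n)) x :=
      (((R.toContinuousLinearEquiv : EuclideanSpace ℝ (Fin n) →L[ℝ]
        EuclideanSpace ℝ (Fin n)).hasFDerivAt.comp x
          ((hasFDerivAt_id x).sub_const c)).const_add c)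
    have h2 := ((du (c + R (x - c))).hasFDerivAt.comp x h1)
    have h3 : (u ∘ fun x => c + R (x - c)) = u := funext hsym
    rw [h3] at h2
    rw [h2.fderiv]
    rfl
  refine ⟨a + R a, ?_, fun x => ?_⟩
  · rw [hR, Submodule.reflection_apply]
    have e : a + (2 • W.starProjection a - a) = 2 • W.starProjection a := by abel
    rw [e, two_smul]
    exact W.add_mem (Submodule.starProjection_apply_mem W a)
      (Submodule.starProjection_apply_mem W a)
  · rw [map_add]
    have h1 := ha x
    have h2 : 0 < fderiv ℝ u x (R a) := by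
      have h3 := ha (c + R (x - c))
      rw [hder] at h3
      have e : c + R (c + R (x - c) - c) = x := by
        rw [add_sub_cancel_left, hR, Submodule.reflection_reflection]; abel
      rw [e] at h3
      exact h3
    linarith

/-- An adapted orthonormal basis, `dim W = 2`. -/
lemma exists_basis2 {W : Submodule ℝ (EuclideanSpace ℝ (Fin (n + 2)))}
    (hW : Module.finrank ℝ W = 2) {w : EuclideanSpace ℝ (Fin (n + 2))} (hw : w ∈ W) (hw0 : w ≠ 0) :
    ∃ b : OrthonormalBasis (Fin (n + 2)) ℝ (EuclideanSpace ℝ (Fin (n + 2))),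
      b (Fin.last (n + 1)) = ‖w‖⁻¹ • w ∧
      ∀ i : Fin (n + 2), i.val < n → ∀ w' ∈ W, ⟪w', b i⟫_ℝ = 0 := by
  have hn0 : ‖w‖ ≠ 0 := norm_ne_zero_iff.mpr hw0
  obtain ⟨bW, hbW⟩ := Orthonormal.exists_orthonormalBasis_extension_of_card_eq (𝕜 := ℝ) (E := W)
    (ι := Fin 2) (by rw [hW]; rfl) (v := fun _ => (‖w‖⁻¹ • ⟨w, hw⟩ : W)) (s := {1}) (by
      constructor
      · rintro ⟨i, hi⟩
        simp [Set.domRestrict, norm_smul, hn0]
      · rintro ⟨i, hi⟩ ⟨j, hj⟩ hij
        exfalso; apply hij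
        rw [Set.mem_singleton_iff] at hi hj
        subst hi; subst hj; rfl)
  have hb1 : (bW 1 : EuclideanSpace ℝ (Fin (n + 2))) = ‖w‖⁻¹ • w := by
    rw [hbW 1 rfl]; rfl
  set l0 : Fin (n + 2) := (Fin.last n).castSucc with hl0
  set l1 : Fin (n + 2) := Fin.last (n + 1) with hl1
  have hl : l0 ≠ l1 := (Fin.castSucc_lt_last _).ne
  have hin : ∀ i j, ⟪(bW i : EuclideanSpace ℝ (Fin (n + 2))), (bW j)⟫_ℝ = if i = j then 1 else 0 := by
    intro i j
    have := bW.inner_eq_ite i j
    rwa [Submodule.coe_inner] at this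
  obtain ⟨b, hb⟩ := Orthonormal.exists_orthonormalBasis_extension_of_card_eq (𝕜 := ℝ)
    (E := EuclideanSpace ℝ (Fin (n + 2))) (ι := Fin (n + 2)) (by simp)
    (v := fun i => if i = l1 then (bW 1 : EuclideanSpace ℝ (Fin (n + 2))) else bW 0)
    (s := {l0, l1}) (by
      rw [orthonormal_iff_ite]
      rintro ⟨i, hi⟩ ⟨j, hj⟩
      rw [Set.mem_insert_iff, Set.mem_singleton_iff] at hi hj
      simp only [Set.domRestrict, Subtype.mk.injEq]
      rcases hi with rfl | rfl <;> rcases hj with rfl | rfl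
      · simp only [if_neg hl, if_true]; exact hin 0 0
      · simp only [if_neg hl, if_true]
        have := hin 0 1
        simpa using this
      · simp only [if_neg hl, if_true, if_neg hl.symm]
        have := hin 1 0
        simpa using this
      · simp only [if_true]; exact hin 1 1)
  have hbl1 : b l1 = bW 1 := by rw [hb l1 (by simp)]; simp
  have hbl0 : b l0 = bW 0 := by rw [hb l0 (by simp)]; simp [hl]
  refine ⟨b, by rw [hbl1, hb1], fun i hi w' hw' => ?_⟩
  have h0 : ⟪(bW 0 : EuclideanSpace ℝ (Fin (n + 2))), b i⟫_ℝ = 0 := by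
    rw [← hbl0, b.inner_eq_ite, if_neg]
    intro h
    rw [← h, hl0] at hi
    simp at hi
  have h1 : ⟪(bW 1 : EuclideanSpace ℝ (Fin (n + 2))), b i⟫_ℝ = 0 := by
    rw [← hbl1, b.inner_eq_ite, if_neg]
    intro h
    rw [← h, hl1] at hi
    simp at hi
  have h2 := bW.sum_repr' (⟨w', hw'⟩ : W)
  have h3 : w' = ∑ j, ⟪bW j, (⟨w', hw'⟩ : W)⟫_ℝ • (bW j : EuclideanSpace ℝ (Fin (n + 2))) := by
    have := congrArg (Subtype.val) h2
    calc w' = ((⟨w', hw'⟩ : W) : EuclideanSpace ℝ (Fin (n + 2))) := rfl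
      _ = _ := this.symm
      _ = _ := by simp [Submodule.coe_sum]
  rw [h3, sum_inner, Fin.sum_univ_two]
  simp only [real_inner_smul_left, h0, h1]
  ring

/-- An adapted orthonormal basis, `dim W = 1`. -/
lemma exists_basis1 {W : Submodule ℝ (EuclideanSpace ℝ (Fin (n + 1)))}
    (hW : Module.finrank ℝ W = 1) :
    ∃ b : OrthonormalBasis (Fin (n + 1)) ℝ (EuclideanSpace ℝ (Fin (n + 1))),
      ∀ i : Fin (n + 1), i ≠ Fin.last n → ∀ w' ∈ W, ⟪w', b i⟫_ℝ = 0 := by
  set bW : OrthonormalBasis (Fin 1) ℝ W := (stdOrthonormalBasis ℝ W).reindex (finCongr hW) with hbW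
  obtain ⟨b, hb⟩ := Orthonormal.exists_orthonormalBasis_extension_of_card_eq (𝕜 := ℝ)
    (E := EuclideanSpace ℝ (Fin (n + 1))) (ι := Fin (n + 1)) (by simp)
    (v := fun _ => (bW 0 : EuclideanSpace ℝ (Fin (n + 1))))
    (s := {Fin.last n}) (by
      constructor
      · rintro ⟨i, hi⟩
        simp only [Set.domRestrict]
        rw [Submodule.norm_coe, bW.norm_eq_one]
      · rintro ⟨i, hi⟩ ⟨j, hj⟩ hij
        exfalso; apply hij
        rw [Set.mem_singleton_iff] at hi hj
        subst hi; subst hj; rfl)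
  have hbl : b (Fin.last n) = bW 0 := hb _ rfl
  refine ⟨b, fun i hi w' hw' => ?_⟩
  have h0 : ⟪(bW 0 : EuclideanSpace ℝ (Fin (n + 1))), b i⟫_ℝ = 0 := by
    rw [← hbl, b.inner_eq_ite, if_neg]
    exact fun h => hi h.symm
  have h2 := bW.sum_repr' (⟨w', hw'⟩ : W)
  have h3 : w' = ∑ j, ⟪bW j, (⟨w', hw'⟩ : W)⟫_ℝ • (bW j : EuclideanSpace ℝ (Fin (n + 1))) := by
    have := congrArg (Subtype.val) h2
    calc w' = ((⟨w', hw'⟩ : W) : EuclideanSpace ℝ (Fin (n + 1))) := rfl
      _ = _ := this.symm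
      _ = _ := by simp [Submodule.coe_sum]
  rw [h3, sum_inner, Fin.sum_univ_one]
  simp only [real_inner_smul_left, h0]
  ring

end Vale.Agent.P134.R2.H584
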