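import Vale.Agent.P134.R2.H584.Asm
import Vale.Agent.P134.R2.H584.Sym
import Vale.Agent.P134.R2.H561.Euc2

set_option linter.all false

/-! Functions of three variables, Euclidean form. -/

open MeasureTheory Filter Topology
open scoped InnerProductSpace Laplacian

namespace Vale.Agent.P134.R2.H584

open Vale.Agent.P134
open Vale.Agent.P134.B331 (SS)
open Vale.Agent.P134.B331.M (stH)
open Vale.Agent.P134.H765 (abs_le_one_of_bdd StableE stabV_of_stableE hypN_of_stable coordMap_std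
  rot)
open Vale.Agent.P134.R2.H561 (SH AlmostIncreasing mono_growth stable_growth)

variable {m n k : ℕ}

/-- The derivatives orthogonal to `W` vanish, monotone case. -/
theorem mono_dep (hm : m ≤ 3) {u : EuclideanSpace ℝ (Fin (m + 4)) → ℝ} (hu : ContDiff ℝ 2 u)
    (heq : ∀ x, Δ u x = u x ^ 3 - u x) (hb : ∃ M : ℝ, ∀ x, |u x| ≤ M)
    {a : EuclideanSpace ℝ (Fin (m + 4))} (ha : ∀ x, 0 < fderiv ℝ u x a)
    {W : Submodule ℝ (EuclideanSpace ℝ (Fin (m + 4)))} (hW : Module.finrank ℝ W = 2)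
    {c : EuclideanSpace ℝ (Fin (m + 4))} (hdep : DependsOn W c u) :
    ∃ b : OrthonormalBasis (Fin (m + 4)) ℝ (EuclideanSpace ℝ (Fin (m + 4))),
      ∀ i : Fin (m + 4), i.val < m + 2 → ∀ x, fderiv ℝ u x (b i) = 0 := by
  have hb1 := abs_le_one_of_bdd hu heq hb
  have du : Differentiable ℝ u := hu.differentiable (by norm_num)
  obtain ⟨w, hw, hwp⟩ := pos_proj du hdep ha
  have hw0 : w ≠ 0 := by
    rintro rfl
    have := hwp 0
    simp at this
  obtain ⟨b, hbl, hbo⟩ := exists_basis2 (n := m + 2) hW hw hw0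
  refine ⟨b, fun i hi x => ?_⟩
  obtain ⟨u', hu'⟩ : ∃ u' : (Fin (m + 4) → ℝ) → ℝ, u' = fun y => u (c + coordMap b y) := ⟨_, rfl⟩
  have hsol : Sol u' := by rw [hu']; exact sol_of_euclidean hu heq hb1 b c
  obtain ⟨S, hS⟩ : ∃ S : Finset (Fin (m + 3)), S = Finset.univ.erase (Fin.last (m + 2)) := ⟨_, rfl⟩
  have hcard : S.card = m + 2 := by
    rw [hS, Finset.card_erase_of_mem (Finset.mem_univ _), Finset.card_univ, Fintype.card_fin]
    rfl
  have hrot : RotI (S.map Fin.castSuccEmb) u' := by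
    rw [hu']
    apply rotI_of_dep du hdep b
    intro j hj
    obtain ⟨j', hj', rfl⟩ := Finset.mem_map.mp hj
    apply hbo
    rw [hS] at hj'
    have h1 : j' ≠ Fin.last (m + 2) := Finset.ne_of_mem_erase hj'
    have h2 : j' < Fin.last (m + 2) := Fin.lt_last_iff_ne_last.mpr h1
    exact h2
  have hpos : ∀ y, 0 < pd (Fin.last (m + 3)) u' y := by
    intro y
    have e : pd (Fin.last (m + 3)) u' y = ‖w‖⁻¹ * fderiv ℝ u (c + coordMap b y) w := by
      rw [hu', pd_coord_comp du b c]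
      have e1 : b (Fin.last (m + 3)) = ‖w‖⁻¹ • w := hbl
      rw [e1, map_smul, smul_eq_mul]
    rw [e]
    exact mul_pos (inv_pos.mpr (norm_pos_iff.mpr hw0)) (hwp _)
  have hQ := mono_QS hm hsol hpos hcard hrot (fun i => ⟪b i, x - c⟫_ℝ)
  have hi3 : i.val < m + 3 := Nat.lt_succ_of_lt hi
  have hiS : i ∈ S.map Fin.castSuccEmb := by
    refine Finset.mem_map.mpr ⟨⟨i.val, hi3⟩, ?_, ?_⟩
    · rw [hS]
      refine Finset.mem_erase.mpr ⟨?_, Finset.mem_univ _⟩
      intro h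
      have h3 := congrArg Fin.val h
      simp only [Fin.val_last] at h3
      omega
    · ext; rfl
  have h1 := pd_zero_of_QS hQ hiS
  rw [hu', pd_coord_comp du b c, coordMap_repr b c x] at h1
  exact h1

/-- **Monotone solutions, functions of three variables**, dimensions up to seven. -/
theorem mono_sym (hn : n ≤ 7) {u : EuclideanSpace ℝ (Fin n) → ℝ} (hu : ContDiff ℝ 2 u)
    (heq : ∀ x, Δ u x = u x ^ 3 - u x) (hb : ∃ M : ℝ, ∀ x, |u x| ≤ M)
    {a : EuclideanSpace ℝ (Fin n)} (ha : ∀ x, 0 < fderiv ℝ u x a)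
    {W : Submodule ℝ (EuclideanSpace ℝ (Fin n))} (hW : Module.finrank ℝ W = 2)
    {c : EuclideanSpace ℝ (Fin n)} (hdep : DependsOn W c u) :
    ∃ (e : EuclideanSpace ℝ (Fin n)) (c : ℝ), ‖e‖ = 1 ∧ 0 < ⟪e, a⟫_ℝ ∧
      ∀ x, u x = Real.tanh ((⟪e, x⟫_ℝ - c) / √2) := by
  rcases Nat.lt_or_ge n 5 with h | h
  · exact H134.mono_of_S3 H134.stS3 (by omega) hu heq hb ha
  · obtain ⟨m, rfl⟩ : ∃ m, n = m + 4 := ⟨n - 4, by omega⟩
    obtain ⟨b, hb'⟩ := mono_dep (by omega) hu heq hb ha hW hdep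
    have hle : m + 1 ≤ m + 4 := by omega
    refine mono_growth (k := m + 1) (by omega) hu heq hb (fun x => (ha x).le) ⟨0, ha 0⟩
      (a := fun i => b (Fin.castLE hle i)) ?_ (fun i => ⟨0, fun R hR => ?_⟩)
    · exact b.orthonormal.linearIndependent.comp _ (Fin.castLE_injective hle)
    · have h1 : ∀ x, (min (fderiv ℝ u x (b (Fin.castLE hle i))) 0) ^ 2 = 0 := by
        intro x
        rw [hb' _ (by have := i.isLt; simp only [Fin.val_castLE]; omega) x]
        simp
      simp_rw [h1]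
      simp

/-- Stability does not depend on the orthonormal coordinates. -/
lemma sh_of_stableE {u : EuclideanSpace ℝ (Fin n) → ℝ} (hu : ContDiff ℝ 2 u)
    (heq : ∀ x, Δ u x = u x ^ 3 - u x) (hb : ∀ x, |u x| ≤ 1) (hs : StableE u)
    (b : OrthonormalBasis (Fin n) ℝ (EuclideanSpace ℝ (Fin n))) (c : EuclideanSpace ℝ (Fin n)) :
    SH (fun y => u (c + coordMap b y)) := by
  have hsol := sol_of_euclidean hu heq hb (EuclideanSpace.basisFun (Fin n) ℝ) 0
  have hS : SS _ (fun y => u (0 + coordMap (EuclideanSpace.basisFun (Fin n) ℝ) y)) :=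
    ⟨hsol, hypN_of_stable hsol (stabV_of_stableE hs)⟩
  have h1 := stH _ _ hS b (WithLp.ofLp c)
  have e : (fun y => u (0 + coordMap (EuclideanSpace.basisFun (Fin n) ℝ)
      (rot b y + WithLp.ofLp c))) = fun y => u (c + coordMap b y) := by
    funext y
    rw [coordMap_std, zero_add]
    congr 1
    ext k
    simp only [coordMap_apply, rot, PiLp.add_apply, Pi.add_apply, WithLp.ofLp_sum, Finset.sum_apply,
      PiLp.smul_apply, smul_eq_mul]
    ring
  rw [e] at h1
  exact ⟨h1.toSol, _, h1.hyp⟩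

/-- The derivatives orthogonal to `W` vanish, stable case. -/
theorem stable_dep (hm : m ≤ 3) {u : EuclideanSpace ℝ (Fin (m + 3)) → ℝ} (hu : ContDiff ℝ 2 u)
    (heq : ∀ x, Δ u x = u x ^ 3 - u x) (hb : ∃ M : ℝ, ∀ x, |u x| ≤ M) (hs : StableE u)
    {W : Submodule ℝ (EuclideanSpace ℝ (Fin (m + 3)))} (hW : Module.finrank ℝ W = 1)
    {c : EuclideanSpace ℝ (Fin (m + 3))} (hdep : DependsOn W c u) :
    ∃ b : OrthonormalBasis (Fin (m + 3)) ℝ (EuclideanSpace ℝ (Fin (m + 3))),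
      ∀ i : Fin (m + 3), i ≠ Fin.last (m + 2) → ∀ x, fderiv ℝ u x (b i) = 0 := by
  have hb1 := abs_le_one_of_bdd hu heq hb
  have du : Differentiable ℝ u := hu.differentiable (by norm_num)
  obtain ⟨b, hbo⟩ := exists_basis1 (n := m + 2) hW
  refine ⟨b, fun i hi x => ?_⟩
  obtain ⟨u', hu'⟩ : ∃ u' : (Fin (m + 3) → ℝ) → ℝ, u' = fun y => u (c + coordMap b y) := ⟨_, rfl⟩
  have hsh : SH u' := by rw [hu']; exact sh_of_stableE hu heq hb1 hs b c
  obtain ⟨S, hS⟩ : ∃ S : Finset (Fin (m + 3)), S = Finset.univ.erase (Fin.last (m + 2)) := ⟨_, rfl⟩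
  have hcard : S.card = m + 2 := by
    rw [hS, Finset.card_erase_of_mem (Finset.mem_univ _), Finset.card_univ, Fintype.card_fin]
    rfl
  have hrot : RotI S u' := by
    rw [hu']
    apply rotI_of_dep du hdep b
    intro j hj
    rw [hS] at hj
    exact hbo j (Finset.ne_of_mem_erase hj)
  have hQ := stable_QS hm hsh hcard hrot (fun i => ⟪b i, x - c⟫_ℝ)
  have hiS : i ∈ S := by
    rw [hS]
    exact Finset.mem_erase.mpr ⟨hi, Finset.mem_univ _⟩
  have h1 := pd_zero_of_QS hQ hiS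
  rw [hu', pd_coord_comp du b c, coordMap_repr b c x] at h1
  exact h1

/-- **Stable solutions, functions of two variables**, dimensions three to six. -/
theorem stable_sym (hm : m ≤ 3) {u : EuclideanSpace ℝ (Fin (m + 3)) → ℝ} (hu : ContDiff ℝ 2 u)
    (heq : ∀ x, Δ u x = u x ^ 3 - u x) (hb : ∃ M : ℝ, ∀ x, |u x| ≤ M) (hs : StableE u)
    {W : Submodule ℝ (EuclideanSpace ℝ (Fin (m + 3)))} (hW : Module.finrank ℝ W = 1)
    {c : EuclideanSpace ℝ (Fin (m + 3))} (hdep : DependsOn W c u) :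
    (∀ x, u x = 1) ∨ (∀ x, u x = -1) ∨ ∃ (e : EuclideanSpace ℝ (Fin (m + 3))) (c : ℝ), ‖e‖ = 1 ∧
      ∀ x, u x = Real.tanh ((⟪e, x⟫_ℝ - c) / √2) := by
  obtain ⟨b, hb'⟩ := stable_dep hm hu heq hb hs hW hdep
  have hle : m ≤ m + 3 := by omega
  refine stable_growth hu heq hb hs (a := fun i => b (Fin.castLE hle i)) ?_
    (fun i => ⟨0, fun R hR => ?_⟩)
  · exact b.orthonormal.linearIndependent.comp _ (Fin.castLE_injective hle)
  · have h1 : ∀ x, (min (fderiv ℝ u x (b (Fin.castLE hle i))) 0) ^ 2 = 0 := by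
      intro x
      rw [hb' _ (by
        intro h
        have h2 := congrArg Fin.val h
        simp only [Fin.val_castLE, Fin.val_last] at h2
        have := i.isLt
        omega) x]
      simp
    simp_rw [h1]
    simp

end Vale.Agent.P134.R2.H584
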