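import Vale.Agent.P134.R2.H584.Dr7
import Vale.Agent.P134.R2.H584.Sym
import Vale.Agent.P134.R2.H584.Wrap

set_option linter.all false

/-! Euclidean form of the theorems for the group `O(3) x O(2)`. -/

open MeasureTheory Filter Topology
open scoped InnerProductSpace Laplacian

namespace Vale.Agent.P134.R2.H584

open Vale.Agent.P134
open Vale.Agent.P134.H765 (abs_le_one_of_bdd StableE)

variable {n : ℕ}

lemma rotI_gen {u : EuclideanSpace ℝ (Fin n) → ℝ} (du : Differentiable ℝ u)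
    (b : OrthonormalBasis (Fin n) ℝ (EuclideanSpace ℝ (Fin n))) (c : EuclideanSpace ℝ (Fin n))
    {S : Finset (Fin n)}
    (h : ∀ x y, (∀ j, j ∉ S → ⟪b j, x - c⟫_ℝ = ⟪b j, y - c⟫_ℝ) →
      ∑ i ∈ S, ⟪b i, x - c⟫_ℝ ^ 2 = ∑ i ∈ S, ⟪b i, y - c⟫_ℝ ^ 2 → u x = u y) :
    RotI S (fun y => u (c + coordMap b y)) := by
  refine rotI_of_dep du (W := Submodule.span ℝ (b '' {j | j ∉ S})) (c := c) ?_ b ?_
  · intro x y hw hn
    have hj : ∀ j, j ∉ S → ⟪b j, x - c⟫_ℝ = ⟪b j, y - c⟫_ℝ := fun j hj => by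
      rw [inner_sub_right, inner_sub_right, hw _ (Submodule.subset_span ⟨j, hj, rfl⟩)]
    refine h x y hj ?_
    have h1 : ∀ z, ∑ i, ⟪b i, z⟫_ℝ ^ 2 = ‖z‖ ^ 2 := fun z => b.sum_sq_inner_right z
    have h2 := Finset.sum_add_sum_compl S (fun i => ⟪b i, x - c⟫_ℝ ^ 2)
    have h3 := Finset.sum_add_sum_compl S (fun i => ⟪b i, y - c⟫_ℝ ^ 2)
    have h4 : ∑ i ∈ Sᶜ, ⟪b i, x - c⟫_ℝ ^ 2 = ∑ i ∈ Sᶜ, ⟪b i, y - c⟫_ℝ ^ 2 :=
      Finset.sum_congr rfl fun i hi => by rw [hj i (Finset.mem_compl.mp hi)]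
    rw [h1] at h2 h3
    rw [hn] at h2
    linarith
  · intro i hi w hw
    refine Submodule.span_induction (p := fun w _ => ⟪w, b i⟫_ℝ = 0) ?_ ?_ ?_ ?_ hw
    · rintro _ ⟨j, hj, rfl⟩
      rw [b.inner_eq_ite, if_neg]
      rintro rfl
      exact hj hi
    · exact inner_zero_left _
    · intro x y _ _ hx hy
      rw [inner_add_left, hx, hy, add_zero]
    · intro a x _ hx
      rw [real_inner_smul_left, hx, mul_zero]

/-- **Bounded stable solutions on `ℝ⁵` of double revolution.** -/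
theorem dr_stable {u : EuclideanSpace ℝ (Fin 5) → ℝ} (hu : ContDiff ℝ 2 u)
    (heq : ∀ x, Δ u x = u x ^ 3 - u x) (hb : ∃ M : ℝ, ∀ x, |u x| ≤ M) (hs : StableE u)
    (b : OrthonormalBasis (Fin 5) ℝ (EuclideanSpace ℝ (Fin 5))) (c : EuclideanSpace ℝ (Fin 5))
    (F : ℝ → ℝ → ℝ)
    (hF : ∀ x, u x = F (⟪b 0, x - c⟫_ℝ ^ 2 + ⟪b 1, x - c⟫_ℝ ^ 2 + ⟪b 2, x - c⟫_ℝ ^ 2)
      (⟪b 3, x - c⟫_ℝ ^ 2 + ⟪b 4, x - c⟫_ℝ ^ 2)) :
    (∀ x, u x = 1) ∨ (∀ x, u x = -1) := by
  have hb1 := abs_le_one_of_bdd hu heq hb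
  have du : Differentiable ℝ u := hu.differentiable (by norm_num)
  have hsh := sh_of_stableE hu heq hb1 hs b c
  have hS : RotI ({0, 1, 2} : Finset (Fin 5)) (fun y => u (c + coordMap b y)) := by
    refine rotI_gen du b c fun x y hj hsum => ?_
    have e3 := hj 3 (by decide)
    have e4 := hj 4 (by decide)
    rw [hF, hF, e3, e4]
    congr 1
    simpa [Finset.sum_insert, add_assoc] using hsum
  have hT : RotI ({3, 4} : Finset (Fin 5)) (fun y => u (c + coordMap b y)) := by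
    refine rotI_gen du b c fun x y hj hsum => ?_
    have e0 := hj 0 (by decide)
    have e1 := hj 1 (by decide)
    have e2 := hj 2 (by decide)
    rw [hF, hF, e0, e1, e2]
    congr 1
    simpa [Finset.sum_insert] using hsum
  have h := dr_const hsh (S := {0, 1, 2}) (T := {3, 4}) (by decide) (by decide) hS hT (by decide)
    (by decide)
  rcases h with h | h
  · left
    intro x
    have := h (fun i => ⟪b i, x - c⟫_ℝ)
    rwa [coordMap_repr b c x] at this
  · right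
    intro x
    have := h (fun i => ⟪b i, x - c⟫_ℝ)
    rwa [coordMap_repr b c x] at this

/-- The limits, when the last basis vector is a direction of monotonicity. -/
theorem dr_mono_aux {u : EuclideanSpace ℝ (Fin 6) → ℝ} (hu : ContDiff ℝ 2 u)
    (heq : ∀ x, Δ u x = u x ^ 3 - u x) (hb : ∃ M : ℝ, ∀ x, |u x| ≤ M)
    (b : OrthonormalBasis (Fin 6) ℝ (EuclideanSpace ℝ (Fin 6))) (c : EuclideanSpace ℝ (Fin 6))
    (F : ℝ → ℝ → ℝ → ℝ)
    (hF : ∀ x, u x = F (⟪b 0, x - c⟫_ℝ ^ 2 + ⟪b 1, x - c⟫_ℝ ^ 2 + ⟪b 2, x - c⟫_ℝ ^ 2)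
      (⟪b 3, x - c⟫_ℝ ^ 2 + ⟪b 4, x - c⟫_ℝ ^ 2) ⟪b 5, x - c⟫_ℝ)
    (hpos : ∀ x, 0 < fderiv ℝ u x (b 5)) (x : EuclideanSpace ℝ (Fin 6)) :
    Tendsto (fun t : ℝ => u (x + t • b 5)) atTop (𝓝 1) ∧
      Tendsto (fun t : ℝ => u (x + t • b 5)) atBot (𝓝 (-1)) := by
  have hb1 := abs_le_one_of_bdd hu heq hb
  have du : Differentiable ℝ u := hu.differentiable (by norm_num)
  have hsol := sol_of_euclidean hu heq hb1 b c
  have m1 : (({0, 1, 2} : Finset (Fin 5)).map Fin.castSuccEmb) = ({0, 1, 2} : Finset (Fin 6)) := by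
    decide
  have m2 : (({3, 4} : Finset (Fin 5)).map Fin.castSuccEmb) = ({3, 4} : Finset (Fin 6)) := by
    decide
  have hS : RotI (({0, 1, 2} : Finset (Fin 5)).map Fin.castSuccEmb)
      (fun y => u (c + coordMap b y)) := by
    rw [m1]
    refine rotI_gen du b c fun x y hj hsum => ?_
    have e3 := hj 3 (by decide)
    have e4 := hj 4 (by decide)
    have e5 := hj 5 (by decide)
    rw [hF, hF, e3, e4, e5]
    congr 1
    simpa [Finset.sum_insert, add_assoc] using hsum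
  have hT : RotI (({3, 4} : Finset (Fin 5)).map Fin.castSuccEmb)
      (fun y => u (c + coordMap b y)) := by
    rw [m2]
    refine rotI_gen du b c fun x y hj hsum => ?_
    have e0 := hj 0 (by decide)
    have e1 := hj 1 (by decide)
    have e2 := hj 2 (by decide)
    have e5 := hj 5 (by decide)
    rw [hF, hF, e0, e1, e2, e5]
    congr 1
    simpa [Finset.sum_insert] using hsum
  have hp : ∀ y, 0 < pd (Fin.last 5) (fun y => u (c + coordMap b y)) y := by
    intro y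
    rw [pd_coord_comp du b c]
    exact hpos _
  have h1 := dr_limit hsol hp (S := {0, 1, 2}) (T := {3, 4}) (by decide) (by decide) hS hT
    (by decide) (by decide) (fun i => ⟪b i, x - c⟫_ℝ)
  have h2 := dr_limit_bot hsol hp (S := {0, 1, 2}) (T := {3, 4}) (by decide) (by decide) hS hT
    (by decide) (by decide) (fun i => ⟪b i, x - c⟫_ℝ)
  have e : ∀ t : ℝ, c + coordMap b ((fun i => ⟪b i, x - c⟫_ℝ)
      + t • (Pi.single (Fin.last 5) 1 : Fin 6 → ℝ)) = x + t • b 5 := by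
    intro t
    rw [map_add, map_smul, coordMap_single, ← add_assoc, coordMap_repr b c x]
    rfl
  simp only [e] at h1 h2
  exact ⟨h1, h2⟩

/-- **Monotone solutions on `ℝ⁶` of double revolution have the limits `±1`.** -/
theorem dr_mono {u : EuclideanSpace ℝ (Fin 6) → ℝ} (hu : ContDiff ℝ 2 u)
    (heq : ∀ x, Δ u x = u x ^ 3 - u x) (hb : ∃ M : ℝ, ∀ x, |u x| ≤ M)
    {a : EuclideanSpace ℝ (Fin 6)} (ha : ∀ x, 0 < fderiv ℝ u x a)
    (b : OrthonormalBasis (Fin 6) ℝ (EuclideanSpace ℝ (Fin 6))) (c : EuclideanSpace ℝ (Fin 6))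
    (F : ℝ → ℝ → ℝ → ℝ)
    (hF : ∀ x, u x = F (⟪b 0, x - c⟫_ℝ ^ 2 + ⟪b 1, x - c⟫_ℝ ^ 2 + ⟪b 2, x - c⟫_ℝ ^ 2)
      (⟪b 3, x - c⟫_ℝ ^ 2 + ⟪b 4, x - c⟫_ℝ ^ 2) ⟪b 5, x - c⟫_ℝ) :
    ∃ e : EuclideanSpace ℝ (Fin 6), ‖e‖ = 1 ∧ 0 < ⟪e, a⟫_ℝ ∧ (∀ x, 0 < fderiv ℝ u x e) ∧
      ∀ x, Tendsto (fun t : ℝ => u (x + t • e)) atTop (𝓝 1) ∧
        Tendsto (fun t : ℝ => u (x + t • e)) atBot (𝓝 (-1)) := by
  have du : Differentiable ℝ u := hu.differentiable (by norm_num)
  obtain ⟨R, hRd⟩ : ∃ R : EuclideanSpace ℝ (Fin 6) ≃ₗᵢ[ℝ] EuclideanSpace ℝ (Fin 6),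
      R = (Submodule.span ℝ {b 5}).reflection := ⟨_, rfl⟩
  have h55 : ‖b 5‖ = 1 := b.orthonormal.1 5
  have hRf : ∀ v, R v = (2 * ⟪b 5, v⟫_ℝ) • b 5 - v := by
    intro v
    rw [hRd, Submodule.reflection_singleton_apply, h55]
    simp [mul_smul, two_smul, add_smul]
  have hRi : ∀ i v, ⟪b i, R v⟫_ℝ = 2 * ⟪b 5, v⟫_ℝ * (if i = 5 then 1 else 0) - ⟪b i, v⟫_ℝ := by
    intro i v
    rw [hRf, inner_sub_right, real_inner_smul_right, b.inner_eq_ite]
  have hRR : ∀ v, R (R v) = v := by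
    intro v
    rw [hRd, Submodule.reflection_reflection]
  have hsym : ∀ x, u (c + R (x - c)) = u x := by
    intro x
    rw [hF, hF]
    have e : c + R (x - c) - c = R (x - c) := add_sub_cancel_left _ _
    rw [e]
    simp only [hRi]
    have d0 : (0 : Fin 6) ≠ 5 := by decide
    have d1 : (1 : Fin 6) ≠ 5 := by decide
    have d2 : (2 : Fin 6) ≠ 5 := by decide
    have d3 : (3 : Fin 6) ≠ 5 := by decide
    have d4 : (4 : Fin 6) ≠ 5 := by decide
    simp only [if_neg d0, if_neg d1, if_neg d2, if_neg d3, if_neg d4, if_true]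
    congr 1
    · ring
    · ring
    · ring
  have hder : ∀ x v, fderiv ℝ u x v = fderiv ℝ u (c + R (x - c)) (R v) := by
    intro x v
    have h1 : HasFDerivAt (fun x => c + R (x - c))
        (R.toContinuousLinearEquiv : EuclideanSpace ℝ (Fin 6) →L[ℝ] EuclideanSpace ℝ (Fin 6)) x :=
      (((R.toContinuousLinearEquiv : EuclideanSpace ℝ (Fin 6) →L[ℝ]
        EuclideanSpace ℝ (Fin 6)).hasFDerivAt.comp x
          ((hasFDerivAt_id x).sub_const c)).const_add c)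
    have h2 := ((du (c + R (x - c))).hasFDerivAt.comp x h1)
    have h3 : (u ∘ fun x => c + R (x - c)) = u := funext hsym
    rw [h3] at h2
    rw [h2.fderiv]
    rfl
  have hsum : ∀ x, 0 < 2 * ⟪b 5, a⟫_ℝ * fderiv ℝ u x (b 5) := by
    intro x
    have h1 := ha x
    have h2 : 0 < fderiv ℝ u x (R a) := by
      have h3 := ha (c + R (x - c))
      rw [hder] at h3
      have e : c + R (c + R (x - c) - c) = x := by
        rw [add_sub_cancel_left, hRR]; abel
      rw [e] at h3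
      exact h3
    rw [hRf, map_sub, map_smul, smul_eq_mul] at h2
    linarith
  rcases lt_trichotomy ⟪b 5, a⟫_ℝ 0 with hα | hα | hα
  · -- the direction is `-b 5`
    have hneg : ∀ x, 0 < fderiv ℝ u x (-b 5) := by
      intro x
      rw [map_neg]
      have h1 := hsum x
      by_contra hcon
      have h2 : 0 ≤ fderiv ℝ u x (b 5) := by linarith
      have h3 : 2 * ⟪b 5, a⟫_ℝ * fderiv ℝ u x (b 5) ≤ 0 :=
        mul_nonpos_of_nonpos_of_nonneg (by linarith) h2
      linarith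
    obtain ⟨b', hb'⟩ : ∃ b' : OrthonormalBasis (Fin 6) ℝ (EuclideanSpace ℝ (Fin 6)),
        ∀ i, b' i = - R (b i) :=
      ⟨b.map (R.trans (LinearIsometryEquiv.neg ℝ)), fun i => by simp⟩
    have hb'' : ∀ i, b' i = b i - (2 * (if (5 : Fin 6) = i then 1 else 0) : ℝ) • b 5 := by
      intro i
      rw [hb', hRf, b.inner_eq_ite, neg_sub]
    have q0 : b' 0 = b 0 := by
      rw [hb'', if_neg (by decide)]; simp
    have q1 : b' 1 = b 1 := by
      rw [hb'', if_neg (by decide)]; simp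
    have q2 : b' 2 = b 2 := by
      rw [hb'', if_neg (by decide)]; simp
    have q3 : b' 3 = b 3 := by
      rw [hb'', if_neg (by decide)]; simp
    have q4 : b' 4 = b 4 := by
      rw [hb'', if_neg (by decide)]; simp
    have q5 : b' 5 = - b 5 := by
      rw [hb'', if_pos rfl, mul_one, two_smul]; abel
    refine ⟨-b 5, by rw [norm_neg, h55], by rw [inner_neg_left]; linarith, hneg, fun x => ?_⟩
    have h := dr_mono_aux hu heq hb b' c (fun p q s => F p q (-s)) (fun x => by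
      rw [q0, q1, q2, q3, q4, q5, inner_neg_left, neg_neg]
      exact hF x) (fun x => by rw [q5]; exact hneg x) x
    rw [q5] at h
    exact h
  · exfalso
    have := hsum 0
    rw [hα] at this
    simp at this
  · have hp : ∀ x, 0 < fderiv ℝ u x (b 5) := by
      intro x
      have h1 := hsum x
      exact (mul_pos_iff_of_pos_left (by linarith)).mp h1
    exact ⟨b 5, h55, hα, hp, fun x => dr_mono_aux hu heq hb b c F hF hp x⟩

end Vale.Agent.P134.R2.H584
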