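import Vale.Agent.P134.H775.K

set_option linter.all false

/-! The weighted stability inequality for a finite family of solutions of the linearised
equation. -/

open MeasureTheory Filter Topology

namespace Vale.Agent.P134.R2.H584

open Vale.Agent.P134 Vale.Agent.P134.SM Vale.Agent.P134.H775

variable {n : ℕ} {ι : Type*} {S : Finset ι} {w : ι → (Fin n → ℝ) → ℝ} {V η : (Fin n → ℝ) → ℝ}

/-- `Σ_{i∈S} w_i²`. -/
noncomputable def ssq (S : Finset ι) (w : ι → (Fin n → ℝ) → ℝ) (x : Fin n → ℝ) : ℝ :=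
  ∑ i ∈ S, w i x ^ 2

/-- `Σ_{i∈S} w_i ∂_j w_i`. -/
noncomputable def sB (S : Finset ι) (w : ι → (Fin n → ℝ) → ℝ) (j : Fin n) (x : Fin n → ℝ) : ℝ :=
  ∑ i ∈ S, w i x * pd j (w i) x

/-- `Σ_{i∈S} |∇w_i|²`. -/
noncomputable def sG (S : Finset ι) (w : ι → (Fin n → ℝ) → ℝ) (x : Fin n → ℝ) : ℝ :=
  ∑ i ∈ S, gs (w i) x

/-- The Lagrange defect `Q Σ|∇w_i|² - |Σ w_i ∇w_i|²`. -/
noncomputable def sN (S : Finset ι) (w : ι → (Fin n → ℝ) → ℝ) (x : Fin n → ℝ) : ℝ :=
  ssq S w x * sG S w x - ∑ j, sB S w j x ^ 2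

lemma ssq_nonneg (S : Finset ι) (w : ι → (Fin n → ℝ) → ℝ) (x : Fin n → ℝ) : 0 ≤ ssq S w x :=
  Finset.sum_nonneg fun _ _ => sq_nonneg _

lemma sG_nonneg (S : Finset ι) (w : ι → (Fin n → ℝ) → ℝ) (x : Fin n → ℝ) : 0 ≤ sG S w x :=
  Finset.sum_nonneg fun _ _ => gs_nonneg _ _

lemma ssq_contDiff (hw : ∀ i, ContDiff ℝ 1 (w i)) : ContDiff ℝ 1 (ssq S w) :=
  ContDiff.sum fun i _ => (hw i).pow 2

lemma sB_cont (hw : ∀ i, ContDiff ℝ 1 (w i)) (j : Fin n) : Continuous (sB S w j) :=
  continuous_finsetSum _ fun i _ => (hw i).continuous.mul (continuous_pd (hw i))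

lemma sG_cont (hw : ∀ i, ContDiff ℝ 1 (w i)) : Continuous (sG S w) :=
  continuous_finsetSum _ fun i _ => continuous_gs (hw i)

lemma sN_cont (hw : ∀ i, ContDiff ℝ 1 (w i)) : Continuous (sN S w) :=
  ((ssq_contDiff hw).continuous.mul (sG_cont hw)).sub
    (continuous_finsetSum _ fun j _ => (sB_cont hw j).pow 2)

/-- Test of the stability inequality with `√(Σ w_i² + δ) η`. -/
theorem fam_delta (hw : ∀ i, ContDiff ℝ 1 (w i)) (hV : Continuous V)
    (W : ∀ i, WeakLin V (w i)) (hs : Stb V) (hη : ContDiff ℝ 1 η)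
    (hc : HasCompactSupport η) {δ : ℝ} (hδ : 0 < δ) :
    ∫ x, η x ^ 2 * (sN S w x / (ssq S w x + δ))
      ≤ (∫ x, (ssq S w x + δ) * gs η x) + ∫ x, δ * (V x * η x ^ 2) := by
  set q : (Fin n → ℝ) → ℝ := fun x => ssq S w x + δ with hq
  have hq0 : ∀ x, 0 < q x := fun x => by have := ssq_nonneg S w x; simp only [hq]; linarith
  have hqc : ContDiff ℝ 1 q := (ssq_contDiff hw).add contDiff_const
  set s : (Fin n → ℝ) → ℝ := fun x => Real.sqrt (q x) with hs'
  have hsc : ContDiff ℝ 1 s := hqc.sqrt fun x => (hq0 x).ne'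
  have hs2 : ∀ x, s x ^ 2 = q x := fun x => Real.sq_sqrt (hq0 x).le
  have hs0 : ∀ x, 0 < s x := fun x => Real.sqrt_pos.mpr (hq0 x)
  have dw : ∀ i, Differentiable ℝ (w i) := fun i => (hw i).differentiable (by norm_num)
  have dη : Differentiable ℝ η := hη.differentiable (by norm_num)
  have ds : Differentiable ℝ s := hsc.differentiable (by norm_num)
  have hps : ∀ j x, s x * pd j s x = sB S w j x := by
    intro j x
    have h1 : pd j (fun y => s y ^ 2) x = 2 * s x * pd j s x := pd_sq (ds x)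
    have h2 : (fun y => s y ^ 2) = fun y => (∑ i ∈ S, w i y ^ 2) + δ := by
      funext y; rw [hs2]; rfl
    have h3 : pd j (fun y => (∑ i ∈ S, w i y ^ 2) + δ) x = 2 * sB S w j x := by
      have d1 : ∀ i ∈ S, DifferentiableAt ℝ (fun y => w i y ^ 2) x := fun i _ => (dw i x).pow 2
      have d2 : DifferentiableAt ℝ (fun y => ∑ i ∈ S, w i y ^ 2) x :=
        DifferentiableAt.fun_sum d1
      rw [pd_add d2 (differentiableAt_const _), pd_sum S (F := fun i y => w i y ^ 2) d1, pd_const,
        add_zero]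
      unfold sB
      rw [Finset.mul_sum]
      refine Finset.sum_congr rfl fun i _ => ?_
      rw [pd_sq (dw i x)]; ring
    rw [h2, h3] at h1
    linarith
  set ξ : (Fin n → ℝ) → ℝ := fun x => s x * η x with hξ
  have hξc : ContDiff ℝ 1 ξ := hsc.mul hη
  have hξs : HasCompactSupport ξ := hc.mul_left
  have h0 := hs ξ hξc hξs
  have hη2 : ContDiff ℝ 1 (fun x => η x ^ 2) := hη.pow 2
  have hc2 : HasCompactSupport (fun x => η x ^ 2) := hcs_sq hc
  have hTc : ∀ i, ContDiff ℝ 1 (fun x => w i x * η x ^ 2) := fun i => (hw i).mul hη2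
  have hTs : ∀ i, HasCompactSupport (fun x => w i x * η x ^ 2) := fun i => hc2.mul_left
  have T : ∀ i, _ := fun i => W i _ (hTc i) (hTs i)
  have i1 : ∀ i, Integrable (fun x => ∑ j, pd j (w i) x * pd j (fun x => w i x * η x ^ 2) x) :=
    fun i => integrable_sum_mul (fun j => continuous_pd (hw i)) (fun j => continuous_pd (hTc i))
      (fun j => hasCompactSupport_pd (hTs i))
  have i3 : ∀ i, Integrable (fun x => V x * w i x * (w i x * η x ^ 2)) := fun i =>
    ((hV.mul (hw i).continuous).mul (hTc i).continuous).integrable_of_hasCompactSupport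
      (hTs i).mul_left
  have i5 : Integrable (fun x => gs ξ x + V x * ξ x ^ 2) :=
    (integrable_gs hξc hξs).add
      ((hV.mul (hξc.continuous.pow 2)).integrable_of_hasCompactSupport (hcs_sq hξs).mul_left)
  have e1 : ∀ i, ∫ x, ((∑ j, pd j (w i) x * pd j (fun x => w i x * η x ^ 2) x)
      + V x * w i x * (w i x * η x ^ 2)) = 0 := by
    intro i
    rw [integral_add (i1 i) (i3 i), T i]; ring
  have i12 : ∀ i, Integrable (fun x => (∑ j, pd j (w i) x * pd j (fun x => w i x * η x ^ 2) x)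
      + V x * w i x * (w i x * η x ^ 2)) := fun i => (i1 i).add (i3 i)
  have i13 : Integrable (fun x => ∑ i ∈ S, ((∑ j, pd j (w i) x * pd j (fun x => w i x * η x ^ 2) x)
      + V x * w i x * (w i x * η x ^ 2))) :=
    integrable_finsetSum _ fun i _ => i12 i
  have e2 : ∫ x, ∑ i ∈ S, ((∑ j, pd j (w i) x * pd j (fun x => w i x * η x ^ 2) x)
      + V x * w i x * (w i x * η x ^ 2)) = 0 := by
    rw [integral_finsetSum _ fun i _ => i12 i]
    exact Finset.sum_eq_zero fun i _ => e1 i
  have i6 : Integrable (fun x => q x * gs η x) :=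
    (hqc.continuous.mul (continuous_gs hη)).integrable_of_hasCompactSupport (hcs_gs hc).mul_left
  have i7 : Integrable (fun x => δ * (V x * η x ^ 2)) :=
    (continuous_const.mul (hV.mul hη2.continuous)).integrable_of_hasCompactSupport
      (hc2.mul_left.mul_left)
  have hcn : Continuous (fun x => sN S w x / q x) :=
    (sN_cont hw).div hqc.continuous fun x => (hq0 x).ne'
  have i8 : Integrable (fun x => η x ^ 2 * (sN S w x / q x)) :=
    (hη2.continuous.mul hcn).integrable_of_hasCompactSupport hc2.mul_right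
  have h1 : ∫ x, ((gs ξ x + V x * ξ x ^ 2)
      - ∑ i ∈ S, ((∑ j, pd j (w i) x * pd j (fun x => w i x * η x ^ 2) x)
        + V x * w i x * (w i x * η x ^ 2)))
      ≤ ∫ x, ((q x * gs η x + δ * (V x * η x ^ 2)) - η x ^ 2 * (sN S w x / q x)) := by
    refine integral_mono (i5.sub i13) ((i6.add i7).sub i8) fun x => ?_
    show (gs ξ x + V x * ξ x ^ 2)
      - ∑ i ∈ S, ((∑ j, pd j (w i) x * pd j (fun x => w i x * η x ^ 2) x)
        + V x * w i x * (w i x * η x ^ 2))
      ≤ (q x * gs η x + δ * (V x * η x ^ 2)) - η x ^ 2 * (sN S w x / q x)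
    have dη2 : DifferentiableAt ℝ (fun y => η y ^ 2) x := (dη x).pow 2
    have p1 : ∀ i j, pd j (fun x => w i x * η x ^ 2) x
        = w i x * (2 * η x * pd j η x) + η x ^ 2 * pd j (w i) x := fun i j => by
      rw [pd_mul (dw i x) dη2, pd_sq (dη x)]
    have p3 : ∀ j, pd j ξ x = s x * pd j η x + η x * pd j s x := fun j => by
      rw [hξ, pd_mul (ds x) (dη x)]
    have hqx : 0 < q x := hq0 x
    -- the sum of the weak equations
    have q1 : ∑ i ∈ S, ((∑ j, pd j (w i) x * pd j (fun x => w i x * η x ^ 2) x)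
        + V x * w i x * (w i x * η x ^ 2))
        = η x ^ 2 * sG S w x + (∑ j, 2 * η x * pd j η x * sB S w j x)
          + V x * ssq S w x * η x ^ 2 := by
      have a1 : ∀ i ∈ S, ((∑ j, pd j (w i) x * pd j (fun x => w i x * η x ^ 2) x)
        + V x * w i x * (w i x * η x ^ 2))
          = η x ^ 2 * gs (w i) x + (∑ j, 2 * η x * pd j η x * (w i x * pd j (w i) x))
            + V x * η x ^ 2 * w i x ^ 2 := by
        intro i _
        unfold gs
        rw [Finset.mul_sum, ← Finset.sum_add_distrib]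
        have : ∀ j ∈ (Finset.univ : Finset (Fin n)), pd j (w i) x * pd j (fun x => w i x * η x ^ 2) x
            = η x ^ 2 * pd j (w i) x ^ 2 + 2 * η x * pd j η x * (w i x * pd j (w i) x) := by
          intro j _
          rw [p1]; ring
        rw [Finset.sum_congr rfl this]
        ring
      rw [Finset.sum_congr rfl a1, Finset.sum_add_distrib, Finset.sum_add_distrib,
        ← Finset.mul_sum, ← Finset.mul_sum, Finset.sum_comm]
      unfold sG ssq sB
      simp_rw [← Finset.mul_sum]
      ring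
    have q2 : gs ξ x = q x * gs η x + (∑ j, 2 * η x * pd j η x * sB S w j x)
        + η x ^ 2 * ((∑ j, sB S w j x ^ 2) / q x) := by
      unfold gs
      rw [Finset.mul_sum, Finset.sum_div, Finset.mul_sum, ← Finset.sum_add_distrib,
        ← Finset.sum_add_distrib]
      refine Finset.sum_congr rfl fun j _ => ?_
      have h2 := hps j x
      have h3 : pd j s x ^ 2 = sB S w j x ^ 2 / q x := by
        rw [eq_div_iff hqx.ne', ← hs2 x, ← h2]; ring
      rw [p3, ← h3, ← hs2 x, ← h2]
      ring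
    have h7 : V x * ξ x ^ 2 = V x * q x * η x ^ 2 := by
      rw [hξ]; simp only; rw [mul_pow, hs2 x]; ring
    have h8 : (∑ j, sB S w j x ^ 2) / q x - sG S w x ≤ - (sN S w x / q x) := by
      have e : sN S w x = ssq S w x * sG S w x - ∑ j, sB S w j x ^ 2 := rfl
      have hG := sG_nonneg S w x
      have h9 : ssq S w x * sG S w x / q x ≤ sG S w x := by
        rw [div_le_iff₀ hqx]
        have : q x = ssq S w x + δ := rfl
        rw [this]
        nlinarith [mul_nonneg hδ.le hG]
      rw [e, sub_div]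
      linarith
    have h9 := mul_le_mul_of_nonneg_left h8 (sq_nonneg (η x))
    rw [q1, q2, h7]
    have e : q x = ssq S w x + δ := rfl
    have e3 : V x * q x * η x ^ 2 = V x * ssq S w x * η x ^ 2 + δ * (V x * η x ^ 2) := by
      rw [e]; ring
    rw [e3]
    linarith
  have h2 : ∫ x, ((gs ξ x + V x * ξ x ^ 2)
      - ∑ i ∈ S, ((∑ j, pd j (w i) x * pd j (fun x => w i x * η x ^ 2) x)
        + V x * w i x * (w i x * η x ^ 2)))
      = ∫ x, (gs ξ x + V x * ξ x ^ 2) := by
    rw [integral_sub i5 i13, e2]; ring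
  have h3 : ∫ x, ((q x * gs η x + δ * (V x * η x ^ 2)) - η x ^ 2 * (sN S w x / q x))
      = (∫ x, q x * gs η x) + (∫ x, δ * (V x * η x ^ 2))
        - ∫ x, η x ^ 2 * (sN S w x / q x) := by
    have h4 := integral_sub (i6.add i7) i8
    have h5 := integral_add i6 i7
    simp only [Pi.add_apply] at h4
    rw [h4, h5]
  rw [h2, h3] at h1
  linarith

/-- The weighted inequality: `P` is any continuous nonnegative function with
`P Q² ≤ Q Σ|∇w_i|² - |Σ w_i ∇w_i|²`. -/
theorem fam_ineq (hw : ∀ i, ContDiff ℝ 1 (w i)) (hV : Continuous V)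
    (W : ∀ i, WeakLin V (w i)) (hs : Stb V) (hη : ContDiff ℝ 1 η)
    (hc : HasCompactSupport η) {P : (Fin n → ℝ) → ℝ} (hPc : Continuous P) (hP0 : ∀ x, 0 ≤ P x)
    (hP : ∀ x, P x * ssq S w x ^ 2 ≤ sN S w x) :
    ∫ x, ssq S w x * (P x * η x ^ 2) ≤ ∫ x, ssq S w x * gs η x := by
  have hη2 : ContDiff ℝ 1 (fun x => η x ^ 2) := hη.pow 2
  have hc2 : HasCompactSupport (fun x => η x ^ 2) := hcs_sq hc
  have hcc : Continuous (ssq S w) := (ssq_contDiff hw).continuous
  have j1 : Integrable (fun x => ssq S w x * (P x * η x ^ 2)) :=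
    (hcc.mul (hPc.mul hη2.continuous)).integrable_of_hasCompactSupport (hc2.mul_left.mul_left)
  have j2 : Integrable (fun x => ssq S w x * gs η x) :=
    (hcc.mul (continuous_gs hη)).integrable_of_hasCompactSupport (hcs_gs hc).mul_left
  have j3 : Integrable (gs η) := integrable_gs hη hc
  have j4 : Integrable (fun x => V x * η x ^ 2) :=
    (hV.mul hη2.continuous).integrable_of_hasCompactSupport hc2.mul_left
  have j5 : Integrable (fun x => P x * η x ^ 2) :=
    (hPc.mul hη2.continuous).integrable_of_hasCompactSupport hc2.mul_left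
  set A := ∫ x, ssq S w x * (P x * η x ^ 2) with hA
  set B := ∫ x, ssq S w x * gs η x with hB
  set D := (∫ x, gs η x) + (∫ x, V x * η x ^ 2) + ∫ x, P x * η x ^ 2 with hD
  have key : ∀ δ : ℝ, 0 < δ → A ≤ B + δ * D := by
    intro δ hδ
    have h1 := fam_delta (S := S) hw hV W hs hη hc hδ
    have hw0 : ∀ x, 0 < ssq S w x + δ := fun x => by have := ssq_nonneg S w x; linarith
    have hcn : Continuous (fun x => sN S w x / (ssq S w x + δ)) :=
      (sN_cont hw).div (hcc.add continuous_const) fun x => (hw0 x).ne'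
    have j8 : Integrable (fun x => η x ^ 2 * (sN S w x / (ssq S w x + δ))) :=
      (hη2.continuous.mul hcn).integrable_of_hasCompactSupport hc2.mul_right
    have h2 : ∫ x, (ssq S w x * (P x * η x ^ 2) - δ * (P x * η x ^ 2))
        ≤ ∫ x, η x ^ 2 * (sN S w x / (ssq S w x + δ)) := by
      refine integral_mono (j1.sub (j5.const_mul δ)) j8 fun x => ?_
      show ssq S w x * (P x * η x ^ 2) - δ * (P x * η x ^ 2)
        ≤ η x ^ 2 * (sN S w x / (ssq S w x + δ))
      have h3 : P x * (ssq S w x - δ) ≤ sN S w x / (ssq S w x + δ) := by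
        rw [le_div_iff₀ (hw0 x)]
        have h4 := hP x
        have h5 : 0 ≤ P x * δ ^ 2 := mul_nonneg (hP0 x) (sq_nonneg _)
        nlinarith
      have h6 := mul_le_mul_of_nonneg_left h3 (sq_nonneg (η x))
      linarith
    have h3 : ∫ x, (ssq S w x * (P x * η x ^ 2) - δ * (P x * η x ^ 2))
        = A - δ * ∫ x, P x * η x ^ 2 := by
      rw [integral_sub j1 (j5.const_mul δ), integral_const_mul]
    have h4 : ∫ x, (ssq S w x + δ) * gs η x = B + δ * ∫ x, gs η x := by
      have e : (fun x => (ssq S w x + δ) * gs η x)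
          = fun x => ssq S w x * gs η x + δ * gs η x := by funext x; ring
      rw [e, integral_add j2 (j3.const_mul δ), integral_const_mul]
    have h5 : ∫ x, δ * (V x * η x ^ 2) = δ * ∫ x, V x * η x ^ 2 := integral_const_mul _ _
    rw [h4, h5] at h1
    rw [h3] at h2
    rw [hD]
    nlinarith
  by_contra hneg
  push Not at hneg
  rcases le_or_gt D 0 with hD0 | hD0
  · have := key 1 one_pos
    linarith
  · have h1 := key ((A - B) / (2 * D)) (div_pos (by linarith) (by linarith))
    have h2 : (A - B) / (2 * D) * D = (A - B) / 2 := by field_simp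
    rw [h2] at h1
    linarith

end Vale.Agent.P134.R2.H584
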