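import Vale.Agent.P134.R2.H584.KFam

set_option linter.all false

/-! The gain coming from the invariance under all rotations of the coordinates in `S`. -/

open MeasureTheory Filter Topology

namespace Vale.Agent.P134.R2.H584

open Vale.Agent.P134 Vale.Agent.P134.SM Vale.Agent.P134.H775

variable {n : ℕ} {S : Finset (Fin n)} {u : (Fin n → ℝ) → ℝ}

/-- Infinitesimal invariance under the rotations of the coordinates in `S`. -/
def RotI (S : Finset (Fin n)) (u : (Fin n → ℝ) → ℝ) : Prop :=
  ∀ i ∈ S, ∀ k ∈ S, ∀ x, x i * pd k u x = x k * pd i u x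

/-- `Σ_{i∈S} x_i²`. -/
noncomputable def rS (S : Finset (Fin n)) (x : Fin n → ℝ) : ℝ := ∑ i ∈ S, x i ^ 2

/-- `Σ_{i∈S} (∂_i u)²`. -/
noncomputable def QS (S : Finset (Fin n)) (u : (Fin n → ℝ) → ℝ) (x : Fin n → ℝ) : ℝ :=
  ssq S (fun i => pd i u) x

lemma rS_nonneg (S : Finset (Fin n)) (x : Fin n → ℝ) : 0 ≤ rS S x :=
  Finset.sum_nonneg fun _ _ => sq_nonneg _

/-- Lagrange's identity. -/
lemma lagrange {ι : Type*} (S : Finset ι) (w a : ι → ℝ) :
    ∑ i ∈ S, ∑ k ∈ S, (w i * a k - w k * a i) ^ 2
      = 2 * ((∑ i ∈ S, w i ^ 2) * (∑ i ∈ S, a i ^ 2) - (∑ i ∈ S, w i * a i) ^ 2) := by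
  have h1 : ∀ i ∈ S, ∑ k ∈ S, (w i * a k - w k * a i) ^ 2
      = w i ^ 2 * (∑ k ∈ S, a k ^ 2) + a i ^ 2 * (∑ k ∈ S, w k ^ 2)
        - 2 * (w i * a i) * ∑ k ∈ S, w k * a k := by
    intro i _
    rw [Finset.mul_sum, Finset.mul_sum, Finset.mul_sum, ← Finset.sum_add_distrib,
      ← Finset.sum_sub_distrib]
    exact Finset.sum_congr rfl fun k _ => by ring
  rw [Finset.sum_congr rfl h1, Finset.sum_sub_distrib, Finset.sum_add_distrib, ← Finset.sum_mul,
    ← Finset.sum_mul, ← Finset.sum_mul, ← Finset.mul_sum]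
  ring

/-- The differentiated relation. -/
lemma rot_diff (hu : ContDiff ℝ 2 u) (h : RotI S u) {i k : Fin n} (hi : i ∈ S) (hk : k ∈ S)
    (j : Fin n) (x : Fin n → ℝ) :
    x i * pd j (pd k u) x - x k * pd j (pd i u) x
      = pd i u x * (if k = j then 1 else 0) - pd k u x * (if i = j then 1 else 0) := by
  have hd : ∀ l, DifferentiableAt ℝ (pd l u) x := fun l =>
    ((contDiff_pd_one hu).differentiable (by norm_num)) x
  have hc : ∀ l : Fin n, DifferentiableAt ℝ (fun y : Fin n → ℝ => y l) x := fun l =>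
    (ContinuousLinearMap.proj (R := ℝ) (φ := fun _ : Fin n => ℝ) l).differentiableAt
  have e : (fun y : Fin n → ℝ => y i * pd k u y) = fun y => y k * pd i u y :=
    funext fun y => h i hi k hk y
  have h1 := pd_mul (i := j) (hc i) (hd k)
  have h2 := pd_mul (i := j) (hc k) (hd i)
  rw [e, h2, pd_coord, pd_coord] at h1
  linarith

theorem rot_gain (hu : ContDiff ℝ 2 u) (h : RotI S u) (hS : 2 ≤ S.card) (x : Fin n → ℝ) :
    ((S.card : ℝ) - 1) * QS S u x ^ 2 ≤ rS S x * sN S (fun i => pd i u) x := by
  rcases (rS_nonneg S x).lt_or_eq with h0 | h0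
  · -- off the axis
    set lam : ℝ := (∑ k ∈ S, x k * pd k u x) / rS S x with hlam
    have hw : ∀ i ∈ S, pd i u x = lam * x i := by
      intro i hi
      rw [hlam, div_mul_eq_mul_div, eq_div_iff h0.ne']
      unfold rS
      rw [Finset.mul_sum, Finset.sum_mul]
      refine Finset.sum_congr rfl fun k hk => ?_
      have := h i hi k hk x
      calc pd i u x * x k ^ 2 = x k * (x k * pd i u x) := by ring
        _ = x k * (x i * pd k u x) := by rw [this]
        _ = _ := by ring
    have hQ : QS S u x = lam ^ 2 * rS S x := by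
      unfold QS ssq rS
      rw [Finset.mul_sum]
      exact Finset.sum_congr rfl fun i hi => by simp only [hw i hi]; ring
    have hN : 2 * sN S (fun i => pd i u) x
        = ∑ j, ∑ i ∈ S, ∑ k ∈ S, (pd i u x * pd j (pd k u) x - pd k u x * pd j (pd i u) x) ^ 2 := by
      have e1 : sN S (fun i => pd i u) x = ∑ j, ((∑ i ∈ S, pd i u x ^ 2)
          * (∑ i ∈ S, pd j (pd i u) x ^ 2) - (∑ i ∈ S, pd i u x * pd j (pd i u) x) ^ 2) := by
        unfold sN ssq sG sB gs
        rw [Finset.sum_sub_distrib, ← Finset.mul_sum, Finset.sum_comm]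
      rw [e1, Finset.mul_sum]
      refine Finset.sum_congr rfl fun j _ => ?_
      rw [lagrange]
    have hterm : ∀ i ∈ S, ∀ k ∈ S, ∑ j, (pd i u x * pd j (pd k u) x - pd k u x * pd j (pd i u) x) ^ 2
        = if i = k then 0 else lam ^ 4 * (x i ^ 2 + x k ^ 2) := by
      intro i hi k hk
      have e1 : ∀ j, pd i u x * pd j (pd k u) x - pd k u x * pd j (pd i u) x
          = lam ^ 2 * (x i * (if k = j then 1 else 0) - x k * (if i = j then 1 else 0)) := by
        intro j
        have h1 := rot_diff hu h hi hk j x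
        rw [hw i hi, hw k hk] at h1
        rw [hw i hi, hw k hk]
        calc lam * x i * pd j (pd k u) x - lam * x k * pd j (pd i u) x
            = lam * (x i * pd j (pd k u) x - x k * pd j (pd i u) x) := by ring
          _ = _ := by rw [h1]; ring
      simp_rw [e1]
      split_ifs with hik
      · subst hik
        simp
      · have e2 : ∀ j, (lam ^ 2 * (x i * (if k = j then 1 else 0)
            - x k * (if i = j then 1 else 0))) ^ 2
            = (if k = j then lam ^ 4 * x i ^ 2 else 0) + (if i = j then lam ^ 4 * x k ^ 2 else 0) := by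
          intro j
          by_cases h1 : k = j
          · have h2 : i ≠ j := fun h2 => hik (h2.trans h1.symm)
            simp only [h1, h2, if_true, if_false]; ring
          · by_cases h2 : i = j
            · simp only [h1, h2, if_true, if_false]; ring
            · simp only [h1, h2, if_false]; ring
        simp_rw [e2]
        rw [Finset.sum_add_distrib, Finset.sum_ite_eq, Finset.sum_ite_eq]
        simp only [Finset.mem_univ, if_true]
        ring
    have hsum : 2 * sN S (fun i => pd i u) x = 2 * (lam ^ 4 * (((S.card : ℝ) - 1) * rS S x)) := by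
      rw [hN, Finset.sum_comm]
      have e1 : ∀ i ∈ S, ∑ j, ∑ k ∈ S, (pd i u x * pd j (pd k u) x - pd k u x * pd j (pd i u) x) ^ 2
          = lam ^ 4 * ((S.card : ℝ) * x i ^ 2 + rS S x - 2 * x i ^ 2) := by
        intro i hi
        rw [Finset.sum_comm, Finset.sum_congr rfl fun k hk => hterm i hi k hk]
        have e2 : ∀ k ∈ S, (if i = k then (0:ℝ) else lam ^ 4 * (x i ^ 2 + x k ^ 2))
            = lam ^ 4 * (x i ^ 2 + x k ^ 2) - (if i = k then lam ^ 4 * (2 * x i ^ 2) else 0) := by
          intro k _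
          split_ifs with hik
          · subst hik; ring
          · ring
        rw [Finset.sum_congr rfl e2, Finset.sum_sub_distrib, Finset.sum_ite_eq, if_pos hi,
          ← Finset.mul_sum, Finset.sum_add_distrib, Finset.sum_const, nsmul_eq_mul]
        unfold rS
        ring
      rw [Finset.sum_congr rfl e1, ← Finset.mul_sum]
      have e3 : ∑ i ∈ S, ((S.card : ℝ) * x i ^ 2 + rS S x - 2 * x i ^ 2)
          = 2 * (((S.card : ℝ) - 1) * rS S x) := by
        rw [Finset.sum_sub_distrib, Finset.sum_add_distrib, ← Finset.mul_sum, ← Finset.mul_sum,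
          Finset.sum_const, nsmul_eq_mul]
        unfold rS
        ring
      rw [e3]
      ring
    have hsN : sN S (fun i => pd i u) x = lam ^ 4 * (((S.card : ℝ) - 1) * rS S x) := by linarith
    rw [hsN, hQ]
    exact le_of_eq (by ring)
  · -- on the axis
    have hx : ∀ i ∈ S, x i = 0 := by
      intro i hi
      have := (Finset.sum_eq_zero_iff_of_nonneg (fun i _ => sq_nonneg (x i))).mp h0.symm i hi
      exact pow_eq_zero_iff (two_ne_zero) |>.mp this
    have hw : ∀ k ∈ S, pd k u x = 0 := by
      intro k hk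
      obtain ⟨i, hi, hik⟩ := Finset.exists_mem_ne (s := S) (by omega) k
      have h1 := rot_diff hu h hi hk i x
      rw [hx i hi, hx k hk, if_neg (fun h => hik h.symm), if_pos rfl] at h1
      linarith
    have hQ : QS S u x = 0 := by
      unfold QS ssq
      exact Finset.sum_eq_zero fun k hk => by simp only [hw k hk]; ring
    rw [hQ, ← h0]
    simp

end Vale.Agent.P134.R2.H584
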