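import Vale.Agent.P134.B331.RowC

set_option linter.all false

/-! The weight `(1+|x|²)^(-b)` and the gradient of the test function. -/

open MeasureTheory Filter Topology

namespace Vale.Agent.P134.R2.H584

open Vale.Agent.P134 Vale.Agent.P134.H765 Vale.Agent.P134.B331 Vale.Agent.P134.B331.M

variable {n : ℕ} {b : ℝ} {x : Fin n → ℝ}

/-- The weight `(1+|x|²)^(-b)`. -/
noncomputable def wt (b : ℝ) (x : Fin n → ℝ) : ℝ := (1 + esq x) ^ (-b)

lemma wt_pos (b : ℝ) (x : Fin n → ℝ) : 0 < wt b x := Real.rpow_pos_of_pos (one_esq_pos x) _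

lemma wt_cd (b : ℝ) {k : WithTop ℕ∞} : ContDiff ℝ k (wt (n := n) b) := by
  unfold wt
  exact (contDiff_const.add esq_cd).rpow_const_of_ne fun x => (one_esq_pos x).ne'

lemma pd_one_esq (i : Fin n) (x : Fin n → ℝ) : pd i (fun y : Fin n → ℝ => 1 + esq y) x = 2 * x i := by
  have h3 : DifferentiableAt ℝ (esq (n := n)) x :=
    ((esq_cd : ContDiff ℝ 1 (esq (n := n))).differentiable (by norm_num)) x
  have h4 : pd i (fun y : Fin n → ℝ => 1 + esq y) x
      = pd i (fun _ : Fin n → ℝ => (1:ℝ)) x + pd i (esq (n := n)) x := by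
    unfold pd
    rw [fderiv_fun_add (by fun_prop) h3]
    rfl
  rw [h4, pd_const, pd_esq', zero_add]

lemma pd_wt (b : ℝ) (i : Fin n) (x : Fin n → ℝ) :
    pd i (wt b) x = -(2 * b) * (1 + esq x) ^ (-b - 1) * x i := by
  have h0 : DifferentiableAt ℝ (fun y : Fin n → ℝ => 1 + esq y) x :=
    ((contDiff_const.add esq_cd : ContDiff ℝ 1 fun y : Fin n → ℝ => 1 + esq y).differentiable
      (by norm_num)) x
  have hd : HasDerivAt (fun t : ℝ => t ^ (-b)) (-b * (1 + esq x) ^ (-b - 1)) (1 + esq x) :=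
    Real.hasDerivAt_rpow_const (Or.inl (one_esq_pos x).ne')
  have h1 := pd_comp (i := i) (h := fun t : ℝ => t ^ (-b)) (f := fun y : Fin n → ℝ => 1 + esq y)
    (x := x) hd.differentiableAt h0
  have h2 : (fun y : Fin n → ℝ => (fun t : ℝ => t ^ (-b)) (1 + esq y)) = wt b := rfl
  rw [h2, hd.deriv, pd_one_esq] at h1
  rw [h1]; ring

lemma sum_pd_wt (b : ℝ) (x : Fin n → ℝ) :
    ∑ i, pd i (wt b) x ^ 2 = 4 * b ^ 2 * (esq x * ((1 + esq x) ^ (-b - 1)) ^ 2) := by
  simp_rw [pd_wt]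
  have h1 : ∀ i, (-(2 * b) * (1 + esq x) ^ (-b - 1) * x i) ^ 2
      = 4 * b ^ 2 * ((1 + esq x) ^ (-b - 1)) ^ 2 * x i ^ 2 := fun i => by ring
  simp_rw [h1]
  rw [← Finset.mul_sum]
  unfold esq
  ring

lemma abs_pd_wt_le (hb : 0 ≤ b) (i : Fin n) {R : ℝ} (hR : 0 < R) (hx : R ^ 2 ≤ esq x) :
    |pd i (wt b) x| ≤ 2 * b * ((R ^ 2) ^ (-b) / R) := by
  rw [pd_wt, abs_mul, abs_mul, abs_neg, abs_of_nonneg (by positivity : (0:ℝ) ≤ 2 * b),
    abs_of_pos (Real.rpow_pos_of_pos (one_esq_pos x) _), mul_assoc]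
  apply mul_le_mul_of_nonneg_left _ (by positivity)
  have he := one_esq_pos x
  have hR2 : 0 < R ^ 2 := by positivity
  have h1 : |x i| ≤ (1 + esq x) ^ (1 / 2 : ℝ) := by
    rw [← Real.sqrt_eq_rpow]
    apply Real.abs_le_sqrt
    have := Finset.single_le_sum (f := fun j => x j ^ 2) (fun i _ => sq_nonneg _) (Finset.mem_univ i)
    unfold esq
    linarith
  calc (1 + esq x) ^ (-b - 1) * |x i| ≤ (1 + esq x) ^ (-b - 1) * (1 + esq x) ^ (1 / 2 : ℝ) :=
        mul_le_mul_of_nonneg_left h1 (Real.rpow_nonneg he.le _)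
    _ = (1 + esq x) ^ (-b - 1 / 2) := by
        rw [← Real.rpow_add he]; congr 1; ring
    _ ≤ (R ^ 2) ^ (-b - 1 / 2) := by
        apply Real.rpow_le_rpow_of_nonpos hR2 (by linarith) (by linarith)
    _ = (R ^ 2) ^ (-b) / R := by
        rw [Real.rpow_sub hR2, ← Real.sqrt_eq_rpow, Real.sqrt_sq hR.le]

lemma wt_le (hb : 0 ≤ b) {R : ℝ} (hR : 0 < R) (hx : R ^ 2 ≤ esq x) : wt b x ≤ (R ^ 2) ^ (-b) := by
  unfold wt
  exact Real.rpow_le_rpow_of_nonpos (by positivity) (by linarith) (by linarith)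

/-- Pointwise bound of the gradient of the test function. -/
theorem wt_grad_bound (n : ℕ) (hb : 0 ≤ b) : ∃ C : ℝ, 0 ≤ C ∧ ∀ (R : ℝ), 0 < R →
    ∀ x : Fin n → ℝ, ∑ i, pd i (fun y => wt b y * cutb Finset.univ R y) x ^ 2
      ≤ cutb Finset.univ R x ^ 2 * (4 * b ^ 2 * (esq x * ((1 + esq x) ^ (-b - 1)) ^ 2))
        + C * (((R ^ 2) ^ (-b)) ^ 2 / R ^ 2) * ind (box n (2 * R)) x := by
  obtain ⟨C, hC1, hC⟩ := exists_th_bound
  refine ⟨n * (9 * C ^ 2 + 12 * b * C), by positivity, fun R hR x => ?_⟩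
  have hdw : DifferentiableAt ℝ (wt (n := n) b) x :=
    ((wt_cd b : ContDiff ℝ 1 (wt (n := n) b)).differentiable (by norm_num)) x
  have hdc : DifferentiableAt ℝ (cutb (n := n) Finset.univ R) x :=
    ((cutb_contDiff (n := n) Finset.univ R).differentiable (by norm_num)) x
  have hpd : ∀ i, pd i (fun y => wt b y * cutb Finset.univ R y) x
      = wt b x * pd i (cutb Finset.univ R) x + cutb Finset.univ R x * pd i (wt b) x := fun i =>
    pd_mul hdw hdc
  simp_rw [hpd]
  set D : ℝ := ((R ^ 2) ^ (-b)) ^ 2 / R ^ 2 with hD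
  have hD0 : 0 ≤ D := by positivity
  by_cases h1 : rho Finset.univ x / R ^ 2 < 1
  · have h2 : ∀ i, pd i (cutb Finset.univ R) x = 0 := fun i => by
      rw [pd_cutb, th_deriv_of_lt h1, zero_mul]
    simp_rw [h2, mul_zero, zero_add, mul_pow]
    rw [← Finset.mul_sum, sum_pd_wt]
    have h3 : 0 ≤ n * (9 * C ^ 2 + 12 * b * C) * D * ind (box n (2 * R)) x :=
      mul_nonneg (by positivity) (ind_nonneg _ _)
    linarith
  by_cases h2 : 2 < rho Finset.univ x / R ^ 2
  · have h3 : ∀ i, pd i (cutb Finset.univ R) x = 0 := fun i => by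
      rw [pd_cutb, th_deriv_of_gt h2, zero_mul]
    have h4 : cutb Finset.univ R x = 0 := th_zero h2.le
    simp_rw [h3, h4]
    simp only [mul_zero, zero_mul, add_zero, ne_eq, OfNat.ofNat_ne_zero, not_false_eq_true,
      zero_pow, Finset.sum_const_zero, zero_add]
    exact mul_nonneg (by positivity) (ind_nonneg _ _)
  rw [not_lt] at h1 h2
  have hR2 : 0 < R ^ 2 := by positivity
  rw [le_div_iff₀ hR2, one_mul] at h1
  rw [div_le_iff₀ hR2] at h2
  have hbox : x ∈ box n (2 * R) := by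
    rw [mem_box]
    intro i
    apply abs_le_of_sq_le_sq _ (by positivity)
    have := sq_le_rho (Finset.mem_univ i) x
    nlinarith
  rw [ind_mem hbox, mul_one]
  have hesq : R ^ 2 ≤ esq x := h1
  have hwR := wt_le hb hR hesq
  have hw0 := (wt_pos b x).le
  have hA0 : 0 ≤ (R ^ 2) ^ (-b) := by positivity
  have hχ0 := cutb_nonneg Finset.univ R x
  have hχ1 := cutb_le_one Finset.univ R x
  have hterm : ∀ i, (wt b x * pd i (cutb Finset.univ R) x + cutb Finset.univ R x * pd i (wt b) x) ^ 2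
      ≤ cutb Finset.univ R x ^ 2 * pd i (wt b) x ^ 2 + (9 * C ^ 2 + 12 * b * C) * D := by
    intro i
    have ha : |pd i (cutb Finset.univ R) x| ≤ 3 * C / R := pd_cutb_bound hC Finset.univ hR
    have hbb : |pd i (wt b) x| ≤ 2 * b * ((R ^ 2) ^ (-b) / R) := abs_pd_wt_le hb i hR hesq
    have e1 : (wt b x * pd i (cutb Finset.univ R) x) ^ 2 ≤ 9 * C ^ 2 * D := by
      rw [mul_pow]
      calc wt b x ^ 2 * pd i (cutb Finset.univ R) x ^ 2
          ≤ ((R ^ 2) ^ (-b)) ^ 2 * (3 * C / R) ^ 2 := by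
            apply mul_le_mul (pow_le_pow_left₀ hw0 hwR 2) _ (sq_nonneg _) (by positivity)
            rw [← sq_abs]
            exact pow_le_pow_left₀ (abs_nonneg _) ha 2
        _ = 9 * C ^ 2 * D := by
            rw [hD]; field_simp; ring
    have e2 : 2 * (wt b x * pd i (cutb Finset.univ R) x) * (cutb Finset.univ R x * pd i (wt b) x)
        ≤ 12 * b * C * D := by
      calc 2 * (wt b x * pd i (cutb Finset.univ R) x) * (cutb Finset.univ R x * pd i (wt b) x)
          ≤ |2 * (wt b x * pd i (cutb Finset.univ R) x) * (cutb Finset.univ R x * pd i (wt b) x)| :=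
            le_abs_self _
        _ = 2 * (wt b x * |pd i (cutb Finset.univ R) x|) * (cutb Finset.univ R x * |pd i (wt b) x|) := by
            rw [abs_mul, abs_mul, abs_mul, abs_mul, abs_two, abs_of_nonneg hw0, abs_of_nonneg hχ0]
        _ ≤ 2 * ((R ^ 2) ^ (-b) * (3 * C / R)) * (1 * (2 * b * ((R ^ 2) ^ (-b) / R))) := by
            gcongr
        _ = 12 * b * C * D := by
            rw [hD]; field_simp; ring
    calc (wt b x * pd i (cutb Finset.univ R) x + cutb Finset.univ R x * pd i (wt b) x) ^ 2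
        = (wt b x * pd i (cutb Finset.univ R) x) ^ 2
          + 2 * (wt b x * pd i (cutb Finset.univ R) x) * (cutb Finset.univ R x * pd i (wt b) x)
          + cutb Finset.univ R x ^ 2 * pd i (wt b) x ^ 2 := by ring
      _ ≤ 9 * C ^ 2 * D + 12 * b * C * D + cutb Finset.univ R x ^ 2 * pd i (wt b) x ^ 2 := by
          linarith
      _ = _ := by ring
  calc ∑ i, (wt b x * pd i (cutb Finset.univ R) x + cutb Finset.univ R x * pd i (wt b) x) ^ 2
      ≤ ∑ i : Fin n, (cutb Finset.univ R x ^ 2 * pd i (wt b) x ^ 2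
        + (9 * C ^ 2 + 12 * b * C) * D) :=
        Finset.sum_le_sum fun i _ => hterm i
    _ = cutb Finset.univ R x ^ 2 * (4 * b ^ 2 * (esq x * ((1 + esq x) ^ (-b - 1)) ^ 2))
        + n * (9 * C ^ 2 + 12 * b * C) * D := by
        rw [Finset.sum_add_distrib, ← Finset.mul_sum, sum_pd_wt]
        simp only [Finset.sum_const, Finset.card_univ, Fintype.card_fin, nsmul_eq_mul]
        ring

end Vale.Agent.P134.R2.H584
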