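import Vale.Agent.P134.B331.RowB
import Vale.Agent.P134.R2.H584.Wt
import Vale.Agent.P134.R2.H584.Rot

set_option linter.all false

/-! The critical Liouville theorem for solutions invariant under the rotations of the coordinates
in `S`. -/

open MeasureTheory Filter Topology

namespace Vale.Agent.P134.R2.H584

open Vale.Agent.P134 Vale.Agent.P134.H765 Vale.Agent.P134.B331 Vale.Agent.P134.B331.M
open Vale.Agent.P134.H775 (Stb)

variable {n : ℕ} {b : ℝ} {S : Finset (Fin n)} {u : (Fin n → ℝ) → ℝ}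

lemma QS_nonneg (S : Finset (Fin n)) (u : (Fin n → ℝ) → ℝ) (x : Fin n → ℝ) : 0 ≤ QS S u x :=
  ssq_nonneg _ _ _

lemma QS_cont (hu : Sol u) (S : Finset (Fin n)) : Continuous (QS S u) :=
  (ssq_contDiff fun i => contDiff_pd_one hu.c2).continuous

lemma rS_cont (S : Finset (Fin n)) : Continuous (rS S) :=
  continuous_finsetSum _ fun i _ => (continuous_apply i).pow 2

lemma rS_le (S : Finset (Fin n)) (x : Fin n → ℝ) : rS S x ≤ esq x :=
  Finset.sum_le_sum_of_subset_of_nonneg (Finset.subset_univ S) fun _ _ _ => sq_nonneg _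

lemma rS_add_le (S : Finset (Fin n)) (x : Fin n → ℝ) {i : Fin n} (hi : i ∉ S) :
    rS S x + x i ^ 2 ≤ esq x := by
  have h1 : rS S x + x i ^ 2 = ∑ j ∈ insert i S, x j ^ 2 := by
    rw [Finset.sum_insert hi]; unfold rS; ring
  rw [h1]
  exact Finset.sum_le_sum_of_subset_of_nonneg (Finset.subset_univ _) fun _ _ _ => sq_nonneg _

/-- the density of the gain -/
noncomputable def FF (b : ℝ) (g Q : (Fin n → ℝ) → ℝ) (x : Fin n → ℝ) : ℝ :=
  (g x * wt b x ^ 2 - 4 * b ^ 2 * (esq x * ((1 + esq x) ^ (-b - 1)) ^ 2)) * Q x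

lemma FF_cont {g Q : (Fin n → ℝ) → ℝ} (hg : Continuous g) (hQ : Continuous Q) :
    Continuous (FF b g Q) := by
  have hw : Continuous (wt (n := n) b) := (wt_cd b : ContDiff ℝ 1 (wt (n := n) b)).continuous
  have h1 : Continuous fun x : Fin n → ℝ => (1 + esq x) ^ (-b - 1) :=
    (continuous_const.add continuous_esq).rpow_const fun x => Or.inl (one_esq_pos x).ne'
  exact ((hg.mul (hw.pow 2)).sub (continuous_const.mul (continuous_esq.mul (h1.pow 2)))).mul hQ

/-- The gain inequality. -/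
theorem gain_fam (n : ℕ) (hb : 0 ≤ b) : ∃ C2 : ℝ, 0 ≤ C2 ∧ ∀ (u : (Fin n → ℝ) → ℝ),
    Sol u → Stb (fun x => 3 * u x ^ 2 - 1) → ∀ (S : Finset (Fin n)) (g : (Fin n → ℝ) → ℝ),
    Continuous g → (∀ x, 0 ≤ g x) →
    (∀ x, g x * QS S u x ^ 2 ≤ sN S (fun i => pd i u) x) → ∀ R : ℝ, 0 < R →
    ∫ x, cutb Finset.univ R x ^ 2 * FF b g (QS S u) x
      ≤ C2 * (((R ^ 2) ^ (-b)) ^ 2 / R ^ 2) * ∫ x in box n (2 * R), QS S u x := by
  obtain ⟨C2, hC2, hbd⟩ := wt_grad_bound (b := b) n hb
  refine ⟨C2, hC2, fun u hu hs S g hg hg0 hgain R hR => ?_⟩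
  obtain ⟨K0, hC0, hC1, hC2', -⟩ := hu.exists_bound
  have hVc : Continuous (fun x => 3 * u x ^ 2 - 1) :=
    (continuous_const.mul (hu.c2.continuous.pow 2)).sub continuous_const
  have hwc : Continuous (wt (n := n) b) := (wt_cd b : ContDiff ℝ 1 (wt (n := n) b)).continuous
  have hQ := QS_cont hu S
  have hcs := cutb_hcs (n := n) hR
  have hcs2 : HasCompactSupport (fun x : Fin n → ℝ => cutb Finset.univ R x ^ 2) := hcs_pow hcs
  have hcc2 : Continuous (fun x : Fin n → ℝ => cutb Finset.univ R x ^ 2) := cutb_cont.pow 2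
  have hφ1 : ContDiff ℝ 1 (fun y : Fin n → ℝ => wt b y * cutb Finset.univ R y) :=
    (wt_cd b).mul (cutb_contDiff Finset.univ R)
  have hφc : HasCompactSupport (fun y : Fin n → ℝ => wt b y * cutb Finset.univ R y) := hcs.mul_left
  have h1 := fam_ineq (S := S) (w := fun i => pd i u) (fun i => contDiff_pd_one hu.c2) hVc
    (fun i => hu.weakLin hC1 hC2' i) hs hφ1 hφc hg hg0 hgain
  have hE : Continuous fun x : Fin n → ℝ => (1 + esq x) ^ (-b - 1) :=
    (continuous_const.add continuous_esq).rpow_const fun x => Or.inl (one_esq_pos x).ne'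
  have c1 : Continuous (fun x => 4 * b ^ 2 * (esq x * ((1 + esq x) ^ (-b - 1)) ^ 2) * QS S u x) :=
    (continuous_const.mul (continuous_esq.mul (hE.pow 2))).mul hQ
  have i1 : Integrable (fun x => cutb Finset.univ R x ^ 2
      * (4 * b ^ 2 * (esq x * ((1 + esq x) ^ (-b - 1)) ^ 2) * QS S u x)) := int_cc hcc2 c1 hcs2
  have i2 : Integrable (fun x => QS S u x * ind (box n (2 * R)) x) :=
    integrable_mul_ind hQ (isCompact_box _)
  have c3 : Continuous (fun x => g x * QS S u x) := hg.mul hQ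
  have i3 : Integrable (fun x => (wt b x * cutb Finset.univ R x) ^ 2 * (g x * QS S u x)) :=
    int_cc (hφ1.continuous.pow 2) c3 (hcs_pow hφc)
  have i4 : Integrable (fun x => QS S u x
      * SM.gs (fun y => wt b y * cutb Finset.univ R y) x) := int_gs hQ hφ1 hφc
  set D : ℝ := C2 * (((R ^ 2) ^ (-b)) ^ 2 / R ^ 2) with hD
  have h2 : ∫ x, QS S u x * SM.gs (fun y => wt b y * cutb Finset.univ R y) x
      ≤ (∫ x, cutb Finset.univ R x ^ 2
        * (4 * b ^ 2 * (esq x * ((1 + esq x) ^ (-b - 1)) ^ 2) * QS S u x))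
        + D * ∫ x, QS S u x * ind (box n (2 * R)) x := by
    rw [← integral_const_mul, ← integral_add i1 (i2.const_mul _)]
    apply integral_mono i4 (i1.add (i2.const_mul _))
    intro x
    have h3 := hbd R hR x
    have h4 := mul_le_mul_of_nonneg_left h3 (QS_nonneg S u x)
    refine h4.trans (le_of_eq ?_)
    simp only [Pi.add_apply]
    rw [hD]
    ring
  rw [integral_mul_ind (isCompact_box _).measurableSet] at h2
  have h5 : ∫ x, cutb Finset.univ R x ^ 2 * FF b g (QS S u) x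
      = (∫ x, (wt b x * cutb Finset.univ R x) ^ 2 * (g x * QS S u x))
        - ∫ x, cutb Finset.univ R x ^ 2
          * (4 * b ^ 2 * (esq x * ((1 + esq x) ^ (-b - 1)) ^ 2) * QS S u x) := by
    rw [← integral_sub i3 i1]
    congr 1
    ext x
    unfold FF
    ring
  have h6 : ∫ x, (wt b x * cutb Finset.univ R x) ^ 2 * (g x * QS S u x)
      = ∫ x, ssq S (fun i => pd i u) x * (g x * (wt b x * cutb Finset.univ R x) ^ 2) := by
    congr 1
    ext x
    unfold QS
    ring
  have h7 : ∫ x, ssq S (fun i => pd i u) x * SM.gs (fun y => wt b y * cutb Finset.univ R y) x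
      = ∫ x, QS S u x * SM.gs (fun y => wt b y * cutb Finset.univ R y) x := rfl
  rw [h5, h6]
  linarith

end Vale.Agent.P134.R2.H584
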