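import Vale.Agent.P134.R2.H584.Liou

set_option linter.all false

/-! Thin neighbourhoods of the coordinate plane of `S` carry little energy (grid covering). -/

open MeasureTheory Filter Topology

namespace Vale.Agent.P134.R2.H584

open Vale.Agent.P134 Vale.Agent.P134.H765 Vale.Agent.P134.B331 Vale.Agent.P134.B331.M
open Classical

variable {n k : ℕ} {S : Finset (Fin n)} {u : (Fin n → ℝ) → ℝ}

lemma floor_mem {R ρ t : ℝ} (hρ : 0 < ρ) (ht : |t| ≤ R) :
    |t - ((2 * (⌊(t + R) / (2 * ρ)⌋₊ : ℕ) + 1) * ρ - R)| ≤ ρ := by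
  have h1 := abs_le.mp ht
  have h0 : 0 ≤ (t + R) / (2 * ρ) := div_nonneg (by linarith [h1.1]) (by positivity)
  have h2 := Nat.floor_le h0
  have h3 := Nat.lt_floor_add_one ((t + R) / (2 * ρ))
  rw [le_div_iff₀ (by positivity)] at h2
  rw [div_lt_iff₀ (by positivity)] at h3
  rw [abs_le]
  constructor <;> nlinarith

lemma floor_le {R ρ t : ℝ} {N : ℕ} (hρ : 0 < ρ) (hN : R = N * ρ) (ht : |t| ≤ R) :
    ⌊(t + R) / (2 * ρ)⌋₊ < N + 1 := by
  have h1 := abs_le.mp ht
  rw [Nat.lt_succ_iff]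
  apply Nat.floor_le_of_le
  rw [div_le_iff₀ (by positivity)]
  nlinarith

/-- Centres of the grid. -/
noncomputable def zc (S : Finset (Fin n)) (R ρ : ℝ) (p : Fin n → ℕ) : Fin n → ℝ :=
  fun i => if i ∈ S then (2 * (p i : ℝ) + 1) * ρ - R else 0

/-- The thin set. -/
def thin (S : Finset (Fin n)) (N : ℕ) (R : ℝ) : Set (Fin n → ℝ) :=
  {x | x ∈ box n R ∧ ∀ i, i ∉ S → |x i| ≤ R / N}

lemma thin_meas (S : Finset (Fin n)) (N : ℕ) (R : ℝ) : MeasurableSet (thin S N R) := by
  have e : thin S N R = box n R ∩ ⋂ i : Fin n, {x : Fin n → ℝ | i ∉ S → |x i| ≤ R / N} := by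
    ext x; simp [thin]
  rw [e]
  refine (isCompact_box R).isClosed.measurableSet.inter (MeasurableSet.iInter fun i => ?_)
  by_cases hi : i ∈ S
  · have : {x : Fin n → ℝ | i ∉ S → |x i| ≤ R / N} = Set.univ := by
      ext x; simp [hi]
    rw [this]; exact MeasurableSet.univ
  · have : {x : Fin n → ℝ | i ∉ S → |x i| ≤ R / N} = {x | |x i| ≤ R / N} := by
      ext x; simp [hi]
    rw [this]
    exact (isClosed_le (continuous_apply i).abs continuous_const).measurableSet

/-- Thin neighbourhoods carry little energy. -/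
theorem thin_small (F : (Fin n → ℝ) → ℝ) (cf : Continuous F) (hF0 : ∀ x, 0 ≤ F x) {K : ℝ}
    (hcard : S.card = k + 1)
    (hK : ∀ (z : Fin n → ℝ) (R : ℝ), 1 ≤ R → ∫ x in box n R, F (x + z) ≤ K * R ^ (k + 2)) {ε : ℝ}
    (hε : 0 < ε) :
    ∃ N : ℕ, 1 ≤ N ∧ ∀ R : ℝ, (N : ℝ) ≤ R → ∫ x in thin S N R, F x ≤ ε * R ^ (k + 2) := by
  obtain ⟨N, hN⟩ := exists_nat_gt (max 1 (2 ^ (k + 1) * (|K| + 1) / ε))
  have hN1 : (1:ℝ) < N := lt_of_le_of_lt (le_max_left _ _) hN
  have hN0 : (0:ℝ) < N := by linarith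
  have hN2 : 2 ^ (k + 1) * (|K| + 1) ≤ ε * N := by
    have := (le_max_right 1 (2 ^ (k + 1) * (|K| + 1) / ε)).trans hN.le
    rw [div_le_iff₀ hε] at this
    linarith
  refine ⟨N, by exact_mod_cast hN1.le, fun R hR => ?_⟩
  have hR0 : 0 < R := by linarith
  set ρ : ℝ := R / N with hρ
  have hρ1 : 1 ≤ ρ := by rw [hρ, le_div_iff₀ hN0]; linarith
  have hρ0 : 0 < ρ := by linarith
  have hNρ : R = N * ρ := by rw [hρ]; field_simp
  have mb : ∀ r : ℝ, MeasurableSet (box n r) := fun r => (isCompact_box r).isClosed.measurableSet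
  have mS := thin_meas S N R
  -- translated boxes
  set T : (Fin n → ℕ) → Set (Fin n → ℝ) := fun p => {x | x - zc S R ρ p ∈ box n ρ} with hT
  have mT : ∀ p, MeasurableSet (T p) := fun p =>
    (mb ρ).preimage (measurable_id.sub measurable_const)
  have cT : ∀ p, IsCompact (T p) := by
    intro p
    have h1 := (isCompact_box (n := n) ρ).image (continuous_id.add continuous_const :
      Continuous (fun x : Fin n → ℝ => x + zc S R ρ p))
    convert h1 using 1
    ext x
    simp only [hT, Set.mem_setOf_eq, Set.mem_image]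
    constructor
    · intro h; exact ⟨x - zc S R ρ p, h, by simp⟩
    · rintro ⟨z, hz, rfl⟩; simpa using hz
  have iT : ∀ p, Integrable ((T p).indicator F) := fun p =>
    (integrable_indicator_iff (mT p)).mpr (cf.continuousOn.integrableOn_compact (cT p))
  have vT : ∀ p, ∫ x, (T p).indicator F x ≤ K * ρ ^ (k + 2) := by
    intro p
    rw [← integral_add_right_eq_self _ (zc S R ρ p)]
    have e : ∀ x, (T p).indicator F (x + zc S R ρ p)
        = (box n ρ).indicator (fun x => F (x + zc S R ρ p)) x := by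
      intro x
      by_cases hx : x ∈ box n ρ
      · rw [Set.indicator_of_mem hx, Set.indicator_of_mem]
        simpa [hT] using hx
      · rw [Set.indicator_of_notMem hx, Set.indicator_of_notMem]
        simpa [hT] using hx
    simp_rw [e]
    rw [integral_indicator (mb ρ)]
    exact hK _ ρ hρ1
  set I : Finset (Fin n → ℕ) := Fintype.piFinset
    (fun i : Fin n => if i ∈ S then Finset.range (N + 1) else {0}) with hI
  have hle : ∀ x, (thin S N R).indicator F x ≤ ∑ p ∈ I, (T p).indicator F x := by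
    intro x
    have h0 : ∀ p ∈ I, 0 ≤ (T p).indicator F x := fun p _ =>
      Set.indicator_nonneg (fun _ _ => hF0 _) _
    by_cases hx : x ∈ thin S N R
    · rw [Set.indicator_of_mem hx]
      obtain ⟨hb, h2⟩ := hx
      have hb' := mem_box.mp hb
      set p : Fin n → ℕ := fun i => if i ∈ S then ⌊(x i + R) / (2 * ρ)⌋₊ else 0 with hp
      have hpI : p ∈ I := by
        rw [hI, Fintype.mem_piFinset]
        intro i
        by_cases hi : i ∈ S
        · simp only [hp, hi, if_true, Finset.mem_range]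
          exact floor_le hρ0 hNρ (hb' i)
        · simp only [hp, hi, if_false, Finset.mem_singleton]
      refine le_trans (le_of_eq ?_) (Finset.single_le_sum h0 hpI)
      rw [Set.indicator_of_mem]
      show x - zc S R ρ p ∈ box n ρ
      rw [mem_box]
      intro i
      by_cases hi : i ∈ S
      · have q0 := floor_mem hρ0 (hb' i)
        simp only [Pi.sub_apply, zc, hp, hi, if_true]
        exact q0
      · simp only [Pi.sub_apply, zc, hi, if_false, sub_zero]
        exact h2 i hi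
    · rw [Set.indicator_of_notMem hx]
      exact Finset.sum_nonneg h0
  have iS : Integrable ((thin S N R).indicator F) := by
    rw [integrable_indicator_iff mS]
    exact (cf.continuousOn.integrableOn_compact (isCompact_box R)).mono_set fun x hx => hx.1
  have h1 : ∫ x in thin S N R, F x ≤ ∑ p ∈ I, K * ρ ^ (k + 2) := by
    rw [← integral_indicator mS]
    calc ∫ x, (thin S N R).indicator F x
        ≤ ∫ x, ∑ p ∈ I, (T p).indicator F x :=
          integral_mono iS (integrable_finset_sum _ fun p _ => iT p) hle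
      _ = ∑ p ∈ I, ∫ x, (T p).indicator F x :=
          integral_finset_sum _ fun p _ => iT p
      _ ≤ _ := Finset.sum_le_sum fun p _ => vT p
  have hIc : I.card = (N + 1) ^ (k + 1) := by
    rw [hI, Fintype.card_piFinset]
    have e : ∀ i : Fin n, (if i ∈ S then Finset.range (N + 1) else ({0} : Finset ℕ)).card
        = if i ∈ S then N + 1 else 1 := by
      intro i
      split_ifs <;> simp
    simp_rw [e]
    rw [Finset.prod_ite_mem, Finset.univ_inter, Finset.prod_const, hcard]
  have h2 : ∑ p ∈ I, K * ρ ^ (k + 2) = ((N:ℝ) + 1) ^ (k + 1) * (K * ρ ^ (k + 2)) := by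
    rw [Finset.sum_const, hIc, nsmul_eq_mul]
    push_cast
    ring
  rw [h2] at h1
  refine h1.trans ?_
  have h3 : K * ρ ^ (k + 2) ≤ (|K| + 1) * ρ ^ (k + 2) := by
    apply mul_le_mul_of_nonneg_right _ (by positivity)
    linarith [le_abs_self K]
  have h4 : ((N:ℝ) + 1) ^ (k + 1) ≤ 2 ^ (k + 1) * (N:ℝ) ^ (k + 1) := by
    rw [← mul_pow]
    exact pow_le_pow_left₀ (by positivity) (by linarith) _
  have h5 : R ^ (k + 2) = (N:ℝ) ^ (k + 2) * ρ ^ (k + 2) := by rw [hNρ, mul_pow]
  rw [h5]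
  have h6 : (0:ℝ) < |K| + 1 := by positivity
  calc ((N:ℝ) + 1) ^ (k + 1) * (K * ρ ^ (k + 2))
      ≤ ((N:ℝ) + 1) ^ (k + 1) * ((|K| + 1) * ρ ^ (k + 2)) :=
        mul_le_mul_of_nonneg_left h3 (by positivity)
    _ ≤ 2 ^ (k + 1) * (N:ℝ) ^ (k + 1) * ((|K| + 1) * ρ ^ (k + 2)) :=
        mul_le_mul_of_nonneg_right h4 (by positivity)
    _ = (2 ^ (k + 1) * (|K| + 1)) * (N:ℝ) ^ (k + 1) * ρ ^ (k + 2) := by ring
    _ ≤ (ε * N) * (N:ℝ) ^ (k + 1) * ρ ^ (k + 2) := by
        apply mul_le_mul_of_nonneg_right _ (by positivity)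
        exact mul_le_mul_of_nonneg_right hN2 (by positivity)
    _ = ε * ((N:ℝ) ^ (k + 2) * ρ ^ (k + 2)) := by ring

end Vale.Agent.P134.R2.H584
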